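import Crest.Agent.R73.Asymp

/-!
Operators tensored with permutations, almost invariant vectors, and the robust gap for them.
-/

set_option autoImplicit false

namespace Crest.Agent.R73

open Finset Filter Topology
open scoped InnerProductSpace

section ampl

variable {H : Type} [NormedAddCommGroup H] [InnerProductSpace ℂ H] {Y : Type} [Fintype Y]

/-- `H`-valued functions on a finite set -/
abbrev VF (Y H : Type) : Type := PiLp 2 (fun _ : Y => H)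

omit [InnerProductSpace ℂ H] in
theorem VF.norm_sq (ξ : VF Y H) : ‖ξ‖ ^ 2 = ∑ y, ‖ξ y‖ ^ 2 := PiLp.norm_sq_eq_of_L2 _ ξ

theorem le_of_sq_le {a b : ℝ} (hb : 0 ≤ b) (h : a ^ 2 ≤ b ^ 2) : a ≤ b :=
  (abs_le_of_sq_le_sq' h hb).2

/-- `T ⊗ σ` -/
noncomputable def ampl (T : H →L[ℂ] H) (σ : Equiv.Perm Y) : VF Y H →L[ℂ] VF Y H :=
  LinearMap.mkContinuous
    { toFun := fun ξ => WithLp.toLp 2 fun y => T (ξ (σ.symm y))
      map_add' := fun ξ ζ => by ext y; simp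
      map_smul' := fun c ξ => by ext y; simp } ‖T‖ (fun ξ => by
        refine le_of_sq_le (by positivity) ?_
        rw [mul_pow, VF.norm_sq, VF.norm_sq, Finset.mul_sum]
        rw [← Equiv.sum_comp σ.symm (fun y => ‖T‖ ^ 2 * ‖ξ y‖ ^ 2)]
        refine Finset.sum_le_sum fun y _ => ?_
        rw [← mul_pow]
        simp only [LinearMap.coe_mk, AddHom.coe_mk]
        gcongr
        exact T.le_opNorm _)

@[simp] theorem ampl_apply (T : H →L[ℂ] H) (σ : Equiv.Perm Y) (ξ : VF Y H) (y : Y) :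
    ampl T σ ξ y = T (ξ (σ.symm y)) := rfl

theorem norm_ampl_le (T : H →L[ℂ] H) (σ : Equiv.Perm Y) : ‖ampl T σ‖ ≤ ‖T‖ :=
  LinearMap.mkContinuous_norm_le _ (norm_nonneg _) _

theorem ampl_mul (T T' : H →L[ℂ] H) (σ σ' : Equiv.Perm Y) :
    ampl T σ * ampl T' σ' = ampl (T * T') (σ * σ') := by
  ext ξ y
  rfl

theorem ampl_sub (T T' : H →L[ℂ] H) (σ : Equiv.Perm Y) :
    ampl T σ - ampl T' σ = ampl (T - T') σ := by
  ext ξ y
  rfl

theorem ampl_one : ampl (1 : H →L[ℂ] H) (1 : Equiv.Perm Y) = 1 := by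
  ext ξ y
  rfl

theorem ampl_star [CompleteSpace H] (T : H →L[ℂ] H) (σ : Equiv.Perm Y) :
    star (ampl T σ) = ampl (star T) σ⁻¹ := by
  symm
  rw [ContinuousLinearMap.star_eq_adjoint (ampl T σ), ContinuousLinearMap.eq_adjoint_iff]
  intro ξ ζ
  rw [PiLp.inner_apply, PiLp.inner_apply]
  rw [← Equiv.sum_comp σ (fun y => ⟪ξ y, ampl T σ ζ y⟫_ℂ)]
  refine Finset.sum_congr rfl fun y _ => ?_
  simp only [ampl_apply, ContinuousLinearMap.star_eq_adjoint, ContinuousLinearMap.adjoint_inner_left,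
    Equiv.symm_apply_apply]
  rfl

theorem ampl_defect_sq (T T' : H →L[ℂ] H) (σ : Equiv.Perm Y) (ξ : VF Y H) :
    ‖ampl T σ ξ - ampl T' 1 ξ‖ ^ 2 = ∑ y, ‖T (ξ y) - T' (ξ (σ y))‖ ^ 2 := by
  rw [VF.norm_sq, ← Equiv.sum_comp σ]
  refine Finset.sum_congr rfl fun y _ => ?_
  simp only [PiLp.sub_apply, ampl_apply, Equiv.symm_apply_apply]
  rfl

theorem ampl_defect_sq' (T : H →L[ℂ] H) (σ : Equiv.Perm Y) (ξ : VF Y H) :
    ‖ampl T σ ξ - ξ‖ ^ 2 = ∑ y, ‖T (ξ y) - ξ (σ y)‖ ^ 2 := by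
  rw [VF.norm_sq, ← Equiv.sum_comp σ]
  refine Finset.sum_congr rfl fun y _ => ?_
  simp

theorem ampl_inner (T : H →L[ℂ] H) (σ : Equiv.Perm Y) (ξ : VF Y H) :
    ⟪ξ, ampl T σ ξ⟫_ℂ = ∑ y, ⟪ξ (σ y), T (ξ y)⟫_ℂ := by
  rw [PiLp.inner_apply, ← Equiv.sum_comp σ]
  refine Finset.sum_congr rfl fun y _ => ?_
  simp

/-- existence of an almost invariant, `τ`-equivariant vector -/
def AI {J : Type} (T : J → FF → H →L[ℂ] H) (σ : J → FF → Equiv.Perm Y) (τ : Y → Y) (θ : ℂ)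
    (ε : ℝ) : Prop :=
  ∃ ξ : VF Y H, (∀ y, ξ (τ y) = θ • ξ y) ∧ ξ ≠ 0 ∧
    ∀ j b, ‖ampl (T j b) (σ j b) ξ - ξ‖ ≤ ε * ‖ξ‖

theorem AI.mono {J : Type} {T : J → FF → H →L[ℂ] H} {σ : J → FF → Equiv.Perm Y} {τ : Y → Y}
    {θ : ℂ} {ε ε' : ℝ} (h : AI T σ τ θ ε) (hε : ε ≤ ε') : AI T σ τ θ ε' := by
  obtain ⟨ξ, h1, h2, h3⟩ := h
  exact ⟨ξ, h1, h2, fun j b => (h3 j b).trans (mul_le_mul_of_nonneg_right hε (norm_nonneg _))⟩

end ampl

theorem HP.prod {P Q : Type*} [Group P] [Group Q] {x y : FF → P} {x' y' : FF → Q} (h : HP x y)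
    (h' : HP x' y') : HP (fun a => (x a, x' a)) (fun a => (y a, y' a)) := by
  obtain ⟨z, h1, h2, h3, h4⟩ := h
  obtain ⟨z', h1', h2', h3', h4'⟩ := h'
  exact ⟨fun a => (z a, z' a), fun a b => Prod.ext (h1 a b) (h1' a b),
    fun a b => Prod.ext (h2 a b) (h2' a b), fun a b => Prod.ext (h3 a b) (h3' a b),
    fun a b => Prod.ext (h4 a b) (h4' a b)⟩

theorem HP.pi {ι : Type} {P : ι → Type} [∀ i, Group (P i)] {x y : ∀ i, FF → P i}
    (h : ∀ i, HP (x i) (y i)) : HP (fun a i => x i a) (fun a i => y i a) := by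
  choose z h1 h2 h3 h4 using h
  exact ⟨fun a i => z i a, fun a b => funext fun i => h1 i a b, fun a b => funext fun i => h2 i a b,
    fun a b => funext fun i => h3 i a b, fun a b => funext fun i => h4 i a b⟩

theorem KSys.prod {P Q : Type*} [Group P] [Group Q] {J : Type} {x : J → FF → P} {x' : J → FF → Q}
    (h : KSys x) (h' : KSys x') : KSys (fun j a => (x j a, x' j a)) :=
  ⟨fun j a b => Prod.ext (h.1 j a b) (h'.1 j a b), fun i j hij => (h.2 i j hij).prod (h'.2 i j hij)⟩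

theorem KSys.pi {ι : Type} {P : ι → Type} [∀ i, Group (P i)] {J : Type} {x : ∀ i, J → FF → P i}
    (h : ∀ i, KSys (x i)) : KSys (fun j a i => x i j a) :=
  ⟨fun j a b => funext fun i => (h i).1 j a b,
    fun i j hij => HP.pi (x := fun k => x k i) (y := fun k => x k j) fun k => (h k).2 i j hij⟩

theorem KSys.subgroup {P : Type*} [Group P] {J : Type} {x : J → FF → P} (h : KSys x)
    (G : Subgroup P) (hG : ∀ j a, x j a ∈ G) : KSys (fun j a => (⟨x j a, hG j a⟩ : G)) := by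
  refine ⟨fun j a b => Subtype.ext (h.1 j a b), fun i j hij => ?_⟩
  obtain ⟨z, h1, h2, h3, h4⟩ := h.2 i j hij
  have hz : ∀ c, z c ∈ G := by
    intro c
    have := h2 c 1
    rw [mul_one] at this
    have e : z c = (x j 1 * x i c)⁻¹ * (x i c * x j 1) := by rw [this]; group
    rw [e]
    exact G.mul_mem (G.inv_mem (G.mul_mem (hG _ _) (hG _ _))) (G.mul_mem (hG _ _) (hG _ _))
  exact ⟨fun c => ⟨z c, hz c⟩, fun a b => Subtype.ext (h1 a b), fun a b => Subtype.ext (h2 a b),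
    fun a b => Subtype.ext (h3 a b), fun a b => Subtype.ext (h4 a b)⟩

theorem KSys.trivial {J : Type} : KSys (fun (_ : J) (_ : FF) => (1 : Unit)) :=
  ⟨fun _ _ _ => rfl, fun _ _ _ => ⟨fun _ => 1, fun _ _ => rfl, fun _ _ => rfl, fun _ _ => rfl,
    fun _ _ => rfl⟩⟩

theorem robust_gap_AI {ι : Type} (𝓕 : Filter ι) {H : Type} [NormedAddCommGroup H]
    [InnerProductSpace ℂ H] [CompleteSpace H] {G : Type} [Group G] (A : ι → G → (H →L[ℂ] H))
    (hc : ∀ i g, ‖A i g‖ ≤ 1) (hs : ∀ i g, star (A i g) = A i g⁻¹)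
    (hm : ∀ g g', Tendsto (fun i => ‖A i (g * g') - A i g * A i g'‖) 𝓕 (𝓝 0))
    (h1 : Tendsto (fun i => ‖A i 1 - 1‖) 𝓕 (𝓝 0))
    {J : Type} [Fintype J] (hJ : Fintype.card J = 4) {x : J → FF → G} (hx : KSys x)
    (Y : ι → Type) [∀ i, Fintype (Y i)] {σ : ∀ i, J → FF → Equiv.Perm (Y i)}
    (hσ : ∀ i, KSys (σ i)) {ε : ℝ} (hε : 0 < ε) :
    ∀ᶠ i in 𝓕, ∀ (τ : Y i → Y i) (θ : ℂ), (∀ j b y, σ i j b (τ y) = τ (σ i j b y)) →
      AI (fun j b => A i (x j b)) (σ i) τ θ (1 / 200) → AI (fun j b => A i (x j b)) (σ i) τ θ ε := by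
  let ρ : ∀ i, G × (∀ i, Equiv.Perm (Y i)) → (VF (Y i) H →L[ℂ] VF (Y i) H) :=
    fun i p => ampl (A i p.1) (p.2 i)
  have hK := hx.prod (KSys.pi hσ)
  have := robust_gap 𝓕 ρ (fun i g => (norm_ampl_le _ _).trans (hc _ _))
    (fun i g => by simp only [ρ, ampl_star, hs]; rfl)
    (fun g g' => squeeze_zero (fun _ => norm_nonneg _) (fun i => by
      simp only [ρ, ampl_mul, Prod.fst_mul, Prod.snd_mul, Pi.mul_apply, ampl_sub]
      exact norm_ampl_le _ _) (hm g.1 g'.1))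
    (squeeze_zero (fun _ => norm_nonneg _) (fun i => by
      simp only [ρ, Prod.fst_one, Prod.snd_one, Pi.one_apply]
      rw [← ampl_one, ampl_sub]
      exact norm_ampl_le _ _) h1) hJ hK hε
  filter_upwards [this] with i hi τ θ hτ hAI
  let W : Submodule ℂ (VF (Y i) H) :=
    { carrier := {ξ | ∀ y, ξ (τ y) = θ • ξ y}
      add_mem' := fun {a b} ha hb y => by simp [ha y, hb y]
      zero_mem' := fun y => by simp
      smul_mem' := fun c a ha y => by simp [ha y, smul_comm c θ] }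
  obtain ⟨ξ, h1, h2, h3⟩ := hAI
  obtain ⟨ζ, k1, k2, k3⟩ := hi W (fun j b ξ hξ y => by
    have : (σ i j b).symm (τ y) = τ ((σ i j b).symm y) := by
      rw [Equiv.symm_apply_eq, hτ, Equiv.apply_symm_apply]
    simp only [ρ, ampl_apply, this]
    rw [hξ, map_smul]) ⟨ξ, h1, h2, h3⟩
  exact ⟨ζ, k1, k2, k3⟩

end Crest.Agent.R73
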