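import Crest.Agent.R73.SOS

/-!
Robust spectral gap for asymptotic representations.
-/

set_option autoImplicit false

namespace Crest.Agent.R73

open Finset Filter Topology
open scoped InnerProductSpace

section quot

variable {ι : Type} (B : ι → Type) [∀ i, CStarAlgebra (B i)]

theorem cstar_norm_one_le {A : Type*} [CStarAlgebra A] : ‖(1 : A)‖ ≤ 1 := by
  have h : ‖(1 : A)‖ * ‖(1 : A)‖ = ‖(1 : A)‖ := by
    rw [← CStarRing.norm_star_mul_self]; simp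
  have := norm_nonneg (1 : A)
  nlinarith

/-- bounded families -/
def Bdd : StarSubalgebra ℂ (∀ i, B i) where
  carrier := {x | ∃ C : ℝ, ∀ i, ‖x i‖ ≤ C}
  mul_mem' := by
    rintro x y ⟨C, hC⟩ ⟨D, hD⟩
    exact ⟨C * D, fun i => (norm_mul_le _ _).trans
      (mul_le_mul (hC i) (hD i) (norm_nonneg _) ((norm_nonneg _).trans (hC i)))⟩
  add_mem' := by
    rintro x y ⟨C, hC⟩ ⟨D, hD⟩
    exact ⟨C + D, fun i => (norm_add_le _ _).trans (add_le_add (hC i) (hD i))⟩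
  algebraMap_mem' := by
    intro c
    refine ⟨‖c‖, fun i => ?_⟩
    rw [Pi.algebraMap_apply, Algebra.algebraMap_eq_smul_one, norm_smul]
    exact mul_le_of_le_one_right (norm_nonneg _) cstar_norm_one_le
  star_mem' := by
    rintro x ⟨C, hC⟩
    exact ⟨C, fun i => by simpa using hC i⟩

variable (𝓕 : Filter ι)

/-- asymptotic equality -/
def nullCon : RingCon (Bdd B) where
  r x y := Tendsto (fun i => ‖x.1 i - y.1 i‖) 𝓕 (𝓝 0)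
  iseqv :=
    { refl := fun x => by simpa using tendsto_const_nhds
      symm := fun {x y} h => by simpa only [norm_sub_rev] using h
      trans := fun {x y z} h1 h2 => by
        have := h1.add h2
        rw [add_zero] at this
        exact squeeze_zero (fun _ => norm_nonneg _) (fun i => norm_sub_le_norm_sub_add_norm_sub _ _ _)
          this }
  mul' := fun {x y z w} h1 h2 => by
    obtain ⟨C, hC⟩ := y.2
    obtain ⟨D, hD⟩ := z.2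
    have := (h1.mul_const D).add (h2.const_mul C)
    simp only [zero_mul, mul_zero, add_zero] at this
    refine squeeze_zero (fun _ => norm_nonneg _) (fun i => ?_) this
    have e : (x * z).1 i - (y * w).1 i = (x.1 i - y.1 i) * z.1 i + y.1 i * (z.1 i - w.1 i) := by
      change x.1 i * z.1 i - y.1 i * w.1 i = _
      noncomm_ring
    rw [e]
    refine (norm_add_le _ _).trans (add_le_add ((norm_mul_le _ _).trans ?_)
      ((norm_mul_le _ _).trans ?_))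
    · exact mul_le_mul_of_nonneg_left (hD i) (norm_nonneg _)
    · exact mul_le_mul_of_nonneg_right (hC i) (norm_nonneg _)
  add' := fun {x y z w} h1 h2 => by
    have := h1.add h2
    rw [add_zero] at this
    refine squeeze_zero (fun _ => norm_nonneg _) (fun i => ?_) this
    have e : (x + z).1 i - (y + w).1 i = (x.1 i - y.1 i) + (z.1 i - w.1 i) := by
      change x.1 i + z.1 i - (y.1 i + w.1 i) = _
      abel
    rw [e]
    exact norm_add_le _ _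

theorem nullCon_iff (x y : Bdd B) :
    nullCon B 𝓕 x y ↔ Tendsto (fun i => ‖x.1 i - y.1 i‖) 𝓕 (𝓝 0) := Iff.rfl

/-- the asymptotic algebra -/
def QA : Type := (nullCon B 𝓕).Quotient

noncomputable instance : Ring (QA B 𝓕) := inferInstanceAs (Ring (nullCon B 𝓕).Quotient)

noncomputable instance : Algebra ℂ (QA B 𝓕) := inferInstanceAs (Algebra ℂ (nullCon B 𝓕).Quotient)

/-- the quotient map -/
noncomputable def QA.mk : Bdd B →ₐ[ℂ] QA B 𝓕 := (nullCon B 𝓕).mkₐ ℂ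

theorem QA.mk_surj : Function.Surjective (QA.mk B 𝓕) := (nullCon B 𝓕).mkₐ_surjective

theorem QA.mk_eq {x y : Bdd B} :
    QA.mk B 𝓕 x = QA.mk B 𝓕 y ↔ Tendsto (fun i => ‖x.1 i - y.1 i‖) 𝓕 (𝓝 0) :=
  (nullCon B 𝓕).eq

noncomputable instance : Star (QA B 𝓕) where
  star := Quotient.map' star (fun x y (h : Tendsto (fun i => ‖x.1 i - y.1 i‖) 𝓕 (𝓝 0)) => by
    change Tendsto (fun i => ‖star (x.1 i) - star (y.1 i)‖) 𝓕 (𝓝 0)
    simpa only [← star_sub, norm_star] using h)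

theorem QA.star_mk (x : Bdd B) : star (QA.mk B 𝓕 x) = QA.mk B 𝓕 (star x) := rfl

noncomputable instance : StarRing (QA B 𝓕) where
  star_involutive x := by
    obtain ⟨x, rfl⟩ := QA.mk_surj B 𝓕 x
    rw [QA.star_mk, QA.star_mk, star_star]
  star_mul x y := by
    obtain ⟨x, rfl⟩ := QA.mk_surj B 𝓕 x
    obtain ⟨y, rfl⟩ := QA.mk_surj B 𝓕 y
    rw [← map_mul, QA.star_mk, QA.star_mk, QA.star_mk, star_mul, map_mul]
  star_add x y := by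
    obtain ⟨x, rfl⟩ := QA.mk_surj B 𝓕 x
    obtain ⟨y, rfl⟩ := QA.mk_surj B 𝓕 y
    rw [← map_add, QA.star_mk, QA.star_mk, QA.star_mk, star_add, map_add]

instance : StarModule ℂ (QA B 𝓕) where
  star_smul c x := by
    obtain ⟨x, rfl⟩ := QA.mk_surj B 𝓕 x
    rw [← map_smul, QA.star_mk, QA.star_mk, star_smul, map_smul]

end quot

section gap

variable {ι : Type} (𝓕 : Filter ι) {E : ι → Type} [∀ i, NormedAddCommGroup (E i)]
  [∀ i, InnerProductSpace ℂ (E i)] [∀ i, CompleteSpace (E i)]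

theorem cone_lift {q : QA (fun i => E i →L[ℂ] E i) 𝓕} (hq : q ∈ cone _) :
    ∃ X : Bdd (fun i => E i →L[ℂ] E i), QA.mk _ 𝓕 X = q ∧
      ∀ i (ξ : E i), 0 ≤ (⟪ξ, X.1 i ξ⟫_ℂ).re := by
  induction hq using AddSubmonoid.closure_induction with
  | mem x hx =>
    obtain ⟨y, rfl⟩ := hx
    obtain ⟨y, rfl⟩ := QA.mk_surj _ 𝓕 y
    refine ⟨star y * y, by rw [map_mul]; rfl, fun i ξ => ?_⟩
    change 0 ≤ (⟪ξ, ContinuousLinearMap.adjoint (y.1 i) (y.1 i ξ)⟫_ℂ).re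
    rw [ContinuousLinearMap.adjoint_inner_right]
    exact inner_self_nonneg (𝕜 := ℂ)
  | zero => exact ⟨0, map_zero _, fun i ξ => by simp⟩
  | add x y _ _ hx hy =>
    obtain ⟨X, rfl, hX⟩ := hx
    obtain ⟨Y, rfl, hY⟩ := hy
    refine ⟨X + Y, map_add _ _ _, fun i ξ => ?_⟩
    change 0 ≤ (⟪ξ, X.1 i ξ + Y.1 i ξ⟫_ℂ).re
    rw [inner_add_right, Complex.add_re]
    exact add_nonneg (hX i ξ) (hY i ξ)

theorem asymp_sos {P : Type} [Group P] (ρ : ∀ i, P → (E i →L[ℂ] E i))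
    (hc : ∀ i g, ‖ρ i g‖ ≤ 1) (hs : ∀ i g, star (ρ i g) = ρ i g⁻¹)
    (hm : ∀ g g', Tendsto (fun i => ‖ρ i (g * g') - ρ i g * ρ i g'‖) 𝓕 (𝓝 0))
    (h1 : Tendsto (fun i => ‖ρ i 1 - 1‖) 𝓕 (𝓝 0))
    {J : Type} [Fintype J] (hJ : Fintype.card J = 4) {x : J → FF → P} (hx : KSys x)
    {η : ℝ} (hη : 0 < η) :
    ∀ᶠ i in 𝓕, ∀ ξ : E i, lam * (⟪ξ, lap (ρ i) x ξ⟫_ℂ).re - η * ‖ξ‖ ^ 2 ≤
      (⟪ξ, lap (ρ i) x (lap (ρ i) x ξ)⟫_ℂ).re := by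
  let ρB : P → Bdd (fun i => E i →L[ℂ] E i) := fun g => ⟨fun i => ρ i g, 1, fun i => hc i g⟩
  let Φ : P →* QA (fun i => E i →L[ℂ] E i) 𝓕 :=
    { toFun := fun g => QA.mk _ 𝓕 (ρB g)
      map_one' := by
        rw [← map_one (QA.mk _ 𝓕), QA.mk_eq]
        exact h1
      map_mul' := fun g g' => by
        rw [← map_mul, QA.mk_eq]
        exact hm g g' }
  have hΦ : ∀ g, star (Φ g) = Φ g⁻¹ := by
    intro g
    change star (QA.mk _ 𝓕 (ρB g)) = QA.mk _ 𝓕 (ρB g⁻¹)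
    rw [QA.star_mk]
    congr 1
    ext1
    funext i
    exact hs i g
  have hgap := hx.gap hJ Φ hΦ
  obtain ⟨X, hX, hpos⟩ := cone_lift 𝓕 hgap
  have hlap : lap Φ x = QA.mk _ 𝓕 (lap ρB x) := by
    simp only [lap, avg, map_sum, map_sub, map_smul, map_one]
    rfl
  have hlapi : ∀ i, (lap ρB x).1 i = lap (ρ i) x := by
    intro i
    simp only [lap, avg, AddSubmonoidClass.coe_finsetSum, AddSubgroupClass.coe_sub,
      OneMemClass.coe_one, SetLike.val_smul, Finset.sum_apply, Pi.sub_apply, Pi.one_apply,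
      Pi.smul_apply, ρB]
  rw [hlap, ← map_mul, ← map_smul, ← map_sub, QA.mk_eq] at hX
  filter_upwards [hX.eventually (gt_mem_nhds hη)] with i hi ξ
  have e : (lap ρB x * lap ρB x - (lam : ℂ) • lap ρB x).1 i =
      lap (ρ i) x * lap (ρ i) x - (lam : ℂ) • lap (ρ i) x := by
    rw [← hlapi]; rfl
  rw [e] at hi
  set D := lap (ρ i) x
  have h2 : (⟪ξ, (X.1 i - (D * D - (lam : ℂ) • D)) ξ⟫_ℂ).re ≤ η * ‖ξ‖ ^ 2 := by
    refine (Complex.re_le_norm _).trans ((norm_inner_le_norm _ _).trans ?_)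
    have := (X.1 i - (D * D - (lam : ℂ) • D)).le_opNorm ξ
    calc ‖ξ‖ * ‖(X.1 i - (D * D - (lam : ℂ) • D)) ξ‖ ≤ ‖ξ‖ * (η * ‖ξ‖) :=
          mul_le_mul_of_nonneg_left (this.trans (mul_le_mul_of_nonneg_right hi.le (norm_nonneg _)))
            (norm_nonneg _)
      _ = η * ‖ξ‖ ^ 2 := by ring
  have h3 := hpos i ξ
  simp only [_root_.sub_apply, mul_apply_eq_comp,
    _root_.smul_apply, inner_sub_right, inner_smul_right, Complex.sub_re,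
    Complex.re_ofReal_mul] at h2
  linarith

end gap

section vec

variable {E : Type*} [NormedAddCommGroup E] [InnerProductSpace ℂ E]

/-- Vector level bootstrapping of an approximate spectral gap. -/
theorem gap_vec (W : Submodule ℂ E) (D : E →L[ℂ] E) (hW : ∀ ξ ∈ W, D ξ ∈ W)
    (hsym : ∀ ξ ζ : E, ⟪D ξ, ζ⟫_ℂ = ⟪ξ, D ζ⟫_ℂ) (hpos : ∀ ξ : E, 0 ≤ (⟪ξ, D ξ⟫_ℂ).re)
    {l η : ℝ} (hl : 0 < l) (hη : 0 < η)
    (hgap : ∀ ξ : E, l * (⟪ξ, D ξ⟫_ℂ).re - η * ‖ξ‖ ^ 2 ≤ (⟪ξ, D (D ξ)⟫_ℂ).re)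
    (h0 : ∃ ξ ∈ W, ξ ≠ 0 ∧ (⟪ξ, D ξ⟫_ℂ).re ≤ l / 2 * ‖ξ‖ ^ 2) :
    ∃ ξ ∈ W, ξ ≠ 0 ∧ (⟪ξ, D ξ⟫_ℂ).re ≤ 4 * η / l * ‖ξ‖ ^ 2 := by
  by_contra hcon
  push Not at hcon
  set S : Set ℝ := {r | ∃ ξ ∈ W, ‖ξ‖ = 1 ∧ r = (⟪ξ, D ξ⟫_ℂ).re} with hS
  have hscale : ∀ ξ ∈ W, ξ ≠ 0 → (⟪ξ, D ξ⟫_ℂ).re / ‖ξ‖ ^ 2 ∈ S := by
    intro ξ hξ h
    have hn : 0 < ‖ξ‖ := norm_pos_iff.2 h
    refine ⟨((‖ξ‖⁻¹ : ℝ) : ℂ) • ξ, W.smul_mem _ hξ, ?_, ?_⟩
    · rw [norm_smul, Complex.norm_real, Real.norm_eq_abs, abs_of_pos (inv_pos.2 hn),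
        inv_mul_cancel₀ hn.ne']
    · rw [map_smul, inner_smul_left, inner_smul_right, Complex.conj_ofReal, Complex.re_ofReal_mul,
        Complex.re_ofReal_mul]
      field_simp
  have hbdd : BddBelow S := ⟨0, by rintro r ⟨ξ, _, _, rfl⟩; exact hpos ξ⟩
  obtain ⟨ξ0, hξ0, hne, hle⟩ := h0
  have hn0 : 0 < ‖ξ0‖ ^ 2 := by have := norm_pos_iff.2 hne; positivity
  have hSne : S.Nonempty := ⟨_, hscale ξ0 hξ0 hne⟩
  set μ := sInf S with hμ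
  have hμ1 : μ ≤ l / 2 := (csInf_le hbdd (hscale ξ0 hξ0 hne)).trans (by rwa [div_le_iff₀ hn0])
  have hμ2 : 4 * η / l ≤ μ := by
    refine le_csInf hSne ?_
    rintro r ⟨ξ, hξ, hn, rfl⟩
    have := hcon ξ hξ (by rintro rfl; simp at hn)
    rw [hn] at this
    linarith
  have hμ0 : 0 ≤ μ := le_trans (by positivity) hμ2
  have hlow : ∀ ξ ∈ W, μ * ‖ξ‖ ^ 2 ≤ (⟪ξ, D ξ⟫_ℂ).re := by
    intro ξ hξ
    by_cases h : ξ = 0
    · subst h; simp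
    · have hn : 0 < ‖ξ‖ ^ 2 := by have := norm_pos_iff.2 h; positivity
      have := csInf_le hbdd (hscale ξ hξ h)
      rwa [le_div_iff₀ hn] at this
  set C : ℝ := ‖D‖ + 1 with hC
  have hC0 : 0 < C := by positivity
  have hup : ∀ ξ : E, (⟪ξ, D ξ⟫_ℂ).re ≤ C * ‖ξ‖ ^ 2 := by
    intro ξ
    refine (Complex.re_le_norm _).trans ((norm_inner_le_norm _ _).trans ?_)
    have := D.le_opNorm ξ
    have h2 := norm_nonneg ξ
    nlinarith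
  -- approximate eigenvectors
  have key : ∀ ξ ∈ W, ‖ξ‖ = 1 →
      (⟪ξ, D (D ξ)⟫_ℂ).re ≤ C * ((⟪ξ, D ξ⟫_ℂ).re - μ) + 2 * μ * (⟪ξ, D ξ⟫_ℂ).re - μ ^ 2 := by
    intro ξ hξ hn
    set y : E := D ξ - (μ : ℂ) • ξ with hy
    have hyW : y ∈ W := W.sub_mem (hW ξ hξ) (W.smul_mem _ hξ)
    set q := (⟪ξ, D ξ⟫_ℂ).re with hq
    set s := (⟪ξ, D (D ξ)⟫_ℂ).re with hs
    have hDD : ‖D ξ‖ ^ 2 = s := by
      rw [hs, ← hsym, ← inner_self_eq_norm_sq (𝕜 := ℂ)]; rfl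
    have hq' : (⟪D ξ, ξ⟫_ℂ).re = q := by rw [hsym]
    have hyn : ‖y‖ ^ 2 = s - 2 * μ * q + μ ^ 2 := by
      rw [hy, @norm_sub_sq ℂ, hDD, inner_smul_right, norm_smul, hn]
      simp only [RCLike.re_to_complex, Complex.re_ofReal_mul, hq', Complex.norm_real,
        Real.norm_eq_abs, mul_one, sq_abs]
      ring
    have hxy : (⟪ξ, y⟫_ℂ).re = q - μ := by
      rw [hy, inner_sub_right, inner_smul_right, Complex.sub_re, Complex.re_ofReal_mul,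
        ← hq]
      have : (⟪ξ, ξ⟫_ℂ).re = 1 := by
        have := inner_self_eq_norm_sq (𝕜 := ℂ) ξ
        rw [hn] at this
        simpa using this
      rw [this, mul_one]
    have hyD : (⟪y, D ξ⟫_ℂ).re = s - μ * q := by
      rw [hy, inner_sub_left, inner_smul_left, Complex.sub_re, Complex.conj_ofReal,
        Complex.re_ofReal_mul, ← hq, hsym]
    have hDy : (⟪ξ, D y⟫_ℂ).re = s - μ * q := by
      rw [← hsym, ← hyD]
      exact inner_re_symm (𝕜 := ℂ) _ _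
    set t : ℝ := C⁻¹ with ht
    have h1 := hlow (ξ - (t : ℂ) • y) (W.sub_mem hξ (W.smul_mem _ hyW))
    have h2 := hup y
    have h3 : ‖ξ - (t : ℂ) • y‖ ^ 2 = 1 - 2 * t * (q - μ) + t ^ 2 * ‖y‖ ^ 2 := by
      rw [@norm_sub_sq ℂ, hn, inner_smul_right, norm_smul]
      simp only [RCLike.re_to_complex, Complex.re_ofReal_mul, hxy, Complex.norm_real,
        Real.norm_eq_abs, mul_pow, sq_abs]
      ring
    have h4 : (⟪ξ - (t : ℂ) • y, D (ξ - (t : ℂ) • y)⟫_ℂ).re =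
        q - 2 * t * (s - μ * q) + t ^ 2 * (⟪y, D y⟫_ℂ).re := by
      simp only [map_sub, map_smul, inner_sub_left, inner_sub_right, inner_smul_left,
        inner_smul_right, Complex.conj_ofReal, Complex.sub_re, Complex.re_ofReal_mul, ← hq, hyD,
        hDy]
      ring
    rw [h3, h4] at h1
    have ht0 : 0 < t := inv_pos.2 hC0
    have htC : t * C = 1 := inv_mul_cancel₀ hC0.ne'
    have h5 : t ^ 2 * (⟪y, D y⟫_ℂ).re ≤ t * ‖y‖ ^ 2 := by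
      calc t ^ 2 * (⟪y, D y⟫_ℂ).re ≤ t ^ 2 * (C * ‖y‖ ^ 2) := by gcongr
        _ = t * (t * C) * ‖y‖ ^ 2 := by ring
        _ = t * ‖y‖ ^ 2 := by rw [htC, mul_one]
    have h6 : 0 ≤ μ * (t ^ 2 * ‖y‖ ^ 2) := by positivity
    have h7 : t * ‖y‖ ^ 2 ≤ q - μ := by
      rw [hyn] at h5 ⊢
      nlinarith
    have h8 : ‖y‖ ^ 2 ≤ C * (q - μ) := by
      calc ‖y‖ ^ 2 = C * (t * ‖y‖ ^ 2) := by rw [← mul_assoc, mul_comm C t, htC, one_mul]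
        _ ≤ C * (q - μ) := by gcongr
    linarith
  have hτ : 0 < η / (C + l) := by positivity
  obtain ⟨r, ⟨ξ, hξ, hn, rfl⟩, hr⟩ := exists_lt_of_csInf_lt hSne (lt_add_of_pos_right μ hτ)
  have k1 := key ξ hξ hn
  have k2 := hgap ξ
  have k3 := hlow ξ hξ
  rw [hn] at k2 k3
  set q := (⟪ξ, D ξ⟫_ℂ).re
  have k4 : (C + l) * (q - μ) < η := by
    have : q - μ < η / (C + l) := by linarith
    rwa [lt_div_iff₀ (by positivity), mul_comm] at this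
  have k5 : 4 * η ≤ l * μ := by rwa [div_le_iff₀ hl, mul_comm μ] at hμ2
  nlinarith

theorem re_inner_le_of_norm_le_one (T : E →L[ℂ] E) (hT : ‖T‖ ≤ 1) (ξ : E) :
    (⟪ξ, T ξ⟫_ℂ).re ≤ ‖ξ‖ ^ 2 := by
  refine (Complex.re_le_norm _).trans ((norm_inner_le_norm _ _).trans ?_)
  have h1 : ‖T ξ‖ ≤ ‖ξ‖ := (T.le_opNorm ξ).trans (mul_le_of_le_one_left (norm_nonneg _) hT)
  have h2 := norm_nonneg ξ
  nlinarith

theorem re_inner_self' (ξ : E) : (⟪ξ, ξ⟫_ℂ).re = ‖ξ‖ ^ 2 := by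
  simpa using inner_self_eq_norm_sq (𝕜 := ℂ) ξ

theorem defect_sq_le (T : E →L[ℂ] E) (hT : ‖T‖ ≤ 1) (ξ : E) :
    ‖T ξ - ξ‖ ^ 2 ≤ 2 * (‖ξ‖ ^ 2 - (⟪ξ, T ξ⟫_ℂ).re) := by
  have h1 : ‖T ξ‖ ≤ ‖ξ‖ := (T.le_opNorm ξ).trans (mul_le_of_le_one_left (norm_nonneg _) hT)
  have h2 : ‖T ξ‖ ^ 2 ≤ ‖ξ‖ ^ 2 := by gcongr
  rw [norm_sub_rev, @norm_sub_sq ℂ]
  simp only [RCLike.re_to_complex]
  linarith

theorem re_inner_ge_of_defect (ξ ζ : E) {ε : ℝ} (h : ‖ζ - ξ‖ ≤ ε * ‖ξ‖) :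
    ‖ξ‖ ^ 2 - (⟪ξ, ζ⟫_ℂ).re ≤ ε * ‖ξ‖ ^ 2 := by
  have : ‖ξ‖ ^ 2 - (⟪ξ, ζ⟫_ℂ).re = (⟪ξ, ξ - ζ⟫_ℂ).re := by
    rw [inner_sub_right, Complex.sub_re, re_inner_self']
  rw [this]
  refine (Complex.re_le_norm _).trans ((norm_inner_le_norm _ _).trans ?_)
  rw [norm_sub_rev]
  have h2 := norm_nonneg ξ
  nlinarith

theorem re_inner_lap {P : Type} {J : Type} [Fintype J] (ρ : P → (E →L[ℂ] E))
    (x : J → FF → P) (ξ : E) :
    (⟪ξ, lap ρ x ξ⟫_ℂ).re = (1 / 11) * ∑ j, ∑ b : FF, (‖ξ‖ ^ 2 - (⟪ξ, ρ (x j b) ξ⟫_ℂ).re) := by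
  simp only [lap, avg, _root_.sum_apply, _root_.sub_apply, _root_.smul_apply,
    one_apply_eq_self, inner_sum, inner_sub_right, inner_smul_right, Complex.re_sum,
    Complex.sub_re, Complex.re_ofReal_mul, re_inner_self']
  rw [Finset.mul_sum]
  refine Finset.sum_congr rfl fun j _ => ?_
  rw [Finset.sum_sub_distrib, Finset.sum_const, Finset.card_univ, ZMod.card, nsmul_eq_mul]
  push_cast
  ring

end vec

section GAP

variable {ι : Type} (𝓕 : Filter ι) {E : ι → Type} [∀ i, NormedAddCommGroup (E i)]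
  [∀ i, InnerProductSpace ℂ (E i)] [∀ i, CompleteSpace (E i)]

theorem robust_gap {P : Type} [Group P] (ρ : ∀ i, P → (E i →L[ℂ] E i))
    (hc : ∀ i g, ‖ρ i g‖ ≤ 1) (hs : ∀ i g, star (ρ i g) = ρ i g⁻¹)
    (hm : ∀ g g', Tendsto (fun i => ‖ρ i (g * g') - ρ i g * ρ i g'‖) 𝓕 (𝓝 0))
    (h1 : Tendsto (fun i => ‖ρ i 1 - 1‖) 𝓕 (𝓝 0))
    {J : Type} [Fintype J] (hJ : Fintype.card J = 4) {x : J → FF → P} (hx : KSys x)
    {ε : ℝ} (hε : 0 < ε) :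
    ∀ᶠ i in 𝓕, ∀ W : Submodule ℂ (E i), (∀ j b, ∀ ξ ∈ W, ρ i (x j b) ξ ∈ W) →
      (∃ ξ ∈ W, ξ ≠ 0 ∧ ∀ j b, ‖ρ i (x j b) ξ - ξ‖ ≤ (1 / 200) * ‖ξ‖) →
      ∃ ξ ∈ W, ξ ≠ 0 ∧ ∀ j b, ‖ρ i (x j b) ξ - ξ‖ ≤ ε * ‖ξ‖ := by
  have hl := lam_gt
  have hl0 : 0 < lam := by linarith
  have hη : 0 < lam * ε ^ 2 / 88 := by positivity
  filter_upwards [asymp_sos 𝓕 ρ hc hs hm h1 hJ hx hη] with i hi W hW h0
  have hDW : ∀ ξ ∈ W, lap (ρ i) x ξ ∈ W := by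
    intro ξ hξ
    simp only [lap, avg, _root_.sum_apply, _root_.sub_apply, _root_.smul_apply,
      one_apply_eq_self]
    exact W.sum_mem fun j _ => W.sub_mem hξ (W.smul_mem _ (W.sum_mem fun b _ => hW j b ξ hξ))
  have hstar : star (lap (ρ i) x) = lap (ρ i) x := by
    simp only [lap, star_sum, star_sub, star_one, avg_star (ρ i) (hs i) (hx.1 _)]
  have hsym : ∀ ξ ζ : E i, ⟪lap (ρ i) x ξ, ζ⟫_ℂ = ⟪ξ, lap (ρ i) x ζ⟫_ℂ := by
    intro ξ ζ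
    conv_rhs => rw [← hstar, ContinuousLinearMap.star_eq_adjoint,
      ContinuousLinearMap.adjoint_inner_right]
  have hterm : ∀ (ξ : E i) j b, 0 ≤ ‖ξ‖ ^ 2 - (⟪ξ, ρ i (x j b) ξ⟫_ℂ).re := fun ξ j b =>
    sub_nonneg.2 (re_inner_le_of_norm_le_one _ (hc i _) ξ)
  have hpos : ∀ ξ : E i, 0 ≤ (⟪ξ, lap (ρ i) x ξ⟫_ℂ).re := by
    intro ξ
    rw [re_inner_lap]
    exact mul_nonneg (by norm_num)
      (Finset.sum_nonneg fun j _ => Finset.sum_nonneg fun b _ => hterm ξ j b)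
  obtain ⟨ξ0, hξ0, hne0, hd0⟩ := h0
  have h0' : (⟪ξ0, lap (ρ i) x ξ0⟫_ℂ).re ≤ lam / 2 * ‖ξ0‖ ^ 2 := by
    rw [re_inner_lap]
    have : ∑ j, ∑ b : FF, (‖ξ0‖ ^ 2 - (⟪ξ0, ρ i (x j b) ξ0⟫_ℂ).re) ≤
        ∑ _j : J, ∑ _b : FF, (1 / 200) * ‖ξ0‖ ^ 2 :=
      Finset.sum_le_sum fun j _ => Finset.sum_le_sum fun b _ => re_inner_ge_of_defect _ _ (hd0 j b)
    simp only [Finset.sum_const, Finset.card_univ, ZMod.card, hJ, nsmul_eq_mul] at this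
    push_cast at this
    have h2 : 0 ≤ ‖ξ0‖ ^ 2 := by positivity
    nlinarith
  obtain ⟨ξ, hξ, hne, hd⟩ := gap_vec W _ hDW hsym hpos hl0 hη hi ⟨ξ0, hξ0, hne0, h0'⟩
  refine ⟨ξ, hξ, hne, fun j b => ?_⟩
  rw [re_inner_lap] at hd
  have h3 : ‖ξ‖ ^ 2 - (⟪ξ, ρ i (x j b) ξ⟫_ℂ).re ≤
      ∑ j, ∑ b : FF, (‖ξ‖ ^ 2 - (⟪ξ, ρ i (x j b) ξ⟫_ℂ).re) :=
    le_trans (Finset.single_le_sum (f := fun b => ‖ξ‖ ^ 2 - (⟪ξ, ρ i (x j b) ξ⟫_ℂ).re)
      (fun b _ => hterm ξ j b) (Finset.mem_univ b))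
      (Finset.single_le_sum (f := fun j => ∑ b : FF, (‖ξ‖ ^ 2 - (⟪ξ, ρ i (x j b) ξ⟫_ℂ).re))
        (fun j _ => Finset.sum_nonneg fun b _ => hterm ξ j b) (Finset.mem_univ j))
  have h4 := defect_sq_le _ (hc i (x j b)) ξ
  have h5 : 4 * (lam * ε ^ 2 / 88) / lam = ε ^ 2 / 22 := by field_simp; ring
  rw [h5] at hd
  have h6 : ‖ρ i (x j b) ξ - ξ‖ ^ 2 ≤ (ε * ‖ξ‖) ^ 2 := by nlinarith
  exact (pow_le_pow_iff_left₀ (norm_nonneg _) (by positivity) two_ne_zero).1 h6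

end GAP

end Crest.Agent.R73
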