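import Mathlib

/-!
Composition operators on `ℓ²`, permutation representations, and a concrete Cuntz pair on `ℓ²(ℕ)`.
-/

set_option autoImplicit false

namespace Crest.Agent.R73

open scoped ENNReal InnerProductSpace

/-- `ℓ²(X)` -/
abbrev L2 (X : Type) : Type := lp (fun _ : X => ℂ) 2

section pull

variable {X Y : Type}

theorem pull_sum_le (f : X → Y) (hf : Function.Injective f) (ξ : L2 Y) (s : Finset X) :
    ∑ x ∈ s, ‖ξ (f x)‖ ^ (2 : ℝ≥0∞).toReal ≤ ‖ξ‖ ^ (2 : ℝ≥0∞).toReal := by
  have := lp.sum_rpow_le_norm_rpow (p := 2) (by norm_num) ξ (s.map ⟨f, hf⟩)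
  rwa [Finset.sum_map] at this

/-- the composition operator of an injective map -/
noncomputable def pull (f : X → Y) (hf : Function.Injective f) : L2 Y →L[ℂ] L2 X :=
  LinearMap.mkContinuous
    { toFun := fun ξ => ⟨fun x => ξ (f x), memℓp_gen' (pull_sum_le f hf ξ)⟩
      map_add' := fun ξ ζ => by ext x; rfl
      map_smul' := fun c ξ => by ext x; rfl } 1 (fun ξ => by
        rw [one_mul]
        exact lp.norm_le_of_forall_sum_le (by norm_num) (norm_nonneg _) (pull_sum_le f hf ξ))

@[simp] theorem pull_apply (f : X → Y) (hf : Function.Injective f) (ξ : L2 Y) (x : X) :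
    pull f hf ξ x = ξ (f x) := rfl

/-- basis vector -/
noncomputable def dl (x : X) : L2 X := by
  classical exact lp.single 2 x 1

theorem dl_apply [DecidableEq X] (x y : X) : dl x y = if y = x then 1 else 0 := by
  simp only [dl, lp.single_apply]
  split_ifs with h
  · subst h; simp
  · simp [h]

theorem inner_dl (x : X) (ξ : L2 X) : ⟪dl x, ξ⟫_ℂ = ξ x := by
  classical
  simp only [dl]
  rw [lp.inner_single_left]
  simp

theorem dl_orthonormal : Orthonormal ℂ (dl : X → L2 X) := by
  classical
  rw [orthonormal_iff_ite]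
  intro i j
  rw [inner_dl, dl_apply]

end pull

section perm

variable (G X : Type) [Group G] [MulAction G X]

/-- permutation operators -/
noncomputable def permOp (g : G) : L2 X →L[ℂ] L2 X :=
  pull (fun x => g⁻¹ • x) (MulAction.injective g⁻¹)

theorem permOp_mul (g g' : G) : permOp G X (g * g') = permOp G X g * permOp G X g' := by
  ext1 ξ
  ext x
  simp [permOp, mul_smul]

theorem permOp_one : permOp G X 1 = 1 := by
  ext1 ξ
  ext x
  simp [permOp]

theorem permOp_star (g : G) : star (permOp G X g) = permOp G X g⁻¹ := by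
  symm
  rw [ContinuousLinearMap.star_eq_adjoint, ContinuousLinearMap.eq_adjoint_iff]
  intro ξ ζ
  rw [lp.inner_eq_tsum, lp.inner_eq_tsum,
    ← (MulAction.toPerm g).tsum_eq (fun x => ⟪ξ x, permOp G X g ζ x⟫_ℂ)]
  congr 1
  ext x
  simp [permOp]

/-- permutation representation -/
noncomputable def permRep : G →* unitary (L2 X →L[ℂ] L2 X) where
  toFun g := ⟨permOp G X g, by
    constructor
    · rw [permOp_star, ← permOp_mul, inv_mul_cancel, permOp_one]
    · rw [permOp_star, ← permOp_mul, mul_inv_cancel, permOp_one]⟩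
  map_one' := Subtype.ext (permOp_one G X)
  map_mul' g g' := Subtype.ext (permOp_mul G X g g')

theorem permOp_dl (g : G) (x : X) : permOp G X g (dl x) = dl (g • x) := by
  classical
  ext y
  simp only [permOp, pull_apply, dl_apply, inv_smul_eq_iff]

end perm

section cuntz

theorem bit_inj {b b' : Bool} {n n' : ℕ} (h : Nat.bit b n = Nat.bit b' n') : b = b' ∧ n = n' := by
  cases b <;> cases b' <;> simp at h ⊢ <;> omega

/-- adjoints of the Cuntz isometries -/
noncomputable def cuR (b : Bool) : L2 ℕ →L[ℂ] L2 ℕ := pull (Nat.bit b) fun _ _ h => (bit_inj h).2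

@[simp] theorem cuR_apply (b : Bool) (ξ : L2 ℕ) (n : ℕ) : cuR b ξ n = ξ (Nat.bit b n) := rfl

theorem bit_eq_iff {b : Bool} {n n' : ℕ} : Nat.bit b n = Nat.bit b n' ↔ n = n' :=
  ⟨fun h => (bit_inj h).2, fun h => by rw [h]⟩

/-- the Cuntz isometries -/
noncomputable def cuS (b : Bool) : L2 ℕ →L[ℂ] L2 ℕ := star (cuR b)

theorem cuS_apply_bit (b b' : Bool) (ξ : L2 ℕ) (n : ℕ) :
    cuS b ξ (Nat.bit b' n) = if b' = b then ξ n else 0 := by
  rw [← inner_dl, cuS, ContinuousLinearMap.star_eq_adjoint, ContinuousLinearMap.adjoint_inner_right]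
  split_ifs with h
  · subst h
    rw [← inner_dl]
    congr 1
    ext m
    simp only [cuR_apply, dl_apply, bit_eq_iff]
  · have : cuR b (dl (Nat.bit b' n)) = 0 := by
      ext m
      rw [cuR_apply, dl_apply, if_neg (fun h' => h (bit_inj h').1.symm)]
      rfl
    rw [this, inner_zero_left]

theorem cuS_isom (b : Bool) : star (cuS b) * cuS b = 1 := by
  ext1 ξ
  ext n
  rw [cuS, star_star]
  change cuS b ξ (Nat.bit b n) = ξ n
  rw [cuS_apply_bit, if_pos rfl]

theorem cuS_sum : cuS false * star (cuS false) + cuS true * star (cuS true) = 1 := by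
  ext1 ξ
  ext n
  obtain ⟨b, m, rfl⟩ : ∃ b m, n = Nat.bit b m := ⟨_, _, (Nat.bit_bodd_div2 n).symm⟩
  simp only [cuS, star_star]
  change cuS false (cuR false ξ) (Nat.bit b m) + cuS true (cuR true ξ) (Nat.bit b m) =
    ξ (Nat.bit b m)
  rw [cuS_apply_bit, cuS_apply_bit]
  cases b <;> simp

theorem cuS_dl (b : Bool) (n : ℕ) : cuS b (dl n) = dl (Nat.bit b n) := by
  ext m
  obtain ⟨b', m, rfl⟩ : ∃ b m', m = Nat.bit b m' := ⟨_, _, (Nat.bit_bodd_div2 m).symm⟩
  rw [cuS_apply_bit, dl_apply, dl_apply]
  by_cases h : b' = b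
  · subst h
    simp only [if_true, bit_eq_iff]
  · rw [if_neg h, if_neg (fun h' => h (bit_inj h').1)]

/-- binary code of a word -/
def code : List Bool → ℕ
  | [] => 1
  | b :: w => Nat.bit b (code w)

theorem code_pos (w : List Bool) : 0 < code w := by
  induction w with
  | nil => exact Nat.one_pos
  | cons b w ih => cases b <;> simp [code] <;> omega

theorem code_injective : Function.Injective code := by
  intro w
  induction w with
  | nil =>
    intro w' h
    cases w' with
    | nil => rfl
    | cons b w' =>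
      have := code_pos w'
      cases b <;> simp [code] at h <;> omega
  | cons b w ih =>
    intro w' h
    cases w' with
    | nil =>
      have := code_pos w
      cases b <;> simp [code] at h <;> omega
    | cons b' w' =>
      obtain ⟨h1, h2⟩ := bit_inj h
      rw [h1, ih h2]

/-- the orthonormal family indexed by words -/
noncomputable def wv (w : List Bool) : L2 ℕ := dl (code w)

theorem wv_orthonormal : Orthonormal ℂ wv := dl_orthonormal.comp _ code_injective

theorem cuS_wv (b : Bool) (w : List Bool) : cuS b (wv w) = wv (b :: w) := cuS_dl _ _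

end cuntz

end Crest.Agent.R73
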