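import Crest.Agent.R73.Data
import Crest.Agent.R73.L2
import Crest.Prelude.Def_CStarEmbedding

/-!
The witness representation and the base case.
-/

set_option autoImplicit false

namespace Crest.Agent.R73

open Finset Filter Topology
open scoped InnerProductSpace ComplexConjugate Pointwise

/-- the standard character -/
noncomputable def psi : AddChar FF ℂ := ZMod.stdAddChar

theorem norm_psi (a : FF) : ‖psi a‖ = 1 := Circle.norm_coe _

theorem psi_one_ne : psi 1 ≠ 1 := by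
  intro h
  have : (1 : FF) = 0 := ZMod.injective_stdAddChar (h.trans psi.map_zero_eq_one.symm)
  exact one_ne_zero this

theorem conj_psi_mul (a : FF) : conj (psi a) * psi a = 1 := by
  rw [Complex.conj_mul', norm_psi]; simp

/-- the eigenvalues -/
noncomputable def chi : JJ × FF → ℂ
  | (none, b) => psi b
  | (some _, _) => 1

theorem norm_chi (s : JJ × FF) : ‖chi s‖ = 1 := by
  obtain ⟨_ | i, b⟩ := s
  · exact norm_psi b
  · exact norm_one

theorem conj_chi_mul (s : JJ × FF) : conj (chi s) * chi s = 1 := by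
  rw [Complex.conj_mul', norm_chi]; simp

theorem sum_JF {M : Type*} [AddCommMonoid M] (c : M) : ∑ _s : JJ × FF, c = 44 • c := by
  rw [Finset.sum_const, Finset.card_univ, Fintype.card_prod, card_JJ, ZMod.card]

/-- the cosets -/
def xa (a : FF) : Set MM := {v | v 0 = a ∧ ∀ n < 0, v n = 0}

theorem xa_injective : Function.Injective xa := by
  intro a b h
  have : (fun n => if n = 0 then a else 0 : MM) ∈ xa a :=
    ⟨if_pos rfl, fun n hn => if_neg hn.ne⟩
  rw [h] at this
  simpa using this.1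

theorem gx_inv (j : JJ) (b : FF) : (gx j b)⁻¹ = gx j (-b) := (onepar_neg (gx_ksys.1 j) b).symm

theorem gx_none_xa (a b : FF) : gx none b • xa a = xa (a + b) := by
  ext v
  rw [Set.mem_smul_set_iff_inv_smul_mem, gx_inv]
  change DM.x none (-b) v ∈ xa a ↔ _
  simp only [xa, Dat.x_none, Set.mem_ofPred_eq, Pi.add_apply, Pi.smul_apply, DM, if_true,
    smul_eq_mul, mul_one]
  refine and_congr ⟨fun h => by rw [← h]; ring, fun h => by rw [h]; ring⟩
    (forall₂_congr fun n hn => by rw [if_neg hn.ne]; simp)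

theorem gx_some_xa (i : ZMod 3) (a b : FF) : gx (some i) b • xa a = xa a := by
  have key : ∀ (c : FF) (v : MM), v ∈ xa a → DM.x (some i) c v ∈ xa a := by
    rintro c v ⟨h1, h2⟩
    have e : ∀ n ≤ 0, DM.N i v n = 0 := by
      intro n hn
      change (if (((n - 1 : ℤ)) : ZMod 3) = i then v (n - 1) else 0) = 0
      rw [h2 (n - 1) (by omega), ite_self]
    refine ⟨?_, fun n hn => ?_⟩
    · simp [e 0 le_rfl, h1]
    · simp [e n hn.le, h2 n hn]
  ext v
  rw [Set.mem_smul_set_iff_inv_smul_mem, gx_inv]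
  change DM.x (some i) (-b) v ∈ xa a ↔ _
  refine ⟨fun h => ?_, key _ v⟩
  have := key b _ h
  rwa [← Equiv.Perm.mul_apply, ← DM.ksys.1, add_neg_cancel, onepar_zero (DM.ksys.1 _)] at this

/-- the witness vector -/
noncomputable def wit : L2 (Set MM) := ∑ a : FF, conj (psi a) • dl (xa a)

theorem wit_eigen (s : JJ × FF) : permOp GG (Set MM) (gx s.1 s.2) wit = chi s • wit := by
  obtain ⟨_ | i, b⟩ := s
  · simp only [wit, map_sum, map_smul, permOp_dl, gx_none_xa, chi, Finset.smul_sum, smul_smul]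
    refine Fintype.sum_equiv (Equiv.addRight b) _ _ fun a => ?_
    simp only [Equiv.coe_addRight, AddChar.map_add_eq_mul, map_mul]
    congr 1
    rw [mul_comm, mul_assoc, conj_psi_mul, mul_one]
  · simp only [wit, map_sum, map_smul, permOp_dl, gx_some_xa, chi, one_smul]

theorem wit_ne : wit ≠ 0 := by
  classical
  intro h
  have h1 : ⟪dl (xa 0), wit⟫_ℂ = 1 := by
    simp only [wit, inner_sum, inner_smul_right, orthonormal_iff_ite.1 dl_orthonormal,
      xa_injective.eq_iff, mul_ite, mul_one, mul_zero, Finset.sum_ite_eq, Finset.mem_univ, if_true,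
      AddChar.map_zero_eq_one, map_one]
  rw [h, inner_zero_right] at h1
  exact zero_ne_one h1

theorem witness_norm {A : Type} [CStarAlgebra A] (u : GG →* unitary A)
    (h : Crest.AnalysisR.CStarEmbedding.IsFullGroupCStar A u) :
    44 ≤ ‖∑ s : JJ × FF, conj (chi s) • (u (gx s.1 s.2) : A)‖ := by
  obtain ⟨φ, hφ⟩ := h.2 _ (permRep GG (Set MM))
  refine le_trans ?_ (NonUnitalStarAlgHom.norm_apply_le φ _)
  have h1 : φ (∑ s : JJ × FF, conj (chi s) • (u (gx s.1 s.2) : A)) wit = (44 : ℂ) • wit := by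
    simp only [map_sum, map_smul, hφ, _root_.sum_apply, _root_.smul_apply]
    have : ∀ s : JJ × FF, conj (chi s) • (permRep GG (Set MM) (gx s.1 s.2) :
        L2 (Set MM) →L[ℂ] L2 (Set MM)) wit = wit := by
      intro s
      have : (permRep GG (Set MM) (gx s.1 s.2) : L2 (Set MM) →L[ℂ] L2 (Set MM)) =
        permOp GG (Set MM) (gx s.1 s.2) := rfl
      rw [this, wit_eigen, smul_smul, conj_chi_mul, one_smul]
    simp only [this, sum_JF]
    rw [← Nat.cast_smul_eq_nsmul ℂ]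
    norm_num
  have h2 := (φ (∑ s : JJ × FF, conj (chi s) • (u (gx s.1 s.2) : A))).le_opNorm wit
  rw [h1, norm_smul] at h2
  have h3 : 0 < ‖wit‖ := norm_pos_iff.2 wit_ne
  have := le_of_mul_le_mul_right h2 h3
  simpa using this

variable {H : Type} [NormedAddCommGroup H] [InnerProductSpace ℂ H]

theorem base_vec (T : JJ → FF → H →L[ℂ] H) (hT : ∀ j b, ‖T j b‖ ≤ 1) {ε : ℝ} (hε : 0 < ε)
    (hε1 : ε ≤ 1) (h0 : ‖T none 0 - 1‖ ≤ ε / 2)
    (h : 44 - ε ^ 2 / 128 < ‖∑ s : JJ × FF, conj (chi s) • T s.1 s.2‖) :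
    ∃ x : H, x ≠ 0 ∧ ∀ s : JJ × FF, ‖T s.1 s.2 x - chi s • x‖ ≤ ε * ‖x‖ := by
  obtain ⟨x, hx1, hx2⟩ := ContinuousLinearMap.exists_lt_apply_of_lt_opNorm _ h
  simp only [_root_.sum_apply, _root_.smul_apply] at hx2
  set y : JJ × FF → H := fun s => conj (chi s) • T s.1 s.2 x with hy
  have hyn : ∀ s, ‖y s‖ ≤ ‖x‖ := by
    intro s
    rw [hy]
    simp only [norm_smul, RCLike.norm_conj, norm_chi, one_mul]
    exact (ContinuousLinearMap.le_opNorm _ _).trans (mul_le_of_le_one_left (norm_nonneg _) (hT _ _))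
  set u : H := ∑ s, y s with hu
  have hun : ‖u‖ ≤ 44 * ‖x‖ := by
    refine (norm_sum_le _ _).trans ((Finset.sum_le_sum fun s _ => hyn s).trans ?_)
    rw [sum_JF]; simp
  have hε2 : ε ^ 2 ≤ 1 := by nlinarith
  have hx3 : 1 / 2 ≤ ‖x‖ := by linarith
  have hvar : ∑ s, ‖y s - ((1 / 44 : ℝ) : ℂ) • u‖ ^ 2 = ∑ s, ‖y s‖ ^ 2 - ‖u‖ ^ 2 / 44 := by
    have e : ∀ s, ‖y s - ((1 / 44 : ℝ) : ℂ) • u‖ ^ 2 =
        ‖y s‖ ^ 2 - 2 * (1 / 44) * (⟪y s, u⟫_ℂ).re + (1 / 44) ^ 2 * ‖u‖ ^ 2 := by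
      intro s
      rw [@norm_sub_sq ℂ, inner_smul_right, norm_smul _ u]
      simp only [RCLike.re_to_complex, Complex.re_ofReal_mul, Complex.norm_real,
        Real.norm_eq_abs, mul_pow, sq_abs]
      ring
    simp only [e, Finset.sum_add_distrib, Finset.sum_sub_distrib, ← Finset.mul_sum, sum_JF,
      ← Complex.re_sum, ← sum_inner, ← hu, re_inner_self']
    simp only [nsmul_eq_mul]
    push_cast
    ring
  have hclose : ∀ s, ‖y s - ((1 / 44 : ℝ) : ℂ) • u‖ ≤ ε / 8 := by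
    intro s
    refine le_of_sq_le (by positivity) ?_
    refine (Finset.single_le_sum (f := fun s => ‖y s - ((1 / 44 : ℝ) : ℂ) • u‖ ^ 2)
      (fun s _ => by positivity) (Finset.mem_univ s)).trans ?_
    rw [hvar]
    have k1 : ∑ s, ‖y s‖ ^ 2 ≤ 44 := by
      refine (Finset.sum_le_sum (g := fun _ => (1 : ℝ)) fun s _ => ?_).trans ?_
      · have := hyn s
        have := norm_nonneg (y s)
        nlinarith
      · rw [sum_JF]; simp
    have k2 : (44 - ε ^ 2 / 128) ^ 2 ≤ ‖u‖ ^ 2 := by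
      gcongr
      linarith
    nlinarith
  refine ⟨x, by rintro rfl; norm_num at hx3, fun s => ?_⟩
  have k1 : ‖y (none, 0) - x‖ ≤ ε / 2 * ‖x‖ := by
    have : y (none, 0) - x = (T none 0 - 1) x := by simp [hy, chi]
    rw [this]
    exact (ContinuousLinearMap.le_opNorm _ _).trans (mul_le_mul_of_nonneg_right h0 (norm_nonneg _))
  have k2 : ‖T s.1 s.2 x - chi s • x‖ = ‖y s - x‖ := by
    have : T s.1 s.2 x - chi s • x = chi s • (y s - x) := by
      simp only [hy, smul_sub, smul_smul]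
      rw [mul_comm, conj_chi_mul, one_smul]
    rw [this, norm_smul, norm_chi, one_mul]
  have k3 := norm_sub_le_norm_sub_add_norm_sub (y s) (((1 / 44 : ℝ) : ℂ) • u) x
  have k4 := norm_sub_le_norm_sub_add_norm_sub (((1 / 44 : ℝ) : ℂ) • u) (y (none, 0)) x
  have k5 := hclose s
  have k6 := hclose (none, 0)
  rw [norm_sub_rev] at k6
  rw [k2]
  nlinarith

theorem base_AI (T : JJ → FF → H →L[ℂ] H) (hT : ∀ j b, ‖T j b‖ ≤ 1) {ε : ℝ} (hε : 0 < ε)
    (hε1 : ε ≤ 1) (h0 : ‖T none 0 - 1‖ ≤ ε / 2)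
    (h : 44 - ε ^ 2 / 128 < ‖∑ s : JJ × FF, conj (chi s) • T s.1 s.2‖) :
    AI T (DV (0 + 1)).x (fun v => v + pw (0 + 1) 0) (psi 1) ε := by
  obtain ⟨x, hx, hd⟩ := base_vec T hT hε hε1 h0 h
  let ξ : VF (VV (0 + 1)) H := WithLp.toLp 2 fun v => psi (v 0) • x
  have hξ : ∀ v, ξ v = psi (v 0) • x := fun v => rfl
  refine ⟨ξ, fun v => ?_, fun h => hx ?_, fun j b => ?_⟩
  · rw [hξ, hξ, smul_smul, ← AddChar.map_add_eq_mul, add_comm (1 : FF)]
    rfl
  · have := hξ 0
    rw [h] at this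
    simpa using this.symm
  · refine le_of_sq_le (by positivity) ?_
    rw [ampl_defect_sq', mul_pow, VF.norm_sq, Finset.mul_sum]
    refine Finset.sum_le_sum fun v _ => ?_
    have e : psi ((DV (0 + 1)).x j b v 0) = psi (v 0) * chi (j, b) := by
      cases j with
      | none => simp [chi, DV_e0, AddChar.map_add_eq_mul]
      | some i => simp [chi, Dat.N_apply, DV_Y]
    rw [hξ, hξ, e, map_smul, mul_smul, ← smul_sub, norm_smul, norm_smul, norm_psi, one_mul, one_mul,
      ← mul_pow]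
    gcongr
    exact hd (j, b)

end Crest.Agent.R73
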