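import Mathlib

/-!
The row-matrix-column norm estimate in a C⋆-algebra.
-/

set_option autoImplicit false

namespace Crest.Agent.R73

open scoped InnerProductSpace ComplexConjugate ComplexOrder WithCStarModule
open Matrix

variable {B : Type} [CStarAlgebra B]

theorem cs_rows {J : Type} [Fintype J] (u s : J → B) :
    ‖∑ β, u β * star (s β)‖ ^ 2 ≤ ‖∑ β, u β * star (u β)‖ * ‖∑ β, s β * star (s β)‖ := by
  let _ := CStarAlgebra.spectralOrder B
  have _ := CStarAlgebra.spectralOrderedRing B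
  let x : C⋆ᵐᵒᵈ(B, Π _ : J, B) := (WithCStarModule.equiv B _).symm s
  let y : C⋆ᵐᵒᵈ(B, Π _ : J, B) := (WithCStarModule.equiv B _).symm u
  have h := CStarModule.norm_inner_le (A := B) (C⋆ᵐᵒᵈ(B, Π _ : J, B)) (x := x) (y := y)
  have hx := WithCStarModule.pi_norm_sq x
  have hy := WithCStarModule.pi_norm_sq y
  rw [WithCStarModule.pi_inner] at h
  simp only [WithCStarModule.inner_def, x, y, WithCStarModule.equiv_symm_pi_apply] at h hx hy
  rw [← hx, ← hy, ← mul_pow, mul_comm]
  gcongr

variable {H : Type} [NormedAddCommGroup H] [InnerProductSpace ℂ H] [CompleteSpace H]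

theorem rows_le {I J : Type} [Fintype I] [Fintype J] {v : I → H} {v' : J → H}
    (hv : Orthonormal ℂ v) (hv' : Orthonormal ℂ v') (a : H →L[ℂ] H) (r : I → B) :
    ‖∑ β, (∑ α, ⟪v α, a (v' β)⟫_ℂ • r α) * star (∑ α, ⟪v α, a (v' β)⟫_ℂ • r α)‖ ≤
      ‖a‖ ^ 2 * ‖∑ α, r α * star (r α)‖ := by
  classical
  let _ := CStarAlgebra.spectralOrder B
  have _ := CStarAlgebra.spectralOrderedRing B
  set M : I → J → ℂ := fun α β => ⟪v α, a (v' β)⟫_ℂ with hM
  let D : Matrix I I ℂ := Matrix.of fun α α' =>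
    (if α = α' then ((‖a‖ ^ 2 : ℝ) : ℂ) else 0) - ∑ β, M α β * conj (M α' β)
  have hDa : ∀ α α', D α α' =
    (if α = α' then ((‖a‖ ^ 2 : ℝ) : ℂ) else 0) - ∑ β, M α β * conj (M α' β) := fun _ _ => rfl
  have hD : D.PosSemidef := by
    refine Matrix.PosSemidef.of_dotProduct_mulVec_nonneg ?_ fun x => ?_
    · ext α α'
      simp only [hDa, conjTranspose_apply, RCLike.star_def, map_mul, map_sub, map_sum,
        Complex.conj_conj]
      congr 1
      · by_cases h : α = α'
        · subst h; simp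
        · rw [if_neg h, if_neg (Ne.symm h)]; simp
      · exact Finset.sum_congr rfl fun β _ => mul_comm _ _
    · set X : H := ∑ α, x α • v α with hX
      have h1 : ∀ β, ∑ α, conj (x α) * M α β = ⟪ContinuousLinearMap.adjoint a X, v' β⟫_ℂ := by
        intro β
        rw [ContinuousLinearMap.adjoint_inner_left, hX, sum_inner]
        simp only [inner_smul_left, hM]
      have h2 : ‖X‖ ^ 2 = ∑ α, ‖x α‖ ^ 2 := by
        have := hv.inner_sum x x Finset.univ
        rw [← hX, inner_self_eq_norm_sq_to_K] at this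
        simp only [Complex.conj_mul'] at this
        apply Complex.ofReal_injective
        push_cast
        exact this
      have h3 : ∑ β, ‖⟪ContinuousLinearMap.adjoint a X, v' β⟫_ℂ‖ ^ 2 ≤ ‖a‖ ^ 2 * ∑ α, ‖x α‖ ^ 2 := by
        simp only [norm_inner_symm _ (v' _)]
        refine (hv'.sum_inner_products_le _).trans ?_
        rw [← h2, ← mul_pow]
        gcongr
        exact (ContinuousLinearMap.le_opNorm _ _).trans (by simp)
      have h4 : star x ⬝ᵥ (D *ᵥ x) = ((‖a‖ ^ 2 * ∑ α, ‖x α‖ ^ 2 -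
          ∑ β, ‖⟪ContinuousLinearMap.adjoint a X, v' β⟫_ℂ‖ ^ 2 : ℝ) : ℂ) := by
        simp only [dotProduct, mulVec, hDa, sub_mul, Finset.sum_sub_distrib, mul_sub, ite_mul,
          zero_mul, Finset.sum_ite_eq, Finset.mem_univ, if_true, Pi.star_apply, RCLike.star_def]
        push_cast
        congr 1
        · rw [Finset.mul_sum]
          refine Finset.sum_congr rfl fun α _ => ?_
          rw [← Complex.conj_mul']; ring
        · simp only [← Complex.conj_mul', ← h1, map_sum, map_mul, Complex.conj_conj,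
            Finset.mul_sum, Finset.sum_mul]
          rw [Finset.sum_comm (γ := J)]
          refine Finset.sum_congr rfl fun α _ => ?_
          rw [Finset.sum_comm]
          refine Finset.sum_congr rfl fun β _ => Finset.sum_congr rfl fun α' _ => by ring
      rw [h4]
      exact_mod_cast sub_nonneg.2 h3
  obtain ⟨m, c, hc⟩ := Matrix.posSemidef_iff_eq_sum_vecMulVec.1 hD
  have h5 : ∑ α, ∑ α', D α α' • (r α * star (r α')) =
      ∑ γ, (∑ α, c γ α • r α) * star (∑ α, c γ α • r α) := by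
    simp only [hc, Matrix.sum_apply, vecMulVec_apply, Pi.star_apply, star_sum, star_smul,
      Finset.sum_mul_sum, smul_mul_smul_comm, Finset.sum_smul]
    rw [Finset.sum_comm (γ := Fin m)]
    exact Finset.sum_congr rfl fun α _ => Finset.sum_comm
  have h6 : ∑ α, ∑ α', D α α' • (r α * star (r α')) =
      ((‖a‖ ^ 2 : ℝ) : ℂ) • ∑ α, r α * star (r α) -
        ∑ β, (∑ α, M α β • r α) * star (∑ α, M α β • r α) := by
    simp only [hDa, sub_smul, Finset.sum_sub_distrib, ite_smul, zero_smul, Finset.sum_ite_eq,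
      Finset.mem_univ, if_true, Finset.smul_sum, star_sum, star_smul,
      Finset.sum_mul_sum, smul_mul_smul_comm, Finset.sum_smul, RCLike.star_def]
    congr 1
    rw [Finset.sum_comm (γ := J)]
    exact Finset.sum_congr rfl fun α _ => Finset.sum_comm
  have h7 : ∑ β, (∑ α, M α β • r α) * star (∑ α, M α β • r α) ≤
      ((‖a‖ ^ 2 : ℝ) : ℂ) • ∑ α, r α * star (r α) := by
    rw [← sub_nonneg, ← h6, h5]
    exact Finset.sum_nonneg fun γ _ => mul_star_self_nonneg _
  refine (CStarAlgebra.norm_le_norm_of_nonneg_of_le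
    (Finset.sum_nonneg fun γ _ => mul_star_self_nonneg _) h7).trans ?_
  rw [norm_smul, Complex.norm_real, Real.norm_eq_abs, abs_of_nonneg (by positivity)]

theorem rowcol_le {ι : Type} (I J : Finset ι) {v : ι → H} (hv : Orthonormal ℂ v) (a : H →L[ℂ] H)
    (r : ι → B) :
    ‖∑ α ∈ I, ∑ β ∈ J, ⟪v α, a (v β)⟫_ℂ • (r α * star (r β))‖ ^ 2 ≤
      ‖a‖ ^ 2 * ‖∑ α ∈ I, r α * star (r α)‖ * ‖∑ β ∈ J, r β * star (r β)‖ := by
  have h1 := rows_le (hv.comp (fun α : I => α.1) Subtype.val_injective)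
    (hv.comp (fun β : J => β.1) Subtype.val_injective) a (fun α : I => r α)
  have h2 := cs_rows (fun β : J => ∑ α : I, ⟪v α, a (v β)⟫_ℂ • r α) (fun β : J => r β)
  simp only [Function.comp] at h1
  rw [Finset.sum_coe_sort I (fun α => r α * star (r α))] at h1
  rw [Finset.sum_coe_sort J (fun α => r α * star (r α))] at h2
  have e : ∑ α ∈ I, ∑ β ∈ J, ⟪v α, a (v β)⟫_ℂ • (r α * star (r β)) =
      ∑ β : J, (∑ α : I, ⟪v α, a (v β)⟫_ℂ • r α) * star (r β) := by
    rw [Finset.sum_comm, ← Finset.sum_coe_sort J]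
    refine Finset.sum_congr rfl fun β _ => ?_
    rw [← Finset.sum_coe_sort I, Finset.sum_mul]
    simp only [smul_mul_assoc]
  rw [e]
  exact h2.trans (mul_le_mul_of_nonneg_right h1 (norm_nonneg _))

end Crest.Agent.R73
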