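import Crest.Agent.R73.Univ
import Crest.Agent.R73.L2
import Crest.Agent.R73.RowCol

/-!
The concrete Cuntz algebra on `ℓ²(ℕ)`: universal property and finite dimensional approximation.
-/

set_option autoImplicit false

namespace Crest.Agent.R73

open scoped InnerProductSpace
open Filter Topology

/-- words of a given length -/
def lvl : ℕ → Finset (List Bool)
  | 0 => {[]}
  | l + 1 => ((lvl l).map ⟨List.cons false, List.cons_injective⟩).disjUnion
      ((lvl l).map ⟨List.cons true, List.cons_injective⟩) (by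
        rw [Finset.disjoint_left]
        intro a h1 h2
        simp only [Finset.mem_map, Function.Embedding.coeFn_mk] at h1 h2
        obtain ⟨w, _, rfl⟩ := h1
        obtain ⟨w', _, h⟩ := h2
        simp at h)

theorem sum_lvl_succ {M : Type*} [AddCommMonoid M] (l : ℕ) (f : List Bool → M) :
    ∑ α ∈ lvl (l + 1), f α = ∑ α ∈ lvl l, f (false :: α) + ∑ α ∈ lvl l, f (true :: α) := by
  rw [lvl, Finset.sum_disjUnion, Finset.sum_map, Finset.sum_map]
  rfl

theorem length_of_mem_lvl {l : ℕ} {α : List Bool} (h : α ∈ lvl l) : α.length = l := by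
  induction l generalizing α with
  | zero => simpa [lvl] using h
  | succ l ih =>
    simp only [lvl, Finset.mem_disjUnion, Finset.mem_map, Function.Embedding.coeFn_mk] at h
    rcases h with ⟨w, hw, rfl⟩ | ⟨w, hw, rfl⟩ <;> simp [ih hw]

/-- words of length less than `N` -/
def win (N : ℕ) : Finset (List Bool) := (Finset.range N).biUnion lvl

theorem sum_win {M : Type*} [AddCommMonoid M] (N : ℕ) (f : List Bool → M) :
    ∑ α ∈ win N, f α = ∑ l ∈ Finset.range N, ∑ α ∈ lvl l, f α := by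
  refine Finset.sum_biUnion fun i _ j _ hij => ?_
  rw [Function.onFun, Finset.disjoint_left]
  intro a h1 h2
  exact hij ((length_of_mem_lvl h1).symm.trans (length_of_mem_lvl h2))

variable {B : Type} [CStarAlgebra B]

/-- the product along a word -/
def sw (t : Bool → B) : List Bool → B
  | [] => 1
  | b :: w => t b * sw t w

/-- the Cuntz relations -/
def IsCu (t : Bool → B) : Prop :=
  (∀ b, star (t b) * t b = 1) ∧ t false * star (t false) + t true * star (t true) = 1

theorem IsCu.orth {t : Bool → B} (h : IsCu t) (b b' : Bool) :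
    star (t b) * t b' = if b = b' then 1 else 0 := by
  have k : star (t false) * t true = 0 := by
    have h1 : star (t false) * (t false * star (t false) + t true * star (t true)) * t true =
        star (t false) * t true := by rw [h.2, mul_one]
    have h2 : star (t false) * (t false * star (t false) + t true * star (t true)) * t true =
        (star (t false) * t false) * (star (t false) * t true) +
          star (t false) * t true * (star (t true) * t true) := by noncomm_ring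
    rw [h2, h.1, h.1, one_mul, mul_one] at h1
    simpa using h1
  cases b <;> cases b'
  · simp [h.1]
  · simp [k]
  · have := congrArg star k
    simpa using this
  · simp [h.1]

theorem IsCu.norm_le {t : Bool → B} (h : IsCu t) (b : Bool) : ‖t b‖ ≤ 1 := by
  have h1 : ‖t b‖ * ‖t b‖ = ‖(1 : B)‖ := by rw [← CStarRing.norm_star_mul_self, h.1]
  have h2 : ‖(1 : B)‖ * ‖(1 : B)‖ = ‖(1 : B)‖ := by
    rw [← CStarRing.norm_star_mul_self]; simp
  have h3 := norm_nonneg (1 : B)
  have h4 : ‖(1 : B)‖ ≤ 1 := by nlinarith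
  have := norm_nonneg (t b)
  nlinarith

theorem isCu_cuS : IsCu cuS := ⟨cuS_isom, cuS_sum⟩

theorem IsCu.sum_lvl {t : Bool → B} (h : IsCu t) (l : ℕ) :
    ∑ α ∈ lvl l, sw t α * star (sw t α) = 1 := by
  induction l with
  | zero => simp [lvl, sw]
  | succ l ih =>
    have e : ∀ b, ∑ α ∈ lvl l, sw t (b :: α) * star (sw t (b :: α)) = t b * star (t b) := by
      intro b
      calc ∑ α ∈ lvl l, sw t (b :: α) * star (sw t (b :: α))
          = t b * (∑ α ∈ lvl l, sw t α * star (sw t α)) * star (t b) := by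
            rw [Finset.mul_sum, Finset.sum_mul]
            exact Finset.sum_congr rfl fun α _ => by simp only [sw, star_mul, mul_assoc]
        _ = _ := by rw [ih, mul_one]
    rw [sum_lvl_succ, e, e, h.2]

theorem IsCu.sum_win {t : Bool → B} (h : IsCu t) (N : ℕ) :
    ∑ α ∈ win N, sw t α * star (sw t α) = (N : ℂ) • (1 : B) := by
  rw [R73.sum_win]
  simp only [h.sum_lvl, Finset.sum_const, Finset.card_range, Nat.cast_smul_eq_nsmul]

theorem cstar_norm_one_le' : ‖(1 : B)‖ ≤ 1 := by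
  have h : ‖(1 : B)‖ * ‖(1 : B)‖ = ‖(1 : B)‖ := by
    rw [← CStarRing.norm_star_mul_self]; simp
  have := norm_nonneg (1 : B)
  nlinarith

theorem IsCu.norm_sum_win {t : Bool → B} (h : IsCu t) (N : ℕ) :
    ‖∑ α ∈ win N, sw t α * star (sw t α)‖ ≤ N := by
  rw [h.sum_win, norm_smul, Complex.norm_natCast]
  exact mul_le_of_le_one_right (Nat.cast_nonneg _) cstar_norm_one_le'

/-- one row block -/
noncomputable def row (t : Bool → B) (l N : ℕ) (a : L2 ℕ →L[ℂ] L2 ℕ) : B :=
  ∑ α ∈ lvl l, ∑ β ∈ win N, ⟪wv α, a (wv β)⟫_ℂ • (sw t α * star (sw t β))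

/-- the approximating maps -/
noncomputable def Psi (t : Bool → B) (N : ℕ) (a : L2 ℕ →L[ℂ] L2 ℕ) : B :=
  ((N : ℂ))⁻¹ • ∑ α ∈ win N, ∑ β ∈ win N, ⟪wv α, a (wv β)⟫_ℂ • (sw t α * star (sw t β))

theorem Psi_eq (t : Bool → B) (N : ℕ) (a : L2 ℕ →L[ℂ] L2 ℕ) :
    Psi t N a = ((N : ℂ))⁻¹ • ∑ l ∈ Finset.range N, row t l N a := by
  rw [Psi, sum_win]; rfl

theorem IsCu.norm_row {t : Bool → B} (h : IsCu t) (l N : ℕ) (a : L2 ℕ →L[ℂ] L2 ℕ) :
    ‖row t l N a‖ ≤ ‖a‖ * Real.sqrt N := by
  have h1 := rowcol_le (lvl l) (win N) wv_orthonormal a (sw t)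
  rw [h.sum_lvl] at h1
  refine (abs_le_of_sq_le_sq' ?_ (by positivity)).2
  rw [mul_pow, Real.sq_sqrt (Nat.cast_nonneg _)]
  refine h1.trans ?_
  have := h.norm_sum_win N
  have := cstar_norm_one_le' (B := B)
  calc _ ≤ ‖a‖ ^ 2 * 1 * N := by gcongr
    _ = _ := by ring

theorem IsCu.norm_Psi {t : Bool → B} (h : IsCu t) (N : ℕ) (a : L2 ℕ →L[ℂ] L2 ℕ) :
    ‖Psi t N a‖ ≤ ‖a‖ := by
  have h1 := rowcol_le (win N) (win N) wv_orthonormal a (sw t)
  have h2 := h.norm_sum_win N
  have h3 : ‖∑ α ∈ win N, ∑ β ∈ win N, ⟪wv α, a (wv β)⟫_ℂ • (sw t α * star (sw t β))‖ ≤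
      ‖a‖ * N := by
    refine (abs_le_of_sq_le_sq' (h1.trans ?_) (by positivity)).2
    calc _ ≤ ‖a‖ ^ 2 * N * N := by gcongr
      _ = _ := by ring
  rw [Psi, norm_smul, norm_inv, Complex.norm_natCast]
  rcases Nat.eq_zero_or_pos N with rfl | hN
  · simp
  · have : (0 : ℝ) < N := Nat.cast_pos.2 hN
    rw [inv_mul_le_iff₀ this, mul_comm]
    exact h3

theorem Psi_add (t : Bool → B) (N : ℕ) (a a' : L2 ℕ →L[ℂ] L2 ℕ) :
    Psi t N (a + a') = Psi t N a + Psi t N a' := by
  simp only [Psi, _root_.add_apply, inner_add_right, add_smul, Finset.sum_add_distrib, smul_add]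

theorem Psi_smul (t : Bool → B) (N : ℕ) (c : ℂ) (a : L2 ℕ →L[ℂ] L2 ℕ) :
    Psi t N (c • a) = c • Psi t N a := by
  simp only [Psi, _root_.smul_apply, inner_smul_right, mul_smul, ← Finset.smul_sum]
  rw [smul_comm]

theorem Psi_sub (t : Bool → B) (N : ℕ) (a a' : L2 ℕ →L[ℂ] L2 ℕ) :
    Psi t N (a - a') = Psi t N a - Psi t N a' := by
  simp only [Psi, _root_.sub_apply, inner_sub_right, sub_smul, Finset.sum_sub_distrib, smul_sub]

theorem IsCu.Psi_one {t : Bool → B} (h : IsCu t) {N : ℕ} (hN : 0 < N) : Psi t N 1 = 1 := by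
  have e : ∀ α ∈ win N, ∑ β ∈ win N, ⟪wv α, (1 : L2 ℕ →L[ℂ] L2 ℕ) (wv β)⟫_ℂ •
      (sw t α * star (sw t β)) = sw t α * star (sw t α) := by
    intro α hα
    simp only [one_apply_eq_self, orthonormal_iff_ite.1 wv_orthonormal, ite_smul, one_smul,
      zero_smul, Finset.sum_ite_eq, hα, if_true]
  rw [Psi, Finset.sum_congr rfl e, h.sum_win, smul_smul, inv_mul_cancel₀ (by exact_mod_cast hN.ne'),
    one_smul]

theorem inner_wv_cons (b : Bool) (α : List Bool) (x : L2 ℕ) :
    ⟪wv (b :: α), x⟫_ℂ = ⟪wv α, (star (cuS b)) x⟫_ℂ := by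
  rw [← cuS_wv, ContinuousLinearMap.star_eq_adjoint, ContinuousLinearMap.adjoint_inner_right]

theorem row_succ (t : Bool → B) (l N : ℕ) (a : L2 ℕ →L[ℂ] L2 ℕ) :
    row t (l + 1) N a = t false * row t l N (star (cuS false) * a) +
      t true * row t l N (star (cuS true) * a) := by
  simp only [row, sum_lvl_succ, inner_wv_cons, sw, Finset.mul_sum, mul_smul_comm, mul_assoc,
    mul_apply_eq_comp]

theorem row_zero_op (t : Bool → B) (l N : ℕ) : row t l N 0 = 0 := by simp [row]

theorem row_succ_S (t : Bool → B) (l N : ℕ) (a : L2 ℕ →L[ℂ] L2 ℕ) (b : Bool) :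
    row t (l + 1) N (cuS b * a) = t b * row t l N a := by
  rw [row_succ, ← mul_assoc, ← mul_assoc, isCu_cuS.orth, isCu_cuS.orth]
  cases b <;> simp [row_zero_op]

theorem IsCu.star_mul_row {t : Bool → B} (h : IsCu t) (l N : ℕ) (a : L2 ℕ →L[ℂ] L2 ℕ) (b : Bool) :
    star (t b) * row t (l + 1) N a = row t l N (star (cuS b) * a) := by
  rw [row_succ, mul_add, ← mul_assoc, ← mul_assoc, h.orth, h.orth]
  cases b <;> simp

theorem IsCu.tendsto_shift {t : Bool → B} (h : IsCu t) (a : L2 ℕ →L[ℂ] L2 ℕ) :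
    Tendsto (fun N : ℕ => ((N : ℂ))⁻¹ • ∑ l ∈ Finset.range N, row t (l + 1) N a - Psi t N a)
      atTop (𝓝 0) := by
  rw [tendsto_zero_iff_norm_tendsto_zero]
  have h1 : Tendsto (fun N : ℕ => 2 * ‖a‖ * (Real.sqrt N)⁻¹) atTop (𝓝 (2 * ‖a‖ * 0)) :=
    (tendsto_inv_atTop_zero.comp
      (Real.tendsto_sqrt_atTop.comp tendsto_natCast_atTop_atTop)).const_mul _
  rw [mul_zero] at h1
  refine squeeze_zero (fun _ => norm_nonneg _) (fun N => ?_) h1
  rw [Psi_eq, ← smul_sub, ← Finset.sum_sub_distrib,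
    Finset.sum_range_sub (fun l => row t l N a), norm_smul, norm_inv, Complex.norm_natCast]
  have h2 : ‖row t N N a - row t 0 N a‖ ≤ 2 * ‖a‖ * Real.sqrt N := by
    have := norm_sub_le (row t N N a) (row t 0 N a)
    have := h.norm_row N N a
    have := h.norm_row 0 N a
    linarith
  rcases Nat.eq_zero_or_pos N with rfl | hN
  · simp
  · have hN' : (0 : ℝ) < N := Nat.cast_pos.2 hN
    have hs : 0 < Real.sqrt N := Real.sqrt_pos.2 hN'
    calc (N : ℝ)⁻¹ * ‖row t N N a - row t 0 N a‖ ≤ (N : ℝ)⁻¹ * (2 * ‖a‖ * Real.sqrt N) := by gcongr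
      _ = 2 * ‖a‖ * (Real.sqrt N)⁻¹ := by
        conv_lhs => congr; rw [← Real.mul_self_sqrt hN'.le]
        field_simp

theorem IsCu.tendsto_Psi {t : Bool → B} (h : IsCu t) {p : (L2 ℕ →L[ℂ] L2 ℕ) × B}
    (hp : p ∈ genAlg fun b => (cuS b, t b)) :
    Tendsto (fun N => Psi t N p.1) atTop (𝓝 p.2) := by
  set 𝒢 : Set ((L2 ℕ →L[ℂ] L2 ℕ) × B) :=
    {p | Tendsto (fun N => Psi t N p.1) atTop (𝓝 p.2)} with h𝒢
  have hcl : IsClosed 𝒢 := by
    refine isClosed_of_closure_subset fun p hp => ?_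
    rw [h𝒢, Set.mem_ofPred_eq, Metric.tendsto_atTop]
    intro ε hε
    obtain ⟨q, hq, hpq⟩ := Metric.mem_closure_iff.1 hp (ε / 3) (by positivity)
    obtain ⟨N, hN⟩ := Metric.tendsto_atTop.1 hq (ε / 3) (by positivity)
    refine ⟨N, fun n hn => ?_⟩
    have k1 := hN n hn
    have k2 : dist (Psi t n p.1) (Psi t n q.1) ≤ dist p q := by
      rw [dist_eq_norm, ← Psi_sub]
      refine (h.norm_Psi _ _).trans ?_
      rw [← dist_eq_norm]
      exact le_max_left _ _
    have k3 : dist q.2 p.2 ≤ dist p q := by rw [dist_comm]; exact le_max_right _ _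
    have k4 := dist_triangle4 (Psi t n p.1) (Psi t n q.1) q.2 p.2
    linarith
  have hone : (1 : (L2 ℕ →L[ℂ] L2 ℕ) × B) ∈ 𝒢 := by
    refine tendsto_const_nhds.congr' ?_
    filter_upwards [eventually_gt_atTop 0] with N hN
    exact (h.Psi_one hN).symm
  have hmul : ∀ x ∈ Algebra.adjoin ℂ (Set.range (fun b => (cuS b, t b)) ∪
      star (Set.range (fun b => (cuS b, t b)))), ∀ p ∈ 𝒢, x * p ∈ 𝒢 := by
    intro x hx
    induction hx using Algebra.adjoin_induction with
    | mem x hx =>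
      intro p hp
      rcases hx with ⟨b, rfl⟩ | hx
      · have k1 := (Tendsto.const_mul (t b) hp).sub (h.tendsto_shift (cuS b * p.1))
        rw [sub_zero] at k1
        refine k1.congr fun N => ?_
        simp only [row_succ_S, ← Finset.mul_sum, Psi_eq t N p.1, mul_smul_comm, sub_sub_cancel,
          Prod.fst_mul]
      · obtain ⟨b, hb⟩ := Set.mem_star.1 hx
        obtain rfl : x = star (cuS b, t b) := by rw [← star_star x, ← hb]
        have k1 := Tendsto.const_mul (star (t b)) ((h.tendsto_shift p.1).add hp)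
        rw [zero_add] at k1
        refine k1.congr fun N => ?_
        simp only [sub_add_cancel, mul_smul_comm, Finset.mul_sum, h.star_mul_row, Psi_eq,
          Prod.fst_mul, Prod.fst_star]
    | algebraMap r =>
      intro p hp
      rw [← Algebra.smul_def]
      exact (Tendsto.const_smul hp r).congr fun N => (Psi_smul t N r p.1).symm
    | add x y _ _ hx hy =>
      intro p hp
      rw [add_mul]
      exact (Tendsto.add (hx p hp) (hy p hp)).congr fun N => (Psi_add t N _ _).symm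
    | mul x y _ _ hx hy =>
      intro p hp
      rw [mul_assoc]
      exact hx _ (hy p hp)
  refine closure_minimal (fun q hq => ?_) hcl hp
  have := hmul q hq 1 hone
  rwa [mul_one] at this

/-- the concrete Cuntz algebra -/
abbrev OO : Type := genAlg cuS

theorem OO_isCuntzTwo :
    Crest.AnalysisR.CStarEmbedding.IsCuntzTwo OO (genEl cuS false) (genEl cuS true) := by
  refine ⟨Subtype.ext (cuS_isom false), Subtype.ext (cuS_isom true), Subtype.ext cuS_sum, ?_,
    fun B _ t₁ t₂ h1 h2 h3 => ?_⟩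
  · rw [← Bool.range_eq]
    exact genAlg_top cuS
  · let t : Bool → B := fun b => bif b then t₂ else t₁
    have ht : IsCu t := ⟨fun b => by cases b <;> assumption, h3⟩
    obtain ⟨φ, hφ⟩ := graph_ext' cuS t fun p hp => by
      have := ht.tendsto_Psi (StarSubalgebra.le_topologicalClosure _ hp)
      exact le_of_tendsto' this.norm fun N => ht.norm_Psi N _
    exact ⟨φ, hφ false, hφ true⟩

theorem OO_tendsto {a : L2 ℕ →L[ℂ] L2 ℕ} (ha : a ∈ genAlg cuS) :
    Tendsto (fun N => Psi cuS N a) atTop (𝓝 a) := by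
  let Φ : (L2 ℕ →L[ℂ] L2 ℕ) →⋆ₐ[ℂ] (L2 ℕ →L[ℂ] L2 ℕ) × (L2 ℕ →L[ℂ] L2 ℕ) :=
    (StarAlgHom.id ℂ _).prod (StarAlgHom.id ℂ _)
  have h1 : Φ a ∈ (genAlg cuS).map Φ := ⟨a, ha, rfl⟩
  have h2 := StarSubalgebra.map_topologicalClosure_le _ Φ (continuous_id.prodMk continuous_id) h1
  rw [StarAlgHom.map_adjoin, ← Set.range_comp] at h2
  exact isCu_cuS.tendsto_Psi (p := Φ a) h2

end Crest.Agent.R73
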