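import Crest.Agent.R73.Ampl

/-!
The affine actions on truncated power series, and the countable group `GG`.
-/

set_option autoImplicit false

namespace Crest.Agent.R73

open Finset Filter Topology

/-- A module with a shift `Y`, a `ZMod 3`-grading `E` and a base vector. -/
structure Dat (M : Type) [AddCommGroup M] [Module FF M] where
  Y : M →ₗ[FF] M
  E : ZMod 3 → M →ₗ[FF] M
  e0 : M
  hEE : ∀ i j v, i ≠ j → E i (E j v) = 0
  hEY : ∀ i v, E (i + 1) (Y v) = Y (E i v)
  hE0 : ∀ i, E i e0 = if i = 0 then e0 else 0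

abbrev JJ : Type := Option (ZMod 3)

theorem card_JJ : Fintype.card JJ = 4 := by simp [JJ, ZMod.card]

section dat

variable {M : Type} [AddCommGroup M] [Module FF M]

/-- unipotent elementary permutation -/
def el (L : M →ₗ[FF] M) (h : ∀ v, L (L v) = 0) (b : FF) : Equiv.Perm M where
  toFun v := v + b • L v
  invFun v := v - b • L v
  left_inv v := by simp [h]
  right_inv v := by simp [h]

@[simp] theorem el_apply (L : M →ₗ[FF] M) (h : ∀ v, L (L v) = 0) (b : FF) (v : M) :
    el L h b v = v + b • L v := rfl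

/-- translation -/
def tr (m : M) : Equiv.Perm M := Equiv.addRight m

omit [Module FF M] in
@[simp] theorem tr_apply (m v : M) : tr m v = v + m := rfl

def Dat.N (D : Dat M) (i : ZMod 3) : M →ₗ[FF] M := D.Y ∘ₗ D.E i

theorem Dat.N_apply (D : Dat M) (i : ZMod 3) (v : M) : D.N i v = D.Y (D.E i v) := rfl

theorem Dat.NN (D : Dat M) {i j : ZMod 3} (h : i ≠ j + 1) (v : M) : D.N i (D.N j v) = 0 := by
  have e : i = (i - 1) + 1 := by ring
  rw [D.N_apply, D.N_apply, e, D.hEY, D.hEE _ _ _ (fun h' => h (by rw [← h']; ring)), map_zero,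
    map_zero]

theorem Dat.NN_self (D : Dat M) (i : ZMod 3) (v : M) : D.N i (D.N i v) = 0 :=
  D.NN (by revert i; decide) v

/-- the four one-parameter families -/
def Dat.x (D : Dat M) : JJ → FF → Equiv.Perm M
  | none, a => tr (a • D.e0)
  | some i, b => el (D.N i) (D.NN_self i) b

@[simp] theorem Dat.x_none (D : Dat M) (a : FF) (v : M) : D.x none a v = v + a • D.e0 := rfl

@[simp] theorem Dat.x_some (D : Dat M) (i : ZMod 3) (b : FF) (v : M) :
    D.x (some i) b v = v + b • D.N i v := rfl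

theorem Dat.hp_succ (D : Dat M) (i : ZMod 3) : HP (D.x (some (i + 1))) (D.x (some i)) := by
  have h1 : ∀ v, D.N i (D.N (i + 1) v) = 0 := D.NN (by revert i; decide)
  have h2 := D.NN_self i
  have h3 := D.NN_self (i + 1)
  refine ⟨el (D.N (i + 1) ∘ₗ D.N i) (fun v => by simp [h1]), fun a b => ?_, fun a b => ?_,
    fun a b => ?_, fun a b => ?_⟩ <;> ext v <;> simp [h1, h2, h3]
  · module
  · module
  · module
  · module

theorem Dat.hp_none (D : Dat M) (i : ZMod 3) : HP (D.x (some i)) (D.x none) := by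
  have h2 := D.NN_self i
  refine ⟨fun c => tr (c • D.N i D.e0), fun a b => ?_, fun a b => ?_,
    fun a b => ?_, fun a b => ?_⟩ <;> ext v <;> simp [h2]
  · module
  · module
  · module
  · module

theorem Dat.ksys (D : Dat M) : KSys D.x := by
  refine ⟨fun j a b => ?_, fun i j hij => ?_⟩
  · cases j with
    | none => ext v; simp; module
    | some i => ext v; simp [D.NN_self]; module
  · cases i with
    | none =>
      cases j with
      | none => exact absurd rfl hij
      | some j => exact (D.hp_none j).symm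
    | some i =>
      cases j with
      | none => exact D.hp_none i
      | some j =>
        have : i = j + 1 ∨ j = i + 1 := by
          have h : i ≠ j := fun h => hij (by rw [h])
          revert i j; decide
        rcases this with rfl | rfl
        · exact D.hp_succ j
        · exact (D.hp_succ i).symm

theorem Dat.E_pow (D : Dat M) (n : ℕ) : D.E (n : ZMod 3) ((D.Y ^ n) D.e0) = (D.Y ^ n) D.e0 := by
  induction n with
  | zero => simp [D.hE0]
  | succ n ih =>
    rw [pow_succ', Module.End.mul_apply, Nat.cast_succ, D.hEY, ih]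

theorem Dat.tr_mem (D : Dat M) (n : ℕ) :
    tr ((D.Y ^ n) D.e0) ∈ Subgroup.closure (Set.range fun p : JJ × FF => D.x p.1 p.2) := by
  induction n with
  | zero =>
    refine Subgroup.subset_closure ⟨(none, 1), ?_⟩
    ext v; simp
  | succ n ih =>
    have h : D.x (some (n : ZMod 3)) 1 ∈
        Subgroup.closure (Set.range fun p : JJ × FF => D.x p.1 p.2) :=
      Subgroup.subset_closure ⟨(some _, 1), rfl⟩
    have e : tr ((D.Y ^ (n + 1)) D.e0) = D.x (some (n : ZMod 3)) 1 * tr ((D.Y ^ n) D.e0) *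
        (tr ((D.Y ^ n) D.e0) * D.x (some (n : ZMod 3)) 1)⁻¹ := by
      rw [eq_mul_inv_iff_mul_eq]
      ext v
      simp only [Equiv.Perm.coe_mul, Function.comp_apply, tr_apply, Dat.x_some, one_smul, map_add]
      rw [D.N_apply (n : ZMod 3) ((D.Y ^ n) D.e0), D.E_pow, pow_succ', Module.End.mul_apply]
      abel
    rw [e]
    exact Subgroup.mul_mem _ (Subgroup.mul_mem _ h ih)
      (Subgroup.inv_mem _ (Subgroup.mul_mem _ ih h))

/-- product of two data -/
def Dat.prod {M' : Type} [AddCommGroup M'] [Module FF M'] (D : Dat M) (D' : Dat M') :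
    Dat (M × M') where
  Y := D.Y.prodMap D'.Y
  E i := (D.E i).prodMap (D'.E i)
  e0 := (D.e0, D'.e0)
  hEE i j v h := by simp [D.hEE i j _ h, D'.hEE i j _ h]
  hEY i v := by simp [D.hEY, D'.hEY]
  hE0 i := by
    simp only [LinearMap.prodMap_apply, D.hE0, D'.hE0]
    split_ifs <;> rfl

theorem Dat.prod_x {M' : Type} [AddCommGroup M'] [Module FF M'] (D : Dat M) (D' : Dat M')
    (j : JJ) (b : FF) (v : M × M') : (D.prod D').x j b v = (D.x j b v.1, D'.x j b v.2) := by
  cases j <;> rfl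

theorem Dat.prod_pow {M' : Type} [AddCommGroup M'] [Module FF M'] (D : Dat M) (D' : Dat M')
    (n : ℕ) : ((D.prod D').Y ^ n) (D.prod D').e0 = ((D.Y ^ n) D.e0, (D'.Y ^ n) D'.e0) := by
  induction n with
  | zero => rfl
  | succ n ih =>
    rw [pow_succ', pow_succ', pow_succ', Module.End.mul_apply, Module.End.mul_apply,
      Module.End.mul_apply, ih]
    rfl

theorem Dat.x_comm_tr (D : Dat M) {m : M} (hm : ∀ i, D.N i m = 0) (j : JJ) (b : FF) (v : M) :
    D.x j b (v + m) = D.x j b v + m := by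
  cases j with
  | none => simp; abel
  | some i => simp [hm]; abel

/-- No almost invariant vectors that are equivariant for a translation by a nontrivial scalar. -/
theorem Dat.not_AI [Fintype M] (D : Dat M) (n : ℕ) (hn : ∀ i, D.N i ((D.Y ^ n) D.e0) = 0)
    {θ : ℂ} (hθ : θ ≠ 1) :
    ¬ AI (fun (_ : JJ) (_ : FF) => (1 : ℂ →L[ℂ] ℂ)) D.x (fun v => v + (D.Y ^ n) D.e0) θ
      (1 / 200) := by
  intro h0
  have hall : ∀ ε : ℝ, 0 < ε → AI (fun (_ : JJ) (_ : FF) => (1 : ℂ →L[ℂ] ℂ)) D.x
      (fun v => v + (D.Y ^ n) D.e0) θ ε := by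
    intro ε hε
    have := robust_gap_AI (⊤ : Filter Unit) (H := ℂ) (G := Unit) (fun _ _ => 1)
      (fun _ _ => by simp) (fun _ _ => by simp) (fun _ _ => by simp)
      (by simp) card_JJ KSys.trivial (fun _ => M) (σ := fun _ => D.x)
      (fun _ => D.ksys) hε
    rw [eventually_top] at this
    exact this () _ θ (fun j b y => D.x_comm_tr hn j b y) h0
  have hword : ∀ g ∈ Subgroup.closure (Set.range fun p : JJ × FF => D.x p.1 p.2),
      ∃ L : ℝ, 0 ≤ L ∧ ∀ (ξ : VF M ℂ) (ε : ℝ),
        (∀ j b, ‖ampl (1 : ℂ →L[ℂ] ℂ) (D.x j b) ξ - ξ‖ ≤ ε * ‖ξ‖) →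
        ‖ampl (1 : ℂ →L[ℂ] ℂ) g ξ - ξ‖ ≤ L * (ε * ‖ξ‖) := by
    have hcon : ∀ (g : Equiv.Perm M) (ξ : VF M ℂ), ‖ampl (1 : ℂ →L[ℂ] ℂ) g ξ‖ ≤ ‖ξ‖ := by
      intro g ξ
      refine ((ampl (1 : ℂ →L[ℂ] ℂ) g).le_opNorm ξ).trans
        (mul_le_of_le_one_left (norm_nonneg _) ((norm_ampl_le _ _).trans (by simp)))
    intro g hg
    induction hg using Subgroup.closure_induction with
    | mem g hg =>
      obtain ⟨p, rfl⟩ := hg
      exact ⟨1, zero_le_one, fun ξ ε h => by simpa using h p.1 p.2⟩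
    | one => exact ⟨0, le_rfl, fun ξ ε h => by simp [ampl_one]⟩
    | mul g g' _ _ ih ih' =>
      obtain ⟨L, hL, ih⟩ := ih
      obtain ⟨L', hL', ih'⟩ := ih'
      refine ⟨L + L', by positivity, fun ξ ε h => ?_⟩
      have e : ampl (1 : ℂ →L[ℂ] ℂ) (g * g') ξ - ξ =
          ampl (1 : ℂ →L[ℂ] ℂ) g (ampl (1 : ℂ →L[ℂ] ℂ) g' ξ - ξ) + (ampl (1 : ℂ →L[ℂ] ℂ) g ξ - ξ) := by
        rw [map_sub, ← mul_apply_eq_comp, ampl_mul, mul_one]; abel
      rw [e]
      refine (norm_add_le _ _).trans ?_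
      have := hcon g (ampl (1 : ℂ →L[ℂ] ℂ) g' ξ - ξ)
      have := ih ξ ε h
      have := ih' ξ ε h
      linarith
    | inv g _ ih =>
      obtain ⟨L, hL, ih⟩ := ih
      refine ⟨L, hL, fun ξ ε h => ?_⟩
      have e : ampl (1 : ℂ →L[ℂ] ℂ) g⁻¹ ξ - ξ =
          -ampl (1 : ℂ →L[ℂ] ℂ) g⁻¹ (ampl (1 : ℂ →L[ℂ] ℂ) g ξ - ξ) := by
        rw [map_sub, ← mul_apply_eq_comp, ampl_mul, mul_one, inv_mul_cancel, ampl_one]
        simp
      rw [e, norm_neg]
      exact (hcon _ _).trans (ih ξ ε h)
  obtain ⟨L, hL, hw⟩ := hword _ (D.tr_mem n)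
  have hpos : 0 < ‖1 - θ‖ := norm_pos_iff.2 (sub_ne_zero.2 hθ.symm)
  obtain ⟨ξ, h1, h2, h3⟩ := hall (‖1 - θ‖ / (L + 1)) (by positivity)
  have h4 := hw ξ _ h3
  have h5 : ‖ampl (1 : ℂ →L[ℂ] ℂ) (tr ((D.Y ^ n) D.e0)) ξ - ξ‖ ^ 2 = (‖1 - θ‖ * ‖ξ‖) ^ 2 := by
    rw [ampl_defect_sq', mul_pow, VF.norm_sq, Finset.mul_sum]
    refine Finset.sum_congr rfl fun y _ => ?_
    rw [tr_apply, h1, ← mul_pow, ← norm_mul]
    congr 2
    simp; ring
  have h6 : ‖ampl (1 : ℂ →L[ℂ] ℂ) (tr ((D.Y ^ n) D.e0)) ξ - ξ‖ = ‖1 - θ‖ * ‖ξ‖ :=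
    (pow_left_inj₀ (norm_nonneg _) (by positivity) two_ne_zero).1 h5
  have hξ : 0 < ‖ξ‖ := norm_pos_iff.2 h2
  rw [h6] at h4
  have h7 : L * (‖1 - θ‖ / (L + 1) * ‖ξ‖) < ‖1 - θ‖ * ‖ξ‖ := by
    have : L * (‖1 - θ‖ / (L + 1) * ‖ξ‖) = L / (L + 1) * (‖1 - θ‖ * ‖ξ‖) := by ring
    rw [this]
    exact mul_lt_of_lt_one_left (by positivity) ((div_lt_one (by positivity)).2 (by linarith))
  linarith

end dat

/-- truncated power series -/
abbrev VV (k : ℕ) : Type := Fin k → FF

/-- the data on truncated power series -/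
def DV (k : ℕ) : Dat (VV k) where
  Y :=
    { toFun := fun v n => if h : n.val = 0 then 0 else v ⟨n.val - 1, by omega⟩
      map_add' := fun v w => by ext n; by_cases h : n.val = 0 <;> simp [h]
      map_smul' := fun c v => by ext n; by_cases h : n.val = 0 <;> simp [h] }
  E i :=
    { toFun := fun v n => if ((n.val : ℕ) : ZMod 3) = i then v n else 0
      map_add' := fun v w => by ext n; by_cases h : ((n.val : ℕ) : ZMod 3) = i <;> simp [h]
      map_smul' := fun c v => by ext n; by_cases h : ((n.val : ℕ) : ZMod 3) = i <;> simp [h] }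
  e0 := fun n => if n.val = 0 then 1 else 0
  hEE i j v h := by
    ext n
    simp only [LinearMap.coe_mk, AddHom.coe_mk, Pi.zero_apply]
    split_ifs with h1 h2
    · exact absurd (h1.symm.trans h2) h
    · rfl
    · rfl
  hEY i v := by
    ext ⟨n, hn⟩
    simp only [LinearMap.coe_mk, AddHom.coe_mk]
    cases n with
    | zero => simp
    | succ n => simp
  hE0 i := by
    ext ⟨n, hn⟩
    cases n with
    | zero => by_cases h : i = 0 <;> simp [h, eq_comm]
    | succ n => by_cases h : i = 0 <;> simp [h]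

theorem DV_Y (k : ℕ) (v : VV k) (n : Fin k) :
    (DV k).Y v n = if h : n.val = 0 then 0 else v ⟨n.val - 1, by omega⟩ := rfl

theorem DV_E (k : ℕ) (i : ZMod 3) (v : VV k) (n : Fin k) :
    (DV k).E i v n = if ((n.val : ℕ) : ZMod 3) = i then v n else 0 := rfl

theorem DV_e0 (k : ℕ) (n : Fin k) : (DV k).e0 n = if n.val = 0 then 1 else 0 := rfl

/-- the monomial `y ^ n` -/
def pw (k n : ℕ) : VV k := fun m => if m.val = n then 1 else 0

theorem DV_pow (k n : ℕ) : ((DV k).Y ^ n) (DV k).e0 = pw k n := by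
  induction n with
  | zero => rfl
  | succ n ih =>
    rw [pow_succ', Module.End.mul_apply, ih]
    ext ⟨m, hm⟩
    rw [DV_Y]
    cases m with
    | zero => simp [pw]
    | succ m => simp [pw]

theorem pw_eq_zero {k n : ℕ} (h : k ≤ n) : pw k n = 0 := by
  ext m
  have := m.2
  simp only [pw, Pi.zero_apply]
  rw [if_neg (by omega)]

theorem DV_N_pw {k n : ℕ} (h : k ≤ n + 1) (i : ZMod 3) : (DV k).N i (pw k n) = 0 := by
  ext ⟨m, hm⟩
  rw [Dat.N_apply, DV_Y]
  cases m with
  | zero => simp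
  | succ m =>
    have : m ≠ n := by omega
    simp [DV_E, pw, this]

theorem cons_add_pw (k : ℕ) (a : FF) (v : VV (k + 1)) :
    (Fin.cons a (v + pw (k + 1) k) : VV (k + 2)) = Fin.cons a v + pw (k + 2) (k + 1) := by
  ext m
  refine Fin.cases ?_ (fun m => ?_) m
  · simp [pw]
  · simp [pw]

/-- two-sided sequences -/
abbrev MM : Type := ℤ → FF

/-- the data on two-sided sequences -/
def DM : Dat MM where
  Y :=
    { toFun := fun v n => v (n - 1)
      map_add' := fun v w => rfl
      map_smul' := fun c v => rfl }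
  E i :=
    { toFun := fun v n => if (n : ZMod 3) = i then v n else 0
      map_add' := fun v w => by ext n; by_cases h : (n : ZMod 3) = i <;> simp [h]
      map_smul' := fun c v => by ext n; by_cases h : (n : ZMod 3) = i <;> simp [h] }
  e0 := fun n => if n = 0 then 1 else 0
  hEE i j v h := by
    ext n
    simp only [LinearMap.coe_mk, AddHom.coe_mk, Pi.zero_apply]
    split_ifs with h1 h2
    · exact absurd (h1.symm.trans h2) h
    · rfl
    · rfl
  hEY i v := by
    ext n
    simp only [LinearMap.coe_mk, AddHom.coe_mk, Int.cast_sub, Int.cast_one, sub_eq_iff_eq_add]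
  hE0 i := by
    ext n
    by_cases hn : n = 0
    · subst hn; by_cases h : i = 0 <;> simp [h, eq_comm]
    · by_cases h : i = 0 <;> simp [h, hn]

/-- the shift -/
def shiftM : Equiv.Perm MM where
  toFun v n := v (n - 1)
  invFun v n := v (n + 1)
  left_inv v := by ext n; simp
  right_inv v := by ext n; simp

theorem shiftM_apply (v : MM) : shiftM v = DM.Y v := rfl

/-- generators -/
def genG : Option (JJ × FF) → Equiv.Perm MM
  | none => shiftM
  | some p => DM.x p.1 p.2

/-- the group -/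
def GGs : Subgroup (Equiv.Perm MM) := (FreeGroup.lift genG).range

abbrev GG : Type := GGs

instance : Countable GG := (Set.countable_range (FreeGroup.lift genG)).to_subtype

theorem genG_mem (o : Option (JJ × FF)) : genG o ∈ GGs := ⟨FreeGroup.of o, by simp⟩

/-- the one-parameter families in `GG` -/
def gx (j : JJ) (b : FF) : GG := ⟨DM.x j b, genG_mem (some (j, b))⟩

/-- the shift in `GG` -/
def gt : GG := ⟨shiftM, genG_mem none⟩

theorem gx_ksys : KSys gx := DM.ksys.subgroup GGs fun j b => genG_mem (some (j, b))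

theorem step_rel (j : JJ) (b a : FF) : ∃ (a' c : FF) (i : ZMod 3) (b' : FF),
    gx j b * (gx none a * gt) = (gx none a' * gt) * (gx none c * gx (some i) b') ∧
    ∀ (k : ℕ) (v : VV k), (DV (k + 1)).x j b (Fin.cons a v) =
      Fin.cons a' ((DV k).x none c ((DV k).x (some i) b' v)) := by
  cases j with
  | none =>
    refine ⟨a + b, 0, 0, 0, Subtype.ext ?_, fun k v => ?_⟩
    · ext1 v
      simp [gx, gt]
      module
    · ext m
      refine Fin.cases ?_ (fun m => ?_) m
      · simp [DV_e0]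
      · simp [DV_e0]
  | some i =>
    obtain ⟨i, rfl⟩ : ∃ i', i = i' + 1 := ⟨i - 1, by ring⟩
    refine ⟨a, if i + 1 = 0 then a * b else 0, i, b, Subtype.ext ?_, fun k v => ?_⟩
    · ext1 v
      simp only [gx, gt, Subgroup.coe_mul, Equiv.Perm.coe_mul, Function.comp_apply, Dat.x_none,
        Dat.x_some, shiftM_apply, map_add, map_smul, Dat.N_apply, DM.hEY, DM.hE0]
      split_ifs
      · module
      · simp; module
    · ext m
      refine Fin.cases ?_ (fun m => ?_) m
      · simp [Dat.N_apply, DV_Y]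
      · obtain ⟨m, hm⟩ := m
        cases m with
        | zero =>
          simp only [Dat.x_some, Dat.x_none, Dat.N_apply, Pi.add_apply, Pi.smul_apply, DV_Y, DV_E,
            DV_e0, Fin.cons_succ]
          by_cases h : i + 1 = 0
          · simp [h, mul_comm]
          · have h' : ¬ (0 = i + 1) := fun h' => h h'.symm
            simp [h, h']
        | succ m =>
          simp only [Dat.x_some, Dat.x_none, Dat.N_apply, Pi.add_apply, Pi.smul_apply, DV_Y, DV_E,
            DV_e0, Fin.cons_succ]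
          have e : (Fin.cons a v : VV (k + 1)) ⟨m + 1, by omega⟩ = v ⟨m, by omega⟩ := rfl
          simp [e]

end Crest.Agent.R73
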