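import Crest.Agent.R73.Schmidt

/-!
Finite dimensional contradiction: contractions compressed to a finite dimensional space admit almost
invariant vectors for only finitely many levels.
-/

set_option autoImplicit false

namespace Crest.Agent.R73

open Finset
open scoped InnerProductSpace ComplexConjugate

theorem pair_gap {j k : ℕ} (hjk : j ≠ k) {θ : ℂ} (hθ : θ ≠ 1) (ζ : VV (j + 1) → VV (k + 1) → ℂ)
    (h1 : ∀ v v', ζ (v + pw (j + 1) j) v' = θ * ζ v v')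
    (h2 : ∀ v v', ζ v (v' + pw (k + 1) k) = conj θ * ζ v v') :
    (1 / 200) ^ 2 * ∑ v, ∑ v', ‖ζ v v'‖ ^ 2 ≤ ∑ s : JJ × FF, ∑ v, ∑ v',
      ‖ζ v v' - ζ ((DV (j + 1)).x s.1 s.2 v) ((DV (k + 1)).x s.1 s.2 v')‖ ^ 2 := by
  by_contra hcon
  push Not at hcon
  let D := (DV (j + 1)).prod (DV (k + 1))
  let ξ : VF (VV (j + 1) × VV (k + 1)) ℂ := WithLp.toLp 2 fun p => ζ p.1 p.2
  have hn : ‖ξ‖ ^ 2 = ∑ v, ∑ v', ‖ζ v v'‖ ^ 2 := by
    rw [VF.norm_sq, Fintype.sum_prod_type]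
  have hd : ∀ s b, ‖ampl (1 : ℂ →L[ℂ] ℂ) (D.x s b) ξ - ξ‖ ^ 2 = ∑ v, ∑ v',
      ‖ζ v v' - ζ ((DV (j + 1)).x s b v) ((DV (k + 1)).x s b v')‖ ^ 2 := by
    intro s b
    rw [ampl_defect_sq', Fintype.sum_prod_type]
    simp only [D, Dat.prod_x]
    rfl
  have hnn : ∀ s : JJ × FF, 0 ≤ ∑ v, ∑ v',
      ‖ζ v v' - ζ ((DV (j + 1)).x s.1 s.2 v) ((DV (k + 1)).x s.1 s.2 v')‖ ^ 2 := fun s => by
    positivity
  have hne : ξ ≠ 0 := by
    intro h0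
    rw [← hn, h0] at hcon
    have := Finset.sum_nonneg fun s (_ : s ∈ (Finset.univ : Finset (JJ × FF))) => hnn s
    simp only [norm_zero] at hcon
    linarith
  have hdef : ∀ s b, ‖ampl (1 : ℂ →L[ℂ] ℂ) (D.x s b) ξ - ξ‖ ≤ 1 / 200 * ‖ξ‖ := by
    intro s b
    refine le_of_sq_le (by positivity) ?_
    rw [hd, mul_pow, hn]
    exact (Finset.single_le_sum (fun s _ => hnn s) (Finset.mem_univ (s, b))).trans hcon.le
  have hN : ∀ n, j ≤ n → k ≤ n → ∀ i, D.N i ((D.Y ^ n) D.e0) = 0 := by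
    intro n hj hk i
    rw [Dat.prod_pow, DV_pow, DV_pow]
    exact Prod.ext (DV_N_pw (by omega) i) (DV_N_pw (by omega) i)
  rcases lt_or_gt_of_ne hjk with h | h
  · refine D.not_AI k (hN k h.le le_rfl) (θ := conj θ) (fun h' => hθ ?_) ⟨ξ, fun p => ?_, hne, hdef⟩
    · simpa using congrArg conj h'
    · beta_reduce
      rw [Dat.prod_pow, DV_pow, DV_pow, pw_eq_zero (by omega)]
      simp [ξ, h2]
  · refine D.not_AI j (hN j le_rfl h.le) hθ ⟨ξ, fun p => ?_, hne, hdef⟩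
    beta_reduce
    rw [Dat.prod_pow, DV_pow, DV_pow, pw_eq_zero (k := k + 1) (by omega)]
    simp [ξ, h1]

variable {H : Type} [NormedAddCommGroup H] [InnerProductSpace ℂ H]

/-- almost invariance in the form of a lower bound for a correlation, for vectors in `L` -/
def AIL (L : Submodule ℂ H) (T : JJ → FF → H →L[ℂ] H) (θ : ℂ) (ε : ℝ) (k : ℕ) : Prop :=
  ∃ ξ : VV (k + 1) → L, (∀ v, ξ (v + pw (k + 1) k) = θ • ξ v) ∧ 0 < ∑ v, ‖ξ v‖ ^ 2 ∧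
    ∀ j b, (1 - ε) * ∑ v, ‖ξ v‖ ^ 2 ≤
      ∑ v, (⟪(ξ ((DV (k + 1)).x j b v) : H), T j b (ξ v)⟫_ℂ).re

theorem AIL.normalize {L : Submodule ℂ H} {T : JJ → FF → H →L[ℂ] H} {θ : ℂ} {ε : ℝ} {k : ℕ}
    (h : AIL L T θ ε k) :
    ∃ ξ : VV (k + 1) → L, (∀ v, ξ (v + pw (k + 1) k) = θ • ξ v) ∧ ∑ v, ‖ξ v‖ ^ 2 = 1 ∧
    ∀ j b, 1 - ε ≤ ∑ v, (⟪(ξ ((DV (k + 1)).x j b v) : H), T j b (ξ v)⟫_ℂ).re := by
  obtain ⟨ξ, h1, h2, h3⟩ := h
  set n := ∑ v, ‖ξ v‖ ^ 2 with hn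
  set c : ℝ := (Real.sqrt n)⁻¹ with hc
  have hcc : c ^ 2 * n = 1 := by
    rw [hc, inv_pow, Real.sq_sqrt h2.le, inv_mul_cancel₀ h2.ne']
  refine ⟨fun v => (c : ℂ) • ξ v, fun v => by simp only [h1, smul_comm θ], ?_, fun j b => ?_⟩
  · simp only [norm_smul, mul_pow, Complex.norm_real, Real.norm_eq_abs, sq_abs, ← Finset.mul_sum]
    exact hcc
  · simp only [SetLike.val_smul, map_smul, inner_smul_left, inner_smul_right, Complex.conj_ofReal,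
      Complex.re_ofReal_mul, ← Finset.mul_sum]
    have := h3 j b
    have hc2 : 0 ≤ c ^ 2 := by positivity
    calc 1 - ε = c ^ 2 * ((1 - ε) * n) := by rw [mul_left_comm, hcc, mul_one]
      _ ≤ c ^ 2 * ∑ v, (⟪(ξ ((DV (k + 1)).x j b v) : H), T j b (ξ v)⟫_ℂ).re := by gcongr
      _ = _ := by ring

theorem fd_contra [CompleteSpace H] (L : Submodule ℂ H) [FiniteDimensional ℂ L]
    (T : JJ → FF → H →L[ℂ] H) (hT : ∀ j b, ‖T j b‖ ≤ 1) {θ : ℂ} (hθ : θ ≠ 1)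
    (h : ∀ k, AIL L T θ (1 / 20000000) k) : False := by
  classical
  choose ξ h1 h2 h3 using fun k => (h k).normalize
  set ε : ℝ := 1 / 20000000 with hε
  set N := Module.finrank ℂ L with hN
  set m := 2 * N + 1 with hm
  let Ξ : (Σ k : Fin m, VV (k + 1)) → L := fun y => ξ y.1 y.2
  obtain ⟨ζ, e1, e2, e3, ⟨g, g1, g2⟩, e4⟩ := exists_kernel L Ξ
  have hΞ : ∑ y, ‖Ξ y‖ ^ 2 = m := by
    rw [Fintype.sum_sigma]
    simp only [Ξ, h2]
    simp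
  rw [hΞ] at e3 e4
  let mass : Fin m → Fin m → ℝ := fun j k => ∑ v, ∑ v', ‖ζ ⟨j, v⟩ ⟨k, v'⟩‖ ^ 2
  let df : JJ × FF → Fin m → Fin m → ℝ := fun s j k => ∑ v, ∑ v',
      ‖ζ ⟨j, v⟩ ⟨k, v'⟩ - ζ ⟨j, (DV (j + 1)).x s.1 s.2 v⟩ ⟨k, (DV (k + 1)).x s.1 s.2 v'⟩‖ ^ 2
  have hsig : ∀ F : (Σ k : Fin m, VV (k + 1)) → (Σ k : Fin m, VV (k + 1)) → ℝ,
      ∑ y, ∑ y', F y y' = ∑ j, ∑ k, ∑ v, ∑ v', F ⟨j, v⟩ ⟨k, v'⟩ := by
    intro F
    rw [Fintype.sum_sigma]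
    refine Finset.sum_congr rfl fun j _ => ?_
    simp only [Fintype.sum_sigma]
    exact Finset.sum_comm
  have t1 : ∑ j, ∑ k, mass j k = m := by rw [← e3, hsig]
  have t2 : ∑ k, mass k k ≤ N := by
    refine le_trans ?_ g1
    rw [Fintype.sum_sigma]
    refine Finset.sum_le_sum fun k _ => ?_
    calc mass k k ≤ ∑ v, ∑ v', ‖Ξ ⟨k, v⟩‖ ^ 2 * g ⟨k, v'⟩ :=
          Finset.sum_le_sum fun v _ => Finset.sum_le_sum fun v' _ => g2 _ _
      _ = (∑ v, ‖Ξ ⟨k, v⟩‖ ^ 2) * ∑ v', g ⟨k, v'⟩ := by rw [Finset.sum_mul_sum]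
      _ = _ := by simp only [Ξ, h2, one_mul]
  have t3 : ∀ s : JJ × FF, ∑ j, ∑ k, df s j k ≤ 4 * ε * m := by
    intro s
    have := e4 (T s.1 s.2) (Equiv.Perm.sigmaCongrRight fun k : Fin m => (DV (k + 1)).x s.1 s.2) ε
      (hT _ _) (by
        rw [Fintype.sum_sigma]
        calc (1 - ε) * (m : ℝ) = ∑ _k : Fin m, (1 - ε) := by
              rw [Finset.sum_const, Finset.card_univ, Fintype.card_fin, nsmul_eq_mul, mul_comm]
          _ ≤ _ := Finset.sum_le_sum fun k _ => h3 k s.1 s.2)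
    rw [hsig] at this
    exact this
  have t4 : ∀ j k, (1 / 200) ^ 2 * mass j k ≤
      ∑ s, df s j k + if j = k then (1 / 200) ^ 2 * mass j k else 0 := by
    intro j k
    split_ifs with hjk
    · have : 0 ≤ ∑ s, df s j k := Finset.sum_nonneg fun s _ => by positivity
      linarith
    · rw [add_zero]
      exact pair_gap (fun h => hjk (Fin.ext h)) hθ (fun v v' => ζ ⟨j, v⟩ ⟨k, v'⟩)
        (fun v v' => e1 _ _ _ _ (h1 j v)) (fun v v' => e2 _ _ _ _ (h1 k v'))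
  have t5 : ∑ j, ∑ k, (1 / 200) ^ 2 * mass j k ≤
      ∑ j, ∑ k, (∑ s, df s j k + if j = k then (1 / 200) ^ 2 * mass j k else 0) :=
    Finset.sum_le_sum fun j _ => Finset.sum_le_sum fun k _ => t4 j k
  have t6 : ∑ j, ∑ k, ∑ s, df s j k ≤ 44 * (4 * ε * m) := by
    calc ∑ j, ∑ k, ∑ s, df s j k = ∑ s, ∑ j, ∑ k, df s j k := by
          rw [Finset.sum_comm (γ := JJ × FF)]
          exact Finset.sum_congr rfl fun j _ => Finset.sum_comm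
      _ ≤ ∑ _s : JJ × FF, 4 * ε * m := Finset.sum_le_sum fun s _ => t3 s
      _ = _ := by
          rw [Finset.sum_const, Finset.card_univ, Fintype.card_prod, card_JJ, ZMod.card,
            nsmul_eq_mul]
          norm_num
  simp only [Finset.sum_add_distrib, Finset.sum_ite_eq, Finset.mem_univ, if_true,
    ← Finset.mul_sum] at t5
  rw [t1] at t5
  have hmN : (m : ℝ) = 2 * N + 1 := by rw [hm]; push_cast; ring
  have hN0 : (0 : ℝ) ≤ N := Nat.cast_nonneg _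
  rw [hε] at t6
  nlinarith

end Crest.Agent.R73
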