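import Crest.Agent.R73.FD
import Crest.Agent.R73.Cuntz

/-!
Reduction of almost invariant vectors for contractions in the Cuntz algebra to a finite dimensional
subspace, and the resulting contradiction.
-/

set_option autoImplicit false

namespace Crest.Agent.R73

open Finset Filter Topology
open scoped InnerProductSpace ComplexConjugate

/-- slices of the Stinespring dilation -/
noncomputable def cut (N r : ℕ) (x : L2 ℕ) : L2 ℕ :=
  ∑ β ∈ win N, ((star (sw cuS β)) x r : ℂ) • wv β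

theorem cut_smul (N r : ℕ) (c : ℂ) (x : L2 ℕ) : cut N r (c • x) = c • cut N r x := by
  simp only [cut, map_smul, lp.coeFn_smul, Pi.smul_apply, Finset.smul_sum, smul_eq_mul, mul_smul]

theorem cut_mem (N r : ℕ) (x : L2 ℕ) : cut N r x ∈ Submodule.span ℂ (wv '' (win N : Set _)) :=
  Submodule.sum_mem _ fun β hβ => Submodule.smul_mem _ _ (Submodule.subset_span ⟨β, hβ, rfl⟩)

theorem hasSum_cut {N : ℕ} (hN : 0 < N) (a : L2 ℕ →L[ℂ] L2 ℕ) (x y : L2 ℕ) :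
    HasSum (fun r => ⟪cut N r x, a (cut N r y)⟫_ℂ) ((N : ℂ) * ⟪x, Psi cuS N a y⟫_ℂ) := by
  have h1 : (N : ℂ) * ⟪x, Psi cuS N a y⟫_ℂ = ∑ α ∈ win N, ∑ β ∈ win N,
      ⟪wv α, a (wv β)⟫_ℂ * ⟪(star (sw cuS α)) x, (star (sw cuS β)) y⟫_ℂ := by
    have hN' : (N : ℂ) ≠ 0 := by exact_mod_cast hN.ne'
    simp only [Psi, _root_.smul_apply, _root_.sum_apply, inner_smul_right, inner_sum,
      mul_apply_eq_comp]
    rw [← mul_assoc, mul_inv_cancel₀ hN', one_mul]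
    refine Finset.sum_congr rfl fun α _ => Finset.sum_congr rfl fun β _ => ?_
    rw [ContinuousLinearMap.star_eq_adjoint (sw cuS α), ContinuousLinearMap.adjoint_inner_left]
  rw [h1]
  have h2 : ∀ r, ⟪cut N r x, a (cut N r y)⟫_ℂ = ∑ α ∈ win N, ∑ β ∈ win N,
      ⟪wv α, a (wv β)⟫_ℂ * ⟪(star (sw cuS α)) x r, (star (sw cuS β)) y r⟫_ℂ := by
    intro r
    simp only [cut, map_sum, map_smul, sum_inner]
    refine Finset.sum_congr rfl fun α _ => ?_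
    rw [inner_sum]
    refine Finset.sum_congr rfl fun β _ => ?_
    simp only [inner_smul_left, inner_smul_right, RCLike.inner_apply]
    ring
  simp only [h2]
  refine hasSum_sum fun α _ => hasSum_sum fun β _ => HasSum.mul_left _ ?_
  exact lp.hasSum_inner (𝕜 := ℂ) ((star (sw cuS α)) x) ((star (sw cuS β)) y)

theorem reduce (T : JJ → FF → L2 ℕ →L[ℂ] L2 ℕ) (hT : ∀ j b, ‖T j b‖ ≤ 1)
    (hO : ∀ j b, T j b ∈ genAlg cuS) {ε : ℝ} (hε : 0 < ε) :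
    ∃ L : Submodule ℂ (L2 ℕ), FiniteDimensional ℂ L ∧ ∀ (θ : ℂ) (k : ℕ),
      AI T (DV (k + 1)).x (fun v => v + pw (k + 1) k) θ ε → AIL L T θ (132 * ε) k := by
  have hev : ∀ᶠ N in atTop, ∀ j b, ‖Psi cuS N (T j b) - T j b‖ ≤ ε := by
    simp only [eventually_all]
    intro j b
    exact (tendsto_iff_norm_sub_tendsto_zero.1 (OO_tendsto (hO j b))).eventually (ge_mem_nhds hε)
  obtain ⟨N, hN, hN0⟩ := (hev.and (eventually_gt_atTop 0)).exists
  refine ⟨Submodule.span ℂ (wv '' (win N : Set _)),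
    FiniteDimensional.span_of_finite ℂ ((win N).finite_toSet.image _), fun θ k h => ?_⟩
  obtain ⟨ξ, h1, h2, h3⟩ := h
  have hξ : 0 < ‖ξ‖ ^ 2 := by have := norm_pos_iff.2 h2; positivity
  set σ := (DV (k + 1)).x with hσ
  obtain ⟨ξr, hξr⟩ : ∃ ξr : ℕ → VF (VV (k + 1)) (L2 ℕ), ∀ r v, ξr r v = cut N r (ξ v) :=
    ⟨fun r => WithLp.toLp 2 fun v => cut N r (ξ v), fun r v => PiLp.toLp_apply _ _ _ _⟩
  have hq : ∀ (a : L2 ℕ →L[ℂ] L2 ℕ) (τ : Equiv.Perm (VV (k + 1))),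
      HasSum (fun r => (⟪ξr r, ampl a τ (ξr r)⟫_ℂ).re)
        (N * (⟪ξ, ampl (Psi cuS N a) τ ξ⟫_ℂ).re) := by
    intro a τ
    have : HasSum (fun r => ⟪ξr r, ampl a τ (ξr r)⟫_ℂ)
        ((N : ℂ) * ⟪ξ, ampl (Psi cuS N a) τ ξ⟫_ℂ) := by
      simp only [ampl_inner, Finset.mul_sum, hξr]
      exact hasSum_sum fun v _ => hasSum_cut hN0 a _ _
    simpa using Complex.hasSum_re this
  have hn : HasSum (fun r => ‖ξr r‖ ^ 2) (N * ‖ξ‖ ^ 2) := by
    have := hq 1 1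
    simpa only [isCu_cuS.Psi_one hN0, ampl_one, one_apply_eq_self, re_inner_self'] using this
  have hlow : ∀ j b, (1 - 2 * ε) * ‖ξ‖ ^ 2 ≤ (⟪ξ, ampl (Psi cuS N (T j b)) (σ j b) ξ⟫_ℂ).re := by
    intro j b
    have k1 : ‖ampl (Psi cuS N (T j b)) (σ j b) ξ - ξ‖ ≤ (2 * ε) * ‖ξ‖ := by
      have k2 : ‖ampl (Psi cuS N (T j b)) (σ j b) ξ - ampl (T j b) (σ j b) ξ‖ ≤ ε * ‖ξ‖ := by
        rw [← _root_.sub_apply, ampl_sub]
        exact (ContinuousLinearMap.le_opNorm _ _).trans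
          (mul_le_mul_of_nonneg_right ((norm_ampl_le _ _).trans (hN j b)) (norm_nonneg _))
      have := norm_sub_le_norm_sub_add_norm_sub (ampl (Psi cuS N (T j b)) (σ j b) ξ)
        (ampl (T j b) (σ j b) ξ) ξ
      have := h3 j b
      linarith
    have := re_inner_ge_of_defect _ _ k1
    linarith
  have hcard : ∀ c : ℝ, ∑ _s : JJ × FF, c = 44 * c := by
    intro c
    rw [Finset.sum_const, Finset.card_univ, Fintype.card_prod, card_JJ, ZMod.card, nsmul_eq_mul]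
    norm_num
  have hex : ∃ r, 44 * (1 - 3 * ε) * ‖ξr r‖ ^ 2 <
      ∑ s : JJ × FF, (⟪ξr r, ampl (T s.1 s.2) (σ s.1 s.2) (ξr r)⟫_ℂ).re := by
    by_contra hcon
    push Not at hcon
    have k1 := hasSum_le hcon (hasSum_sum fun (s : JJ × FF) _ => hq (T s.1 s.2) (σ s.1 s.2))
      (hn.mul_left (44 * (1 - 3 * ε)))
    have k2 : ∑ _s : JJ × FF, (N : ℝ) * ((1 - 2 * ε) * ‖ξ‖ ^ 2) ≤
        ∑ s : JJ × FF, N * (⟪ξ, ampl (Psi cuS N (T s.1 s.2)) (σ s.1 s.2) ξ⟫_ℂ).re :=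
      Finset.sum_le_sum fun s _ => mul_le_mul_of_nonneg_left (hlow _ _) (Nat.cast_nonneg _)
    rw [hcard] at k2
    have k3 : (0 : ℝ) < N := Nat.cast_pos.2 hN0
    have k4 : 0 < ε * (N * ‖ξ‖ ^ 2) := by positivity
    nlinarith
  obtain ⟨r, hr⟩ := hex
  have hup : ∀ s : JJ × FF, (⟪ξr r, ampl (T s.1 s.2) (σ s.1 s.2) (ξr r)⟫_ℂ).re ≤ ‖ξr r‖ ^ 2 :=
    fun s => re_inner_le_of_norm_le_one (ampl (T s.1 s.2) (σ s.1 s.2))
      ((norm_ampl_le (T s.1 s.2) (σ s.1 s.2)).trans (hT s.1 s.2)) (ξr r)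
  obtain ⟨ξL, hc⟩ : ∃ ξL : VV (k + 1) → Submodule.span ℂ (wv '' (win N : Set _)),
      ∀ v, (ξL v : L2 ℕ) = ξr r v :=
    ⟨fun v => ⟨ξr r v, by rw [hξr]; exact cut_mem N r _⟩, fun v => Subtype.coe_mk _ _⟩
  have hθ : ∀ v, ξr r (v + pw (k + 1) k) = θ • ξr r v := fun v => by
    rw [hξr, hξr, h1, cut_smul]
  have hnorm : ∑ v, ‖ξL v‖ ^ 2 = ‖ξr r‖ ^ 2 := by
    rw [VF.norm_sq]
    refine Finset.sum_congr rfl fun v _ => ?_
    rw [← hc, Submodule.coe_norm]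
  refine ⟨ξL, fun v => ?_, ?_, fun j b => ?_⟩
  · apply Subtype.ext
    rw [SetLike.val_smul, hc, hc, hθ]
  · rw [hnorm]
    refine lt_of_le_of_ne (by positivity) fun h0 => ?_
    have := Finset.sum_le_sum fun s (_ : s ∈ (Finset.univ : Finset (JJ × FF))) => hup s
    rw [hcard, ← h0] at this
    rw [← h0] at hr
    linarith
  · rw [hnorm, ← Complex.re_sum]
    simp only [hc]
    rw [← ampl_inner]
    have k1 := Finset.single_le_sum (f := fun s : JJ × FF =>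
      ‖ξr r‖ ^ 2 - (⟪ξr r, ampl (T s.1 s.2) (σ s.1 s.2) (ξr r)⟫_ℂ).re)
      (fun s _ => sub_nonneg.2 (hup s)) (Finset.mem_univ (j, b))
    rw [Finset.sum_sub_distrib, hcard] at k1
    linarith

theorem cuntz_contra (T : JJ → FF → L2 ℕ →L[ℂ] L2 ℕ) (hT : ∀ j b, ‖T j b‖ ≤ 1)
    (hO : ∀ j b, T j b ∈ genAlg cuS) {θ : ℂ} (hθ : θ ≠ 1)
    (h : ∀ k, AI T (DV (k + 1)).x (fun v => v + pw (k + 1) k) θ (1 / 2640000000)) : False := by
  obtain ⟨L, hL, hred⟩ := reduce T hT hO (ε := 1 / 2640000000) (by norm_num)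
  refine fd_contra L T hT hθ fun k => ?_
  convert hred θ k (h k) using 1
  norm_num

end Crest.Agent.R73
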