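import Crest.Agent.R73.Step
import Crest.Agent.R73.Base
import Crest.Agent.R73.Reduce

/-!
Assembly: no asymptotic embedding of the full group C⋆-algebra of `GG` into the Cuntz algebra.
-/

set_option autoImplicit false

namespace Crest.Agent.R73

open Finset Filter Topology Crest.AnalysisR.CStarEmbedding
open scoped ComplexConjugate

theorem normalize_rep {G A O : Type} [Group G] [CStarAlgebra A] [CStarAlgebra O]
    (u : G →* unitary A) (ω : Ultrafilter ℕ) (φ : ℕ → A → O) (h : IsUltrapowerEmbedding ω A O φ) :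
    ∃ a : ℕ → G → O, (∀ n g, ‖a n g‖ ≤ 1) ∧ (∀ n g, star (a n g) = a n g⁻¹) ∧
      ∀ g, Tendsto (fun n => ‖a n g - φ n (u g)‖) (ω : Filter ℕ) (𝓝 0) := by
  obtain ⟨-, -, -, -, hstar, -, hnorm⟩ := h
  let a' : ℕ → G → O := fun n g => (1 / 2 : ℂ) • (φ n (u g) + star (φ n (u g⁻¹)))
  have hs' : ∀ n g, star (a' n g) = a' n g⁻¹ := by
    intro n g
    simp only [a', star_smul, star_add, star_star, inv_inv, add_comm]
    congr 1
    simp
  have h1 : ∀ g, Tendsto (fun n => ‖a' n g - φ n (u g)‖) (ω : Filter ℕ) (𝓝 0) := by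
    intro g
    have k := (hstar (u g⁻¹ : A)).const_mul (1 / 2 : ℝ)
    rw [mul_zero] at k
    refine k.congr fun n => ?_
    have e : star ((u g⁻¹ : unitary A) : A) = u g := by
      rw [map_inv, ← Unitary.star_eq_inv, Unitary.coe_star, star_star]
    have e2 : a' n g - φ n (u g) = (1 / 2 : ℂ) • -(φ n (u g) - star (φ n (u g⁻¹))) := by
      simp only [a']; module
    rw [e, e2, norm_smul, norm_neg]
    simp
  have h2 : ∀ g, Tendsto (fun n => ‖a' n g‖) (ω : Filter ℕ) (𝓝 ‖(u g : A)‖) := by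
    intro g
    have k : Tendsto (fun n => ‖a' n g‖ - ‖φ n (u g)‖) (ω : Filter ℕ) (𝓝 0) :=
      squeeze_zero_norm (fun n => abs_norm_sub_norm_le _ _) (h1 g)
    simpa using k.add (hnorm (u g))
  have hu : ∀ g, ‖(u g : A)‖ ≤ 1 := by
    intro g
    have k1 : ‖(u g : A)‖ * ‖(u g : A)‖ = ‖(1 : A)‖ := by
      rw [← CStarRing.norm_star_mul_self, (u g).2.1]
    have := cstar_norm_one_le (A := A)
    have := norm_nonneg (u g : A)
    nlinarith
  refine ⟨fun n g => (((max 1 ‖a' n g‖)⁻¹ : ℝ) : ℂ) • a' n g, fun n g => ?_, fun n g => ?_,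
    fun g => ?_⟩
  · have : 0 < max 1 ‖a' n g‖ := lt_max_of_lt_left one_pos
    rw [norm_smul, Complex.norm_real, Real.norm_eq_abs, abs_of_pos (inv_pos.2 this),
      inv_mul_le_iff₀ this, mul_one]
    exact le_max_right _ _
  · beta_reduce
    rw [star_smul, ← hs', norm_star]
    simp
  · have k1 : Tendsto (fun n => (max 1 ‖a' n g‖)⁻¹) (ω : Filter ℕ) (𝓝 1) := by
      have := ((tendsto_const_nhds (x := (1 : ℝ))).max (h2 g)).inv₀
        (ne_of_gt (lt_max_of_lt_left one_pos))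
      rwa [max_eq_left (hu g), inv_one] at this
    have k2 := (((k1.sub_const 1).abs).mul (h2 g)).add (h1 g)
    simp only [sub_self, abs_zero, zero_mul, add_zero] at k2
    refine squeeze_zero (fun _ => norm_nonneg _) (fun n => ?_) k2
    refine (norm_sub_le_norm_sub_add_norm_sub _ (a' n g) _).trans (add_le_add_left (le_of_eq ?_) _)
    have : (((max 1 ‖a' n g‖)⁻¹ : ℝ) : ℂ) • a' n g - a' n g =
        (((max 1 ‖a' n g‖)⁻¹ - 1 : ℝ) : ℂ) • a' n g := by
      push_cast; module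
    rw [this, norm_smul, Complex.norm_real, Real.norm_eq_abs]

theorem asymp_rep {G A O : Type} [Group G] [CStarAlgebra A] [CStarAlgebra O]
    (u : G →* unitary A) (ω : Ultrafilter ℕ) (φ : ℕ → A → O) (h : IsUltrapowerEmbedding ω A O φ) :
    ∃ a : ℕ → G → O, (∀ n g, ‖a n g‖ ≤ 1) ∧ (∀ n g, star (a n g) = a n g⁻¹) ∧
      (∀ g g', Tendsto (fun n => ‖a n (g * g') - a n g * a n g'‖) (ω : Filter ℕ) (𝓝 0)) ∧
      Tendsto (fun n => ‖a n 1 - 1‖) (ω : Filter ℕ) (𝓝 0) ∧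
      ∀ {ι : Type} [Fintype ι] (c : ι → ℂ) (g : ι → G),
        Tendsto (fun n => ‖∑ s, c s • a n (g s)‖) (ω : Filter ℕ) (𝓝 ‖∑ s, c s • (u (g s) : A)‖) := by
  obtain ⟨a, h1, h2, h3⟩ := normalize_rep u ω φ h
  obtain ⟨hb, hadd, hsmul, hmul, -, hone, hnorm⟩ := h
  let Φ : A → Bdd (fun _ : ℕ => O) := fun x => ⟨fun n => φ n x, hb x⟩
  let aB : G → Bdd (fun _ : ℕ => O) := fun g => ⟨fun n => a n g, 1, fun n => h1 n g⟩
  let Ψ : A →ₗ[ℂ] QA (fun _ : ℕ => O) (ω : Filter ℕ) :=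
    { toFun := fun x => QA.mk _ _ (Φ x)
      map_add' := fun x y => by rw [← map_add, QA.mk_eq]; exact hadd x y
      map_smul' := fun c x => by rw [RingHom.id_apply, ← map_smul, QA.mk_eq]; exact hsmul c x }
  have hΨ : ∀ x, Ψ x = QA.mk _ _ (Φ x) := fun x => rfl
  have hΨm : ∀ x y, Ψ (x * y) = Ψ x * Ψ y := fun x y => by
    rw [hΨ, hΨ, hΨ, ← map_mul, QA.mk_eq]; exact hmul x y
  have hΨ1 : Ψ 1 = 1 := by
    rw [hΨ, ← map_one (QA.mk _ _), QA.mk_eq]; exact hone
  have haB : ∀ g, QA.mk _ (ω : Filter ℕ) (aB g) = Ψ (u g) := fun g => by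
    rw [hΨ, QA.mk_eq]; exact h3 g
  refine ⟨a, h1, h2, fun g g' => ?_, ?_, fun {ι} _ c g => ?_⟩
  · have : QA.mk _ (ω : Filter ℕ) (aB (g * g')) = QA.mk _ (ω : Filter ℕ) (aB g * aB g') := by
      rw [map_mul, haB, haB, haB, ← hΨm, map_mul]; rfl
    exact (QA.mk_eq _ _).1 this
  · have : QA.mk _ (ω : Filter ℕ) (aB 1) = QA.mk _ (ω : Filter ℕ) 1 := by
      rw [map_one, haB, map_one, ← hΨ1]; rfl
    exact (QA.mk_eq _ _).1 this
  · have : QA.mk _ (ω : Filter ℕ) (∑ s, c s • aB (g s)) =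
        QA.mk _ (ω : Filter ℕ) (Φ (∑ s, c s • (u (g s) : A))) := by
      rw [← hΨ]
      simp only [map_sum, map_smul, haB]
    have k := (QA.mk_eq _ _).1 this
    simp only [AddSubmonoidClass.coe_finsetSum, SetLike.val_smul, Finset.sum_apply, Pi.smul_apply,
      aB, Φ] at k
    have k2 : Tendsto (fun n => ‖∑ s, c s • a n (g s)‖ - ‖φ n (∑ s, c s • (u (g s) : A))‖)
        (ω : Filter ℕ) (𝓝 0) := squeeze_zero_norm (fun n => abs_norm_sub_norm_le _ _) k
    simpa using k2.add (hnorm (∑ s, c s • (u (g s) : A)))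

theorem no_embedding {A : Type} [CStarAlgebra A] (u : GG →* unitary A) (hu : IsFullGroupCStar A u)
    (ω : Ultrafilter ℕ) (φ : ℕ → A → OO) (h : IsUltrapowerEmbedding ω A OO φ) : False := by
  obtain ⟨a, h1, h2, h3, h4, h5⟩ := asymp_rep u ω φ h
  let T : ℕ → GG → (L2 ℕ →L[ℂ] L2 ℕ) := fun n g => (a n g).1
  have hc : ∀ n g, ‖T n g‖ ≤ 1 := h1
  have hs : ∀ n g, star (T n g) = T n g⁻¹ := fun n g => congrArg Subtype.val (h2 n g)
  have hm : ∀ g g', Tendsto (fun n => ‖T n (g * g') - T n g * T n g'‖) (ω : Filter ℕ) (𝓝 0) := h3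
  have ho : Tendsto (fun n => ‖T n 1 - 1‖) (ω : Filter ℕ) (𝓝 0) := h4
  set ε : ℝ := 1 / 2640000000 with hε
  have hε0 : 0 < ε := by norm_num [hε]
  have e1 : ∀ᶠ n in (ω : Filter ℕ),
      AI (fun j b => T n (gx j b)) (DV (0 + 1)).x (fun v => v + pw (0 + 1) 0) (psi 1) ε := by
    have k1 := (h5 (fun s : JJ × FF => conj (chi s)) (fun s => gx s.1 s.2)).eventually
      (lt_mem_nhds (lt_of_lt_of_le (show 44 - ε ^ 2 / 128 < 44 by
        have : 0 < ε ^ 2 / 128 := by positivity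
        linarith) (witness_norm u hu)))
    filter_upwards [k1, ho.eventually (ge_mem_nhds (half_pos hε0))] with n k2 k3
    refine base_AI _ (fun j b => hc _ _) hε0 (by norm_num [hε]) ?_ ?_
    · rwa [onepar_zero (gx_ksys.1 none)]
    · refine k2.trans_eq ?_
      change ‖((∑ s : JJ × FF, conj (chi s) • a n (gx s.1 s.2) : OO) : L2 ℕ →L[ℂ] L2 ℕ)‖ = _
      simp only [AddSubmonoidClass.coe_finsetSum, SetLike.val_smul, T]
  have e2 := step_ev (ω : Filter ℕ) T hc hm ho (psi 1) (ε := 1 / 200) (by norm_num)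
  have e3 : ∀ᶠ n in (ω : Filter ℕ), ∀ k : ℕ,
      AI (fun j b => T n (gx j b)) (DV (k + 1)).x (fun v => v + pw (k + 1) k) (psi 1) (1 / 200) →
      AI (fun j b => T n (gx j b)) (DV (k + 1)).x (fun v => v + pw (k + 1) k) (psi 1) ε := by
    have := robust_gap_AI (Filter.comap (Prod.fst : ℕ × ℕ → ℕ) (ω : Filter ℕ))
      (fun i g => T i.1 g) (fun i g => hc _ _) (fun i g => hs _ _)
      (fun g g' => (hm g g').comp tendsto_comap) (ho.comp tendsto_comap) card_JJ gx_ksys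
      (fun i => VV (i.2 + 1)) (σ := fun i => (DV (i.2 + 1)).x) (fun i => (DV (i.2 + 1)).ksys) hε0
    rw [eventually_comap] at this
    filter_upwards [this] with n hn k
    exact hn (n, k) rfl _ _ fun j b y => (DV (k + 1)).x_comm_tr (fun i => DV_N_pw le_rfl i) j b y
  obtain ⟨n, k1, k2, k3⟩ := (e1.and (e2.and e3)).exists
  refine cuntz_contra (fun j b => T n (gx j b)) (fun j b => hc _ _) (fun j b => (a n _).2)
    psi_one_ne fun k => ?_
  induction k with
  | zero => exact k1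
  | succ k ih => exact k3 _ (k2 k (ih.mono (by norm_num [hε])))

end Crest.Agent.R73
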