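import Mathlib

/-!
Sum-of-squares form of a spectral gap for systems of one-parameter subgroups over `ZMod 11`
with pairwise Heisenberg relations.
-/

set_option autoImplicit false

namespace Crest.Agent.R73

open Finset

abbrev FF : Type := ZMod 11

instance factPrime11 : Fact (Nat.Prime 11) := ⟨by norm_num⟩

/-- Heisenberg pair of one-parameter families. -/
def HP {P : Type*} [Group P] (x y : FF → P) : Prop :=
  ∃ z : FF → P, (∀ a b, z (a + b) = z a * z b) ∧ (∀ a b, x a * y b = y b * x a * z (a * b)) ∧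
    (∀ a b, z a * x b = x b * z a) ∧ (∀ a b, z a * y b = y b * z a)

/-- A system of one-parameter families with pairwise Heisenberg relations. -/
def KSys {P : Type*} [Group P] {J : Type} (x : J → FF → P) : Prop :=
  (∀ j a b, x j (a + b) = x j a * x j b) ∧ ∀ i j, i ≠ j → HP (x i) (x j)

theorem onepar_zero {P : Type*} [Group P] {z : FF → P} (h : ∀ a b, z (a + b) = z a * z b) :
    z 0 = 1 := by
  have := h 0 0
  simpa using this.symm

theorem onepar_neg {P : Type*} [Group P] {z : FF → P} (h : ∀ a b, z (a + b) = z a * z b) (a : FF) :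
    z (-a) = (z a)⁻¹ := by
  rw [eq_inv_iff_mul_eq_one, ← h, neg_add_cancel, onepar_zero h]

theorem HP.symm {P : Type*} [Group P] {x y : FF → P} (h : HP x y) : HP y x := by
  obtain ⟨z, h1, h2, h3, h4⟩ := h
  refine ⟨fun c => z (-c), fun a b => by simp only [neg_add, h1], fun a b => ?_, fun a b => h4 _ _,
    fun a b => h3 _ _⟩
  rw [h2 b a, mul_assoc, ← h1, mul_comm b a, add_neg_cancel, onepar_zero h1, mul_one]

section cone

variable {R : Type*} [Ring R] [StarRing R] [Algebra ℂ R] [StarModule ℂ R]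

/-- The cone of sums of hermitian squares. -/
def cone (R : Type*) [Ring R] [StarRing R] : AddSubmonoid R :=
  AddSubmonoid.closure (Set.range fun y : R => star y * y)

omit [Algebra ℂ R] [StarModule ℂ R] in
theorem sq_mem_cone (y : R) : star y * y ∈ cone R :=
  AddSubmonoid.subset_closure ⟨y, rfl⟩

theorem smul_mem_cone {c : ℝ} (hc : 0 ≤ c) {y : R} (hy : y ∈ cone R) : (c : ℂ) • y ∈ cone R := by
  induction hy using AddSubmonoid.closure_induction with
  | mem x hx =>
    obtain ⟨y, rfl⟩ := hx
    have : (c : ℂ) • (star y * y) =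
        star ((Real.sqrt c : ℂ) • y) * ((Real.sqrt c : ℂ) • y) := by
      rw [star_smul, smul_mul_smul_comm]
      congr 1
      simp only [RCLike.star_def, Complex.conj_ofReal]
      rw [← Complex.ofReal_mul, Real.mul_self_sqrt hc]
    simp only
    rw [this]
    exact sq_mem_cone _
  | zero => simp
  | add x y _ _ hx hy => rw [smul_add]; exact add_mem hx hy

omit [Algebra ℂ R] [StarModule ℂ R] in
theorem sa_sq_mem_cone {y : R} (hy : star y = y) : y * y ∈ cone R := by
  have := sq_mem_cone y
  rwa [hy] at this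

/-- The two-projection inequality. -/
theorem pair_cone (e f z : R) (ε : ℝ) (hε : 0 < ε)
    (he : star e = e) (hf : star f = f) (hz : star z = z)
    (hee : e * e = e) (hff : f * f = f) (hzz : z * z = z)
    (hze : z * e = e * z) (hzf : z * f = f * z)
    (h1 : e * f * e * (1 - z) = ((ε * ε : ℝ) : ℂ) • (e * (1 - z)))
    (h2 : f * e * f * (1 - z) = ((ε * ε : ℝ) : ℂ) • (f * (1 - z)))
    (h3 : e * f * z = f * e * z) :
    (1 - e) * (1 - f) + (1 - f) * (1 - e) + (ε : ℂ) • ((1 - e) + (1 - f)) ∈ cone R := by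
  set w : R := 1 - z with hw
  have hwe : w * e = e * w := by rw [hw, sub_mul, mul_sub, hze]; simp
  have hwf : w * f = f * w := by rw [hw, sub_mul, mul_sub, hzf]; simp
  have hww : w * w = w := by rw [hw, sub_mul, mul_sub, mul_sub, hzz]; simp
  have hws : star w = w := by rw [hw, star_sub, hz, star_one]
  -- the part in the corner of `z`
  have hA : ((1 - e) * (1 - f) + (1 - f) * (1 - e) + (ε : ℂ) • ((1 - e) + (1 - f))) * z ∈ cone R := by
    have c1 : (1 - f) * (1 - e) * z = (1 - e) * (1 - f) * z := by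
      have : (1 - f) * (1 - e) * z - (1 - e) * (1 - f) * z = f * e * z - e * f * z := by
        noncomm_ring
      rw [← sub_eq_zero, this, h3, sub_self]
    have hz1e : z * (1 - e) = (1 - e) * z := by rw [mul_sub, sub_mul, hze]; simp
    have hz1f : z * (1 - f) = (1 - f) * z := by rw [mul_sub, sub_mul, hzf]; simp
    have q1 : (1 - e) * (1 - e) = 1 - e := by rw [sub_mul, mul_sub, mul_sub, hee]; simp
    have q2 : (1 - f) * (1 - f) = 1 - f := by rw [sub_mul, mul_sub, mul_sub, hff]; simp
    have s1 : star ((1 - e) * z) * ((1 - e) * z) = (1 - e) * z := by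
      rw [star_mul, hz, star_sub, star_one, he, mul_assoc, ← mul_assoc (1 - e), q1, ← mul_assoc,
        hz1e, mul_assoc, hzz]
    have s2 : star ((1 - f) * z) * ((1 - f) * z) = (1 - f) * z := by
      rw [star_mul, hz, star_sub, star_one, hf, mul_assoc, ← mul_assoc (1 - f), q2, ← mul_assoc,
        hz1f, mul_assoc, hzz]
    have s3 : star ((1 - e) * (1 - f) * z) * ((1 - e) * (1 - f) * z) = (1 - e) * (1 - f) * z := by
      rw [star_mul, star_mul, hz, star_sub, star_sub, star_one, he, hf]
      calc z * ((1 - f) * (1 - e)) * ((1 - e) * (1 - f) * z)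
          = z * (1 - f) * (((1 - e) * (1 - e)) * (1 - f) * z) := by noncomm_ring
        _ = z * (1 - f) * ((1 - f) * (1 - e) * z) := by rw [q1, c1]
        _ = z * (((1 - f) * (1 - f)) * (1 - e)) * z := by noncomm_ring
        _ = (1 - f) * (z * (1 - e)) * z := by rw [q2, ← mul_assoc, hz1f]; noncomm_ring
        _ = (1 - f) * (1 - e) * (z * z) := by rw [hz1e]; noncomm_ring
        _ = (1 - e) * (1 - f) * z := by rw [hzz, c1]
    rw [add_mul, add_mul, c1, smul_mul_assoc, add_mul]
    refine add_mem (add_mem ?_ ?_) (smul_mem_cone hε.le (add_mem ?_ ?_))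
    · rw [← s3]; exact sq_mem_cone _
    · rw [← s3]; exact sq_mem_cone _
    · rw [← s1]; exact sq_mem_cone _
    · rw [← s2]; exact sq_mem_cone _
  -- the part in the corner of `w`
  have hB : ((1 - e) * (1 - f) + (1 - f) * (1 - e) + (ε : ℂ) • ((1 - e) + (1 - f))) * w ∈ cone R := by
    set x : R := (e + f) * w with hx
    have hxs : star x = x := by
      rw [hx, star_mul, hws, star_add, he, hf, mul_add, hwe, hwf, add_mul]
    have hxw : x * w = x := by rw [hx, mul_assoc, hww]
    have hwx : w * x = x := by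
      rw [hx, ← mul_assoc, mul_add, hwe, hwf, ← add_mul, mul_assoc, hww]
    have hx2 : x * x = x + (e * f + f * e) * w := by
      calc x * x = (e + f) * (w * x) := by rw [hx]; noncomm_ring
        _ = (e + f) * ((e + f) * w) := by rw [hwx]
        _ = (e * e + f * f + (e * f + f * e)) * w := by noncomm_ring
        _ = _ := by rw [hee, hff, hx]; noncomm_ring
    have hx3 : x * (x * x) = (2 : ℂ) • (x * x) - x + ((ε * ε : ℝ) : ℂ) • x := by
      have t1 : x * ((e * f + f * e) * w) = (e * f + f * e) * w + ((ε * ε : ℝ) : ℂ) • x := by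
        have hc : w * ((e * f + f * e) * w) = (e * f + f * e) * w := by
          calc w * ((e * f + f * e) * w) = ((w * e) * f + (w * f) * e) * w := by noncomm_ring
            _ = ((e * w) * f + (f * w) * e) * w := by rw [hwe, hwf]
            _ = (e * (w * f) + f * (w * e)) * w := by noncomm_ring
            _ = (e * (f * w) + f * (e * w)) * w := by rw [hwe, hwf]
            _ = (e * f + f * e) * (w * w) := by noncomm_ring
            _ = _ := by rw [hww]
        calc x * ((e * f + f * e) * w) = (e + f) * (w * ((e * f + f * e) * w)) := by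
              rw [hx]; noncomm_ring
          _ = ((e * e) * f + f * e * f + e * f * e + (f * f) * e) * w := by rw [hc]; noncomm_ring
          _ = (e * f + f * e) * w + (e * f * e * w + f * e * f * w) := by
              rw [hee, hff]; noncomm_ring
          _ = _ := by rw [h1, h2, hx, add_mul e f w, smul_add]
      have t2 : (e * f + f * e) * w = x * x - x := by rw [hx2]; abel
      calc x * (x * x) = x * x + x * ((e * f + f * e) * w) := by
            conv_lhs => rw [hx2]
            rw [mul_add]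
        _ = _ := by rw [t1, t2, two_smul]; abel
    set r : R := ((1 + ε : ℝ) : ℂ) • w - x with hr
    have hrs : star r = r := by
      rw [hr, star_sub, star_smul, hws, hxs]; simp
    have hxr : star (x * r) = x * r := by
      rw [star_mul, hrs, hxs, hr, sub_mul, mul_sub, smul_mul_assoc, mul_smul_comm, hxw, hwx]
    have hx4 : x * (x * (x * x)) = (2 : ℂ) • (x * (x * x)) - x * x + ((ε * ε : ℝ) : ℂ) • (x * x) := by
      conv_lhs => rw [hx3]
      rw [mul_add, mul_sub, mul_smul_comm, mul_smul_comm]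
    have key : ((1 - e) * (1 - f) + (1 - f) * (1 - e) + (ε : ℂ) • ((1 - e) + (1 - f))) * w =
        ((2 / (1 + ε) : ℝ) : ℂ) • (r * r) +
          ((1 / (2 * ε * (1 + ε)) : ℝ) : ℂ) • ((x * r) * (x * r)) := by
      have l1 : ((1 - e) * (1 - f) + (1 - f) * (1 - e) + (ε : ℂ) • ((1 - e) + (1 - f))) * w =
          ((2 + 2 * ε : ℝ) : ℂ) • w - ((3 + ε : ℝ) : ℂ) • x + x * x := by
        have a1 : ((1 - e) * (1 - f) + (1 - f) * (1 - e)) * w =
            w + w - (x + x) + (e * f + f * e) * w := by rw [hx]; noncomm_ring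
        have a2 : ((1 - e) + (1 - f)) * w = w + w - x := by rw [hx]; noncomm_ring
        rw [add_mul, smul_mul_assoc, a1, a2, hx2]
        push_cast
        module
      have l2 : r * r = (((1 + ε) * (1 + ε) : ℝ) : ℂ) • w - ((2 * (1 + ε) : ℝ) : ℂ) • x + x * x := by
        rw [hr]
        simp only [sub_mul, mul_sub, smul_mul_assoc, mul_smul_comm, hww, hxw, hwx]
        push_cast
        module
      have l3 : (x * r) * (x * r) = (((1 + ε) * (1 + ε) : ℝ) : ℂ) • (x * x) -
          ((2 * (1 + ε) : ℝ) : ℂ) • (x * (x * x)) + x * (x * (x * x)) := by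
        have : x * r = ((1 + ε : ℝ) : ℂ) • x - x * x := by
          rw [hr, mul_sub, mul_smul_comm, hxw]
        rw [this]
        simp only [sub_mul, mul_sub, smul_mul_assoc, mul_smul_comm, mul_assoc]
        push_cast
        module
      rw [l1, l2, l3, hx4, hx3]
      have n1 : (ε : ℂ) ≠ 0 := by exact_mod_cast hε.ne'
      have n2 : (1 + ε : ℂ) ≠ 0 := by
        have : (1 + ε : ℝ) ≠ 0 := by positivity
        exact_mod_cast this
      push_cast
      match_scalars <;> field_simp <;> ring
    rw [key]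
    exact add_mem (smul_mem_cone (by positivity) (sa_sq_mem_cone hrs))
      (smul_mem_cone (by positivity) (sa_sq_mem_cone hxr))
  have := add_mem hA hB
  rwa [← mul_add, hw, add_sub_cancel, mul_one] at this

variable {P : Type*} [Group P]

/-- Average of a one-parameter family. -/
noncomputable def avg (Φ : P → R) (x : FF → P) : R := ((1 / 11 : ℝ) : ℂ) • ∑ a : FF, Φ (x a)

omit [StarRing R] [StarModule ℂ R] in
theorem avg_const (y : R) : ((1 / 11 : ℝ) : ℂ) • ∑ _a : FF, y = y := by
  rw [Finset.sum_const, Finset.card_univ, ZMod.card, ← Nat.cast_smul_eq_nsmul ℂ, smul_smul]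
  norm_num

omit [StarRing R] [StarModule ℂ R] in
theorem avg_mul_left (Φ : P →* R) {x : FF → P} (hx : ∀ a b, x (a + b) = x a * x b) (b : FF) :
    Φ (x b) * avg Φ x = avg Φ x := by
  unfold avg
  rw [mul_smul_comm, Finset.mul_sum]
  congr 1
  simp only [← map_mul, ← hx]
  exact Fintype.sum_equiv (Equiv.addLeft b) _ _ (fun a => rfl)

omit [StarRing R] [StarModule ℂ R] in
theorem avg_mul_right (Φ : P →* R) {x : FF → P} (hx : ∀ a b, x (a + b) = x a * x b) (b : FF) :
    avg Φ x * Φ (x b) = avg Φ x := by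
  unfold avg
  rw [smul_mul_assoc, Finset.sum_mul]
  congr 1
  simp only [← map_mul, ← hx]
  exact Fintype.sum_equiv (Equiv.addRight b) _ _ (fun a => rfl)

omit [StarRing R] [StarModule ℂ R] in
theorem avg_idem (Φ : P →* R) {x : FF → P} (hx : ∀ a b, x (a + b) = x a * x b) :
    avg Φ x * avg Φ x = avg Φ x := by
  conv_lhs => congr; rw [avg]
  rw [smul_mul_assoc, Finset.sum_mul]
  simp only [avg_mul_left Φ hx]
  exact avg_const _

theorem avg_star (Φ : P → R) (hΦ : ∀ g, star (Φ g) = Φ g⁻¹) {x : FF → P}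
    (hx : ∀ a b, x (a + b) = x a * x b) : star (avg Φ x) = avg Φ x := by
  unfold avg
  rw [star_smul, star_sum]
  congr 1
  · simp
  · simp only [hΦ, ← onepar_neg hx]
    exact Fintype.sum_equiv (Equiv.neg FF) _ _ (fun a => rfl)

omit [StarRing R] [StarModule ℂ R] in
theorem avg_comm (Φ : P →* R) {x z : FF → P} (h : ∀ a b, z a * x b = x b * z a) :
    avg Φ z * avg Φ x = avg Φ x * avg Φ z := by
  unfold avg
  rw [smul_mul_smul_comm, smul_mul_smul_comm, Finset.sum_mul_sum, Finset.sum_mul_sum]
  congr 1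
  rw [Finset.sum_comm]
  simp only [← map_mul, h]

omit [StarRing R] [StarModule ℂ R] in
theorem avg_triple (Φ : P →* R) {x y z : FF → P} (hx : ∀ a b, x (a + b) = x a * x b)
    (hy : ∀ a b, y (a + b) = y a * y b) (hz : ∀ a b, z (a + b) = z a * z b)
    (h : ∀ a b, x a * y b = y b * x a * z (a * b)) (hzx : ∀ a b, z a * x b = x b * z a) :
    avg Φ x * avg Φ y * avg Φ x * (1 - avg Φ z) =
      ((1 / 11 : ℝ) : ℂ) • (avg Φ x * (1 - avg Φ z)) := by
  have hterm : ∀ b : FF, b ≠ 0 → avg Φ x * Φ (y b) * avg Φ x * (1 - avg Φ z) = 0 := by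
    intro b hb
    have e1 : avg Φ x * Φ (y b) * avg Φ x = Φ (y b) * avg Φ x * avg Φ z := by
      conv_lhs => congr; congr; rw [avg]
      rw [smul_mul_assoc, smul_mul_assoc, Finset.sum_mul, Finset.sum_mul]
      have : ∀ a : FF, Φ (x a) * Φ (y b) * avg Φ x = Φ (y b) * avg Φ x * Φ (z (a * b)) := by
        intro a
        have hc : Φ (z (a * b)) * avg Φ x = avg Φ x * Φ (z (a * b)) := by
          unfold avg
          simp only [smul_mul_assoc, mul_smul_comm, Finset.sum_mul, Finset.mul_sum, ← map_mul, hzx]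
        rw [← map_mul, h, mul_assoc (y b), ← hzx, map_mul, map_mul, mul_assoc, mul_assoc,
          avg_mul_left Φ hx, hc, mul_assoc]
      simp only [this]
      rw [← Finset.mul_sum, ← mul_smul_comm]
      congr 1
      unfold avg
      congr 1
      exact Fintype.sum_equiv (Equiv.mulRight₀ b hb) _ _ (fun a => rfl)
    rw [e1, mul_assoc, mul_sub, avg_idem Φ hz, mul_one, sub_self, mul_zero]
  conv_lhs => congr; congr; congr; rfl; rw [avg]
  rw [mul_smul_comm, smul_mul_assoc, smul_mul_assoc, Finset.mul_sum, Finset.sum_mul,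
    Finset.sum_mul, Finset.sum_eq_single (0 : FF) (fun b _ hb => hterm b hb) (by simp)]
  rw [onepar_zero hy, map_one, mul_one, avg_idem Φ hx]

/-- the angle constant -/
noncomputable def epsA : ℝ := Real.sqrt (1 / 11)

theorem epsA_pos : 0 < epsA := Real.sqrt_pos.2 (by norm_num)

theorem epsA_sq : epsA * epsA = 1 / 11 := Real.mul_self_sqrt (by norm_num)

theorem epsA_lt : epsA < 31 / 100 := by
  have := epsA_sq
  have := epsA_pos
  nlinarith

theorem HP.cone (Φ : P →* R) (hΦ : ∀ g, star (Φ g) = Φ g⁻¹) {x y : FF → P}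
    (hx : ∀ a b, x (a + b) = x a * x b) (hy : ∀ a b, y (a + b) = y a * y b) (h : HP x y) :
    (1 - avg Φ x) * (1 - avg Φ y) + (1 - avg Φ y) * (1 - avg Φ x) +
      (epsA : ℂ) • ((1 - avg Φ x) + (1 - avg Φ y)) ∈ cone R := by
  obtain ⟨z, h1, h2, h3, h4⟩ := h
  have hz' : ∀ a b, z (-(a + b)) = z (-a) * z (-b) := fun a b => by rw [neg_add, h1]
  have havg : avg Φ (fun c => z (-c)) = avg Φ z := by
    unfold avg
    congr 1
    exact Fintype.sum_equiv (Equiv.neg FF) _ _ (fun a => rfl)
  refine pair_cone _ _ (avg Φ z) epsA epsA_pos (avg_star Φ hΦ hx) (avg_star Φ hΦ hy)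
    (avg_star Φ hΦ h1) (avg_idem Φ hx) (avg_idem Φ hy) (avg_idem Φ h1) (avg_comm Φ h3)
    (avg_comm Φ h4) ?_ ?_ ?_
  · rw [epsA_sq]; exact avg_triple Φ hx hy h1 h2 h3
  · rw [epsA_sq, ← havg]
    refine avg_triple Φ hy hx hz' (fun a b => ?_) (fun a b => h4 _ _)
    rw [h2 b a, mul_assoc, ← h1, mul_comm b a, add_neg_cancel, onepar_zero h1, mul_one]
  · have : ∀ a b, Φ (x a) * Φ (y b) * avg Φ z = Φ (y b) * Φ (x a) * avg Φ z := by
      intro a b
      rw [← map_mul, h2, map_mul, mul_assoc, avg_mul_left Φ h1, map_mul]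
    conv_lhs => congr; rw [avg, avg]
    conv_rhs => congr; rw [avg, avg]
    rw [smul_mul_smul_comm, smul_mul_smul_comm, Finset.sum_mul_sum, Finset.sum_mul_sum,
      smul_mul_assoc, smul_mul_assoc]
    congr 1
    rw [Finset.sum_comm]
    simp only [Finset.sum_mul, this]

/-- The Laplacian of a system. -/
noncomputable def lap {J : Type} [Fintype J] (Φ : P → R) (x : J → FF → P) : R :=
  ∑ j, (1 - avg Φ (x j))

/-- the gap -/
noncomputable def lam : ℝ := 1 - 3 * epsA

theorem lam_gt : 7 / 100 < lam := by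
  have := epsA_lt
  unfold lam
  linarith

theorem lam_lt : lam < 1 := by
  have := epsA_pos
  unfold lam
  linarith

theorem KSys.gap {J : Type} [Fintype J] (hJ : Fintype.card J = 4) (Φ : P →* R)
    (hΦ : ∀ g, star (Φ g) = Φ g⁻¹) {x : J → FF → P} (h : KSys x) :
    lap Φ x * lap Φ x - (lam : ℂ) • lap Φ x ∈ cone R := by
  classical
  set Q : J → R := fun j => 1 - avg Φ (x j) with hQ
  have hQQ : ∀ j, Q j * Q j = Q j := fun j => by
    simp only [hQ]
    rw [sub_mul, mul_sub, mul_sub, avg_idem Φ (h.1 j)]; simp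
  have hX : ∀ i j, i ≠ j → Q i * Q j + Q j * Q i + (epsA : ℂ) • (Q i + Q j) ∈ cone R :=
    fun i j hij => HP.cone Φ hΦ (h.1 i) (h.1 j) (h.2 i j hij)
  have hsum : ∑ i, ∑ j ∈ univ.erase i, (Q i * Q j + Q j * Q i + (epsA : ℂ) • (Q i + Q j)) ∈ cone R :=
    sum_mem fun i _ => sum_mem fun j hj => hX i j (Finset.ne_of_mem_erase hj).symm
  have hL : lap Φ x = ∑ j, Q j := rfl
  have e : ∀ i, ∑ j ∈ univ.erase i, (Q i * Q j + Q j * Q i + (epsA : ℂ) • (Q i + Q j)) =
      Q i * lap Φ x + lap Φ x * Q i + (epsA : ℂ) • ((2 : ℂ) • Q i + lap Φ x) - (2 : ℂ) • Q i := by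
    intro i
    rw [Finset.sum_erase_eq_sub (Finset.mem_univ i), hQQ]
    simp only [Finset.sum_add_distrib, ← Finset.mul_sum, ← Finset.sum_mul, ← Finset.smul_sum, ← hL,
      Finset.sum_const, Finset.card_univ, hJ]
    module
  simp only [e] at hsum
  simp only [Finset.sum_add_distrib, Finset.sum_sub_distrib, ← Finset.mul_sum, ← Finset.sum_mul,
    ← Finset.smul_sum, ← hL, Finset.sum_const, Finset.card_univ, hJ] at hsum
  have := smul_mem_cone (c := 1 / 2) (by norm_num) hsum
  convert this using 1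
  unfold lam
  push_cast
  module

end cone

end Crest.Agent.R73
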