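import Crest.Agent.R73.Data

/-!
Schmidt decomposition estimate: from an almost invariant vector for `T ⊗ σ` (with `T` a contraction
compressed to a finite dimensional space) to an almost invariant kernel for `σ ⊗ σ`.
-/

set_option autoImplicit false

namespace Crest.Agent.R73

open Finset
open scoped InnerProductSpace ComplexConjugate

variable {H : Type} [NormedAddCommGroup H] [InnerProductSpace ℂ H]

theorem exists_orth_basis (L : Submodule ℂ H) [FiniteDimensional ℂ L] {Y : Type} [Fintype Y]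
    (Ξ : Y → L) : ∃ e : OrthonormalBasis (Fin (Module.finrank ℂ L)) ℂ L,
      ∀ i j, i ≠ j → ∑ y, conj (⟪e i, Ξ y⟫_ℂ) * ⟪e j, Ξ y⟫_ℂ = 0 := by
  let D : L →ₗ[ℂ] L :=
    { toFun := fun x => ∑ y, ⟪Ξ y, x⟫_ℂ • Ξ y
      map_add' := fun x x' => by simp only [inner_add_right, add_smul, Finset.sum_add_distrib]
      map_smul' := fun c x => by
        simp only [inner_smul_right, Finset.smul_sum, smul_smul, RingHom.id_apply] }
  have hDa : ∀ x, D x = ∑ y, ⟪Ξ y, x⟫_ℂ • Ξ y := fun x => rfl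
  have hD : D.IsSymmetric := by
    intro x x'
    simp only [hDa, sum_inner, inner_sum, inner_smul_left,
      inner_smul_right, inner_conj_symm]
    exact Finset.sum_congr rfl fun y _ => mul_comm _ _
  refine ⟨hD.eigenvectorBasis rfl, fun i j hij => ?_⟩
  have h1 := hD.apply_eigenvectorBasis rfl i
  have h2 : ⟪hD.eigenvectorBasis rfl j, D (hD.eigenvectorBasis rfl i)⟫_ℂ = 0 := by
    rw [h1, inner_smul_right, (hD.eigenvectorBasis rfl).orthonormal.2 hij.symm, mul_zero]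
  rw [← h2]
  simp only [hDa, inner_sum, inner_smul_right, inner_conj_symm]

theorem sum_kernel_inner {Y ι : Type} [Fintype Y] [Fintype ι] (d : ι → ℝ) (w w' : ι → Y → ℂ) :
    ∑ y, ∑ y', conj (∑ i, (d i : ℂ) * (w' i y * conj (w' i y'))) *
      (∑ j, (d j : ℂ) * (w j y * conj (w j y'))) =
      ((∑ i, ∑ j, d i * d j * ‖∑ y, conj (w' i y) * w j y‖ ^ 2 : ℝ) : ℂ) := by
  have e : ∀ i j, ((d i * d j * ‖∑ y, conj (w' i y) * w j y‖ ^ 2 : ℝ) : ℂ) =
      ∑ y, ∑ y', conj ((d i : ℂ) * (w' i y * conj (w' i y'))) *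
        ((d j : ℂ) * (w j y * conj (w j y'))) := by
    intro i j
    push_cast
    rw [← Complex.mul_conj', map_sum, Finset.sum_mul_sum, Finset.mul_sum]
    refine Finset.sum_congr rfl fun y _ => ?_
    rw [Finset.mul_sum]
    refine Finset.sum_congr rfl fun y' _ => ?_
    simp only [map_mul, Complex.conj_conj, Complex.conj_ofReal]
    ring
  rw [Complex.ofReal_sum]
  simp only [Complex.ofReal_sum, e, map_sum, Finset.sum_mul_sum]
  calc ∑ y, ∑ y', ∑ i, ∑ j, conj ((d i : ℂ) * (w' i y * conj (w' i y'))) *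
        ((d j : ℂ) * (w j y * conj (w j y')))
      = ∑ y, ∑ i, ∑ y', ∑ j, conj ((d i : ℂ) * (w' i y * conj (w' i y'))) *
        ((d j : ℂ) * (w j y * conj (w j y'))) :=
        Finset.sum_congr rfl fun y _ => Finset.sum_comm
    _ = ∑ i, ∑ y, ∑ y', ∑ j, conj ((d i : ℂ) * (w' i y * conj (w' i y'))) *
        ((d j : ℂ) * (w j y * conj (w j y'))) := Finset.sum_comm
    _ = ∑ i, ∑ y, ∑ j, ∑ y', conj ((d i : ℂ) * (w' i y * conj (w' i y'))) *
        ((d j : ℂ) * (w j y * conj (w j y'))) :=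
        Finset.sum_congr rfl fun i _ => Finset.sum_congr rfl fun y _ => Finset.sum_comm
    _ = _ := Finset.sum_congr rfl fun i _ => Finset.sum_comm

theorem norm_sub_sq_complex (a b : ℂ) : ‖a - b‖ ^ 2 = ‖a‖ ^ 2 + ‖b‖ ^ 2 - 2 * (conj b * a).re := by
  simp only [Complex.sq_norm, Complex.normSq_apply, Complex.sub_re, Complex.sub_im, Complex.mul_re,
    Complex.conj_re, Complex.conj_im]
  ring

theorem conj_mul_self_re (a : ℂ) : (conj a * a).re = ‖a‖ ^ 2 := by
  rw [Complex.conj_mul', ← Complex.ofReal_pow, Complex.ofReal_re]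

theorem exists_kernel [CompleteSpace H] (L : Submodule ℂ H) [FiniteDimensional ℂ L] {Y : Type}
    [Fintype Y] (Ξ : Y → L) : ∃ ζ : Y → Y → ℂ,
      (∀ y y1 y' c, Ξ y1 = c • Ξ y → ζ y1 y' = c * ζ y y') ∧
      (∀ y y' y1' c, Ξ y1' = c • Ξ y' → ζ y y1' = conj c * ζ y y') ∧
      (∑ y, ∑ y', ‖ζ y y'‖ ^ 2 = ∑ y, ‖Ξ y‖ ^ 2) ∧
      (∃ g : Y → ℝ, ∑ y, g y ≤ Module.finrank ℂ L ∧ ∀ y y', ‖ζ y y'‖ ^ 2 ≤ ‖Ξ y‖ ^ 2 * g y') ∧
      ∀ (T : H →L[ℂ] H) (σ : Equiv.Perm Y) (ε : ℝ), ‖T‖ ≤ 1 →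
        (1 - ε) * ∑ y, ‖Ξ y‖ ^ 2 ≤ ∑ y, (⟪(Ξ (σ y) : H), T (Ξ y)⟫_ℂ).re →
        ∑ y, ∑ y', ‖ζ y y' - ζ (σ y) (σ y')‖ ^ 2 ≤ 4 * ε * ∑ y, ‖Ξ y‖ ^ 2 := by
  classical
  obtain ⟨e, he⟩ := exists_orth_basis L Ξ
  generalize Module.finrank ℂ L = N at e he ⊢
  let v : Fin N → Y → ℂ := fun i y => ⟪e i, Ξ y⟫_ℂ
  let d : Fin N → ℝ := fun i => Real.sqrt (∑ y, ‖v i y‖ ^ 2)
  have hd0 : ∀ i, 0 ≤ d i := fun i => Real.sqrt_nonneg _
  have hd2 : ∀ i, d i ^ 2 = ∑ y, ‖v i y‖ ^ 2 := fun i => Real.sq_sqrt (by positivity)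
  let w : Fin N → Y → ℂ := fun i y => ((d i)⁻¹ : ℝ) * v i y
  have hvw : ∀ i y, v i y = d i * w i y := by
    intro i y
    by_cases h : d i = 0
    · have h2 := hd2 i
      rw [h] at h2
      have := (Finset.sum_eq_zero_iff_of_nonneg (fun y _ => by positivity)).1
        (h2.symm.trans (by norm_num)) y (Finset.mem_univ y)
      have h3 : v i y = 0 := by simpa using this
      simp [h, h3]
    · have : (d i : ℂ) ≠ 0 := by exact_mod_cast h
      simp only [w]
      push_cast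
      field_simp
  have hwn : ∀ i, ∑ y, ‖w i y‖ ^ 2 = if d i = 0 then 0 else 1 := by
    intro i
    have : ∑ y, ‖w i y‖ ^ 2 = ((d i)⁻¹) ^ 2 * d i ^ 2 := by
      rw [hd2, Finset.mul_sum]
      refine Finset.sum_congr rfl fun y _ => ?_
      simp only [w, norm_mul, Complex.norm_real, Real.norm_eq_abs, mul_pow, sq_abs]
    rw [this]
    split_ifs with h
    · simp [h]
    · field_simp
  have hwo : ∀ i j, i ≠ j → ∑ y, conj (w i y) * w j y = 0 := by
    intro i j hij
    have : ∑ y, conj (w i y) * w j y =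
        (((d i)⁻¹ * (d j)⁻¹ : ℝ) : ℂ) * ∑ y, conj (v i y) * v j y := by
      rw [Finset.mul_sum]
      refine Finset.sum_congr rfl fun y _ => ?_
      simp only [w, map_mul, Complex.conj_ofReal]
      push_cast
      ring
    rw [this, he i j hij, mul_zero]
  have hm : ∑ i, d i ^ 2 = ∑ y, ‖Ξ y‖ ^ 2 := by
    simp only [hd2]
    rw [Finset.sum_comm]
    exact Finset.sum_congr rfl fun y _ => e.sum_sq_norm_inner_right _
  let ζ : Y → Y → ℂ := fun y y' => ∑ i, (d i : ℂ) * (w i y * conj (w i y'))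
  have hb : ∑ y, ∑ y', ‖ζ y y'‖ ^ 2 = ∑ y, ‖Ξ y‖ ^ 2 := by
    have h1 := congrArg Complex.re (sum_kernel_inner d w w)
    simp only [Complex.re_sum, Complex.ofReal_re] at h1
    simp only [← conj_mul_self_re]
    rw [h1, ← hm]
    refine Finset.sum_congr rfl fun i _ => ?_
    rw [Finset.sum_eq_single i (fun j _ hj => by rw [hwo i j hj.symm]; simp) (by simp)]
    have : ∑ y, conj (w i y) * w i y = ((∑ y, ‖w i y‖ ^ 2 : ℝ) : ℂ) := by
      push_cast
      exact Finset.sum_congr rfl fun y _ => Complex.conj_mul' _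
    rw [this, hwn]
    split_ifs with h
    · simp [h]
    · simp [sq]
  have hwc : ∀ i y y1 c, Ξ y1 = c • Ξ y → w i y1 = c * w i y := by
    intro i y y1 c h
    simp only [w, v, h, inner_smul_right]
    ring
  refine ⟨ζ, fun y y1 y' c h => ?_, fun y y' y1' c h => ?_, hb,
    ⟨fun y' => ∑ i, ‖w i y'‖ ^ 2, ?_, fun y y' => ?_⟩, fun T σ ε hT h => ?_⟩
  · simp only [ζ, hwc _ _ _ _ h, Finset.mul_sum]
    exact Finset.sum_congr rfl fun i _ => by ring
  · simp only [ζ, hwc _ _ _ _ h, Finset.mul_sum, map_mul]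
    exact Finset.sum_congr rfl fun i _ => by ring
  · rw [Finset.sum_comm]
    simp only [hwn]
    calc ∑ i, (if d i = 0 then (0 : ℝ) else 1) ≤ ∑ _i : Fin N, (1 : ℝ) :=
          Finset.sum_le_sum fun i _ => by split_ifs <;> norm_num
      _ = N := by simp
  · rw [← e.sum_sq_norm_inner_right (Ξ y)]
    refine le_trans ?_ (Finset.sum_mul_sq_le_sq_mul_sq _ (fun i => ‖v i y‖) (fun i => ‖w i y'‖))
    gcongr
    refine (norm_sum_le _ _).trans (le_of_eq (Finset.sum_congr rfl fun i _ => ?_))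
    rw [← mul_assoc, ← hvw, norm_mul, RCLike.norm_conj]
  · set u : Fin N → Fin N → ℂ := fun i j => ∑ y, conj (w i (σ y)) * w j y with hu
    set c : Fin N → Fin N → ℂ := fun i j => ⟪(e i : H), T (e j)⟫_ℂ with hc
    set f : ℝ := ∑ i, ∑ j, d i * d j * ‖u i j‖ ^ 2 with hf
    set m : ℝ := ∑ y, ‖Ξ y‖ ^ 2 with hmdef
    have hon : Orthonormal ℂ (fun i => (e i : H)) := e.orthonormal.comp_linearIsometry L.subtypeₗᵢ
    have hexp : ∀ y, (Ξ y : H) = ∑ j, ((d j : ℂ) * w j y) • (e j : H) := by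
      intro y
      conv_lhs => rw [← e.sum_repr' (Ξ y)]
      simp only [← hvw, v, AddSubmonoidClass.coe_finsetSum, SetLike.val_smul]
    have h1 : ∑ y, ⟪(Ξ (σ y) : H), T (Ξ y)⟫_ℂ = ∑ i, ∑ j, ((d i * d j : ℝ) : ℂ) * (c i j * u i j) := by
      have : ∀ y, ⟪(Ξ (σ y) : H), T (Ξ y)⟫_ℂ =
          ∑ i, ∑ j, ((d i * d j : ℝ) : ℂ) * (c i j * (conj (w i (σ y)) * w j y)) := by
        intro y
        rw [hexp (σ y), hexp y, map_sum, sum_inner]
        refine Finset.sum_congr rfl fun i _ => ?_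
        rw [inner_sum]
        refine Finset.sum_congr rfl fun j _ => ?_
        simp only [map_smul, inner_smul_left, inner_smul_right, map_mul, Complex.conj_ofReal, hc]
        push_cast
        ring
      simp only [this, hu, Finset.mul_sum]
      rw [Finset.sum_comm]
      exact Finset.sum_congr rfl fun i _ => Finset.sum_comm
    have hcol : ∀ j, ∑ i, ‖c i j‖ ^ 2 ≤ 1 := by
      intro j
      refine (hon.sum_inner_products_le (T (e j))).trans ?_
      have : ‖T (e j)‖ ≤ 1 := (T.le_opNorm _).trans (by rw [hon.1 j]; simpa using hT)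
      have := norm_nonneg (T (e j))
      nlinarith
    have hrow : ∀ i, ∑ j, ‖c i j‖ ^ 2 ≤ 1 := by
      intro i
      have : ∀ j, ‖c i j‖ = ‖⟪(e j : H), ContinuousLinearMap.adjoint T (e i)⟫_ℂ‖ := by
        intro j
        rw [ContinuousLinearMap.adjoint_inner_right, norm_inner_symm]
      simp only [this]
      refine (hon.sum_inner_products_le _).trans ?_
      have : ‖ContinuousLinearMap.adjoint T (e i)‖ ≤ 1 :=
        (ContinuousLinearMap.le_opNorm _ _).trans (by rw [hon.1 i]; simpa using hT)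
      have := norm_nonneg (ContinuousLinearMap.adjoint T (e i))
      nlinarith
    have h2 : ∑ i, ∑ j, d i * d j * ‖c i j‖ ^ 2 ≤ m := by
      calc ∑ i, ∑ j, d i * d j * ‖c i j‖ ^ 2
          ≤ ∑ i, ∑ j, (d i ^ 2 / 2 * ‖c i j‖ ^ 2 + d j ^ 2 / 2 * ‖c i j‖ ^ 2) := by
            refine Finset.sum_le_sum fun i _ => Finset.sum_le_sum fun j _ => ?_
            have := sq_nonneg (d i - d j)
            have := sq_nonneg ‖c i j‖
            nlinarith
        _ = ∑ i, d i ^ 2 / 2 * ∑ j, ‖c i j‖ ^ 2 + ∑ j, d j ^ 2 / 2 * ∑ i, ‖c i j‖ ^ 2 := by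
            simp only [Finset.sum_add_distrib, Finset.mul_sum]
            congr 1
            exact Finset.sum_comm
        _ ≤ ∑ i, d i ^ 2 / 2 + ∑ j, d j ^ 2 / 2 :=
            add_le_add (Finset.sum_le_sum fun i _ => mul_le_of_le_one_right (by positivity) (hrow i))
              (Finset.sum_le_sum fun j _ => mul_le_of_le_one_right (by positivity) (hcol j))
        _ = m := by rw [← Finset.sum_div, hm]; ring
    have h3 : ∑ y, (⟪(Ξ (σ y) : H), T (Ξ y)⟫_ℂ).re ≤ (m + f) / 2 := by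
      rw [← Complex.re_sum, h1]
      simp only [Complex.re_sum, Complex.re_ofReal_mul]
      calc ∑ i, ∑ j, d i * d j * (c i j * u i j).re
          ≤ ∑ i, ∑ j, (d i * d j * ‖c i j‖ ^ 2 + d i * d j * ‖u i j‖ ^ 2) / 2 := by
            refine Finset.sum_le_sum fun i _ => Finset.sum_le_sum fun j _ => ?_
            have k1 : (c i j * u i j).re ≤ ‖c i j‖ * ‖u i j‖ :=
              (Complex.re_le_norm _).trans (norm_mul _ _).le
            have k2 := sq_nonneg (‖c i j‖ - ‖u i j‖)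
            have k3 : 0 ≤ d i * d j := mul_nonneg (hd0 i) (hd0 j)
            nlinarith
        _ = (∑ i, ∑ j, d i * d j * ‖c i j‖ ^ 2 + f) / 2 := by
            simp only [← Finset.sum_div, Finset.sum_add_distrib, hf]
        _ ≤ _ := by linarith
    have h4 : ∑ y, ∑ y', (conj (ζ (σ y) (σ y')) * ζ y y').re = f := by
      have h1 := congrArg Complex.re (sum_kernel_inner d w (fun i y => w i (σ y)))
      simp only [Complex.re_sum, Complex.ofReal_re] at h1
      exact h1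
    have h5 : ∑ y, ∑ y', ‖ζ (σ y) (σ y')‖ ^ 2 = m := by
      rw [← hb, ← Equiv.sum_comp σ (fun y => ∑ y', ‖ζ y y'‖ ^ 2)]
      exact Finset.sum_congr rfl fun y _ => Equiv.sum_comp σ (fun y' => ‖ζ (σ y) y'‖ ^ 2)
    simp only [norm_sub_sq_complex, Finset.sum_sub_distrib, Finset.sum_add_distrib,
      ← Finset.mul_sum]
    rw [h4, h5, hb]
    linarith

end Crest.Agent.R73
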