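import Crest.Agent.R73.Data

/-!
The inductive step: almost invariant vectors at level `k` give ones at level `k + 1`.
-/

set_option autoImplicit false

namespace Crest.Agent.R73

open Finset Filter Topology

variable {H : Type} [NormedAddCommGroup H] [InnerProductSpace ℂ H]

theorem sum_VV_succ (k : ℕ) (f : VV (k + 1) → ℝ) :
    ∑ w, f w = ∑ a : FF, ∑ v : VV k, f (Fin.cons a v) := by
  rw [← (Fin.consEquiv (fun _ : Fin (k + 1) => FF)).sum_comp, Fintype.sum_prod_type]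
  rfl

theorem step_one (A : GG → (H →L[ℂ] H)) (hc : ∀ g, ‖A g‖ ≤ 1) {δ ε : ℝ} (hδ : 0 ≤ δ) (hε : 0 ≤ ε)
    (h1 : ∀ (j : JJ) (b a a' c : FF) (i : ZMod 3) (b' : FF),
      gx j b * (gx none a * gt) = (gx none a' * gt) * (gx none c * gx (some i) b') →
      ‖A (gx j b) * A (gx none a * gt) - A (gx none a' * gt) * (A (gx none c) * A (gx (some i) b'))‖
        ≤ δ)
    (h2 : ∀ a : FF, ‖A (gx none a * gt)⁻¹ * A (gx none a * gt) - 1‖ ≤ 1 / 2) (θ : ℂ) (k : ℕ)
    (h : AI (fun j b => A (gx j b)) (DV (k + 1)).x (fun v => v + pw (k + 1) k) θ ε) :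
    AI (fun j b => A (gx j b)) (DV (k + 2)).x (fun v => v + pw (k + 2) (k + 1)) θ
      (2 * (δ + 2 * ε)) := by
  obtain ⟨ξ, hθ, hne, hd⟩ := h
  set B : FF → H →L[ℂ] H := fun a => A (gx none a * gt) with hB
  let η : VF (VV (k + 2)) H := WithLp.toLp 2 fun w => B (w 0) (ξ (Fin.tail w))
  have hη : ∀ a v, η (Fin.cons a v) = B a (ξ v) := fun a v => by simp [η]
  have hlow : ∀ a (x : H), ‖x‖ ≤ 2 * ‖B a x‖ := by
    intro a x
    have e : x = A (gx none a * gt)⁻¹ (B a x) - (A (gx none a * gt)⁻¹ * B a - 1) x := by simp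
    have k1 : ‖A (gx none a * gt)⁻¹ (B a x)‖ ≤ ‖B a x‖ :=
      ((A _).le_opNorm _).trans (mul_le_of_le_one_left (norm_nonneg _) (hc _))
    have k2 : ‖(A (gx none a * gt)⁻¹ * B a - 1) x‖ ≤ 1 / 2 * ‖x‖ :=
      (ContinuousLinearMap.le_opNorm _ _).trans (mul_le_mul_of_nonneg_right (h2 a) (norm_nonneg _))
    have k3 : ‖x‖ ≤ ‖A (gx none a * gt)⁻¹ (B a x)‖ + ‖(A (gx none a * gt)⁻¹ * B a - 1) x‖ := by
      conv_lhs => rw [e]
      exact norm_sub_le _ _
    linarith
  have hnorm : 11 * ‖ξ‖ ^ 2 ≤ 4 * ‖η‖ ^ 2 := by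
    rw [VF.norm_sq η, sum_VV_succ, Finset.mul_sum]
    have : ∑ _a : FF, ‖ξ‖ ^ 2 = 11 * ‖ξ‖ ^ 2 := by
      rw [Finset.sum_const, Finset.card_univ, ZMod.card, nsmul_eq_mul]; norm_num
    rw [← this]
    refine Finset.sum_le_sum fun a _ => ?_
    rw [VF.norm_sq, Finset.mul_sum]
    refine Finset.sum_le_sum fun v _ => ?_
    rw [hη]
    have := hlow a (ξ v)
    have := norm_nonneg (ξ v)
    nlinarith
  have hξ : 0 < ‖ξ‖ := norm_pos_iff.2 hne
  refine ⟨η, fun w => ?_, ?_, fun j b => ?_⟩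
  · obtain ⟨a, v, rfl⟩ : ∃ (a : FF) (v : VV (k + 1)), w = Fin.cons a v :=
      ⟨w 0, Fin.tail w, (Fin.cons_self_tail w).symm⟩
    beta_reduce
    rw [← cons_add_pw, hη, hη, hθ, map_smul]
  · intro h0
    rw [h0, norm_zero] at hnorm
    nlinarith
  · refine le_of_sq_le (by positivity) ?_
    have key : ∀ a : FF, ∑ v : VV (k + 1), ‖A (gx j b) (η (Fin.cons a v)) -
        η ((DV (k + 2)).x j b (Fin.cons a v))‖ ^ 2 ≤ ((δ + 2 * ε) * ‖ξ‖) ^ 2 := by
      intro a
      obtain ⟨a', c, i, b', hG, hV⟩ := step_rel j b a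
      set σ := (DV (k + 1)).x none c * (DV (k + 1)).x (some i) b' with hσ
      have e1 : ∑ v : VV (k + 1), ‖A (gx j b) (η (Fin.cons a v)) -
          η ((DV (k + 2)).x j b (Fin.cons a v))‖ ^ 2 =
          ‖ampl (A (gx j b) * B a) σ ξ - ampl (B a') 1 ξ‖ ^ 2 := by
        rw [ampl_defect_sq]
        refine Finset.sum_congr rfl fun v _ => ?_
        rw [hV, hη, hη]
        rfl
      rw [e1]
      gcongr
      set ρ1 := ampl (A (gx none c)) ((DV (k + 1)).x none c) with hρ1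
      set ρ2 := ampl (A (gx (some i) b')) ((DV (k + 1)).x (some i) b') with hρ2
      have e2 : ampl (A (gx j b) * B a) σ ξ - ampl (B a') 1 ξ =
          ampl (A (gx j b) * B a - B a' * (A (gx none c) * A (gx (some i) b'))) σ ξ +
            ampl (B a') 1 (ρ1 (ρ2 ξ - ξ) + (ρ1 ξ - ξ)) := by
        have e3 : ampl (B a' * (A (gx none c) * A (gx (some i) b'))) σ ξ =
            ampl (B a') 1 (ρ1 (ρ2 ξ)) := by
          rw [← mul_apply_eq_comp, ← mul_apply_eq_comp, mul_assoc, hρ1, hρ2, ampl_mul, ampl_mul,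
            one_mul]
        rw [← ampl_sub, _root_.sub_apply, e3]
        simp only [map_add, map_sub]
        abel
      rw [e2]
      have k1 : ‖ampl (A (gx j b) * B a - B a' * (A (gx none c) * A (gx (some i) b'))) σ ξ‖ ≤
          δ * ‖ξ‖ := (ContinuousLinearMap.le_opNorm _ _).trans
            (mul_le_mul_of_nonneg_right ((norm_ampl_le _ _).trans (h1 j b a a' c i b' hG))
              (norm_nonneg _))
      have hcon : ∀ (g : GG) (σ : Equiv.Perm (VV (k + 1))) (ζ : VF (VV (k + 1)) H),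
          ‖ampl (A g) σ ζ‖ ≤ ‖ζ‖ := fun g σ ζ => (ContinuousLinearMap.le_opNorm _ _).trans
            (mul_le_of_le_one_left (norm_nonneg _) ((norm_ampl_le _ _).trans (hc g)))
      have k2 := hcon (gx none a' * gt) 1 (ρ1 (ρ2 ξ - ξ) + (ρ1 ξ - ξ))
      have k3 := norm_add_le (ρ1 (ρ2 ξ - ξ)) (ρ1 ξ - ξ)
      have k4 := hcon (gx none c) ((DV (k + 1)).x none c) (ρ2 ξ - ξ)
      have k5 := hd none c
      have k6 := hd (some i) b'
      refine (norm_add_le _ _).trans ?_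
      simp only [← hρ1, ← hρ2] at k4 k5 k6
      change ‖ampl (B a') 1 (ρ1 (ρ2 ξ - ξ) + (ρ1 ξ - ξ))‖ ≤ _ at k2
      linarith
    rw [ampl_defect_sq', sum_VV_succ]
    refine (Finset.sum_le_sum fun a _ => key a).trans ?_
    rw [Finset.sum_const, Finset.card_univ, ZMod.card, nsmul_eq_mul]
    have : 0 ≤ (δ + 2 * ε) ^ 2 := by positivity
    push_cast
    nlinarith

theorem step_ev {ι : Type} (𝓕 : Filter ι) (A : ι → GG → (H →L[ℂ] H)) (hc : ∀ n g, ‖A n g‖ ≤ 1)
    (hm : ∀ g g', Tendsto (fun i => ‖A i (g * g') - A i g * A i g'‖) 𝓕 (𝓝 0))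
    (h1 : Tendsto (fun i => ‖A i 1 - 1‖) 𝓕 (𝓝 0)) (θ : ℂ) {ε : ℝ} (hε : 0 < ε) :
    ∀ᶠ n in 𝓕, ∀ k : ℕ,
      AI (fun j b => A n (gx j b)) (DV (k + 1)).x (fun v => v + pw (k + 1) k) θ (ε / 8) →
      AI (fun j b => A n (gx j b)) (DV (k + 2)).x (fun v => v + pw (k + 2) (k + 1)) θ ε := by
  have hm' : ∀ g g' {δ : ℝ}, 0 < δ → ∀ᶠ n in 𝓕, ‖A n (g * g') - A n g * A n g'‖ ≤ δ :=
    fun g g' δ hδ => ((hm g g').eventually (ge_mem_nhds hδ))
  have e1 : ∀ᶠ n in 𝓕, ∀ (j : JJ) (b a a' c : FF) (i : ZMod 3) (b' : FF),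
      gx j b * (gx none a * gt) = (gx none a' * gt) * (gx none c * gx (some i) b') →
      ‖A n (gx j b) * A n (gx none a * gt) -
        A n (gx none a' * gt) * (A n (gx none c) * A n (gx (some i) b'))‖ ≤ ε / 4 := by
    simp only [eventually_all]
    intro j b a a' c i b' hG
    have hδ : 0 < ε / 12 := by positivity
    filter_upwards [hm' (gx j b) (gx none a * gt) hδ,
      hm' (gx none a' * gt) (gx none c * gx (some i) b') hδ,
      hm' (gx none c) (gx (some i) b') hδ] with n k1 k2 k3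
    rw [hG] at k1
    set X := A n (gx none a' * gt * (gx none c * gx (some i) b'))
    set P := A n (gx j b) * A n (gx none a * gt)
    set Q := A n (gx none a' * gt)
    set R := A n (gx none c * gx (some i) b')
    set S := A n (gx none c) * A n (gx (some i) b')
    have e : P - Q * S = -(X - P) + (X - Q * R) + Q * (R - S) := by noncomm_ring
    have k4 : ‖Q * (R - S)‖ ≤ ε / 12 :=
      (norm_mul_le _ _).trans ((mul_le_of_le_one_left (norm_nonneg _) (hc _ _)).trans k3)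
    rw [e]
    refine (norm_add_le _ _).trans ((add_le_add_left (norm_add_le _ _) _).trans ?_)
    rw [norm_neg]
    linarith
  have e2 : ∀ᶠ n in 𝓕, ∀ a : FF, ‖A n (gx none a * gt)⁻¹ * A n (gx none a * gt) - 1‖ ≤ 1 / 2 := by
    simp only [eventually_all]
    intro a
    filter_upwards [hm' (gx none a * gt)⁻¹ (gx none a * gt) (δ := 1 / 4) (by norm_num),
      h1.eventually (ge_mem_nhds (show (0 : ℝ) < 1 / 4 by norm_num))] with n k1 k2
    rw [inv_mul_cancel, norm_sub_rev] at k1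
    have := norm_sub_le_norm_sub_add_norm_sub (A n (gx none a * gt)⁻¹ * A n (gx none a * gt))
      (A n 1) 1
    linarith
  filter_upwards [e1, e2] with n k1 k2 k h
  have := step_one (A n) (hc n) (by positivity) (by positivity) k1 k2 θ k h
  convert this using 1
  ring

end Crest.Agent.R73
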