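import Mathlib
import Crest.Prelude.Def_CStarEmbedding

/-!
C⋆-algebras generated by a family, extension of ⋆-homomorphisms through the graph, and existence of
the full group C⋆-algebra.
-/

set_option autoImplicit false

namespace Crest.Agent.R73

open scoped ENNReal

section gen

variable {ι A : Type} [CStarAlgebra A]

/-- the closed ⋆-subalgebra generated by a family -/
def genAlg (x : ι → A) : StarSubalgebra ℂ A :=
  (StarAlgebra.adjoin ℂ (Set.range x)).topologicalClosure

instance genAlg_isClosed (x : ι → A) : IsClosed (genAlg x : Set A) :=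
  StarSubalgebra.isClosed_topologicalClosure _

theorem mem_genAlg (x : ι → A) (i : ι) : x i ∈ genAlg x :=
  StarSubalgebra.le_topologicalClosure _ (StarAlgebra.subset_adjoin ℂ _ ⟨i, rfl⟩)

/-- generators as elements of the generated algebra -/
def genEl (x : ι → A) (i : ι) : genAlg x := ⟨x i, mem_genAlg x i⟩

theorem genAlg_top (x : ι → A) :
    (StarAlgebra.adjoin ℂ (Set.range (genEl x))).topologicalClosure = ⊤ := by
  apply StarSubalgebra.map_injective (f := (genAlg x).subtype) Subtype.val_injective
  rw [← StarSubalgebra.topologicalClosure_map _ _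
    (genAlg_isClosed x).isClosedEmbedding_subtypeVal.isClosedMap continuous_subtype_val,
    StarAlgHom.map_adjoin, ← Set.range_comp]
  ext a
  simp only [StarSubalgebra.mem_map, StarSubalgebra.mem_top, true_and]
  constructor
  · intro h
    exact ⟨⟨a, h⟩, rfl⟩
  · rintro ⟨b, rfl⟩
    exact b.2

theorem graph_ext {B : Type} [CStarAlgebra B] (x : ι → A) (y : ι → B)
    (hx : (StarAlgebra.adjoin ℂ (Set.range x)).topologicalClosure = ⊤)
    (h : ∀ p ∈ StarAlgebra.adjoin ℂ (Set.range fun i => (x i, y i)), ‖p.2‖ ≤ ‖p.1‖) :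
    ∃ φ : A →⋆ₐ[ℂ] B, ∀ i, φ (x i) = y i := by
  let C := genAlg fun i => (x i, y i)
  have hC : ∀ p ∈ C, ‖p.2‖ ≤ ‖p.1‖ := by
    intro p hp
    have hcl : IsClosed {p : A × B | ‖p.2‖ ≤ ‖p.1‖} :=
      isClosed_le continuous_snd.norm continuous_fst.norm
    exact closure_minimal (fun q hq => h q hq) hcl hp
  let f : C →⋆ₐ[ℂ] A := (StarAlgHom.fst ℂ A B).comp C.subtype
  have hinj : Function.Injective f := by
    rw [injective_iff_map_eq_zero]
    intro p hp
    have h1 : p.1.1 = 0 := hp
    have h2 := hC p.1 p.2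
    rw [h1, norm_zero, norm_le_zero_iff] at h2
    exact Subtype.ext (Prod.ext h1 h2)
  have hiso : Isometry f := NonUnitalStarAlgHom.isometry f hinj
  have hsurj : Function.Surjective f := by
    have h1 : StarAlgebra.adjoin ℂ (Set.range x) ≤ f.range := by
      refine StarAlgebra.adjoin_le ?_
      rintro _ ⟨i, rfl⟩
      exact ⟨genEl (fun i => (x i, y i)) i, rfl⟩
    have h2 := StarSubalgebra.topologicalClosure_minimal h1 hiso.isClosedEmbedding.isClosed_range
    rw [hx] at h2
    intro a
    exact h2 StarSubalgebra.mem_top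
  let e := StarAlgEquiv.ofBijective f ⟨hinj, hsurj⟩
  refine ⟨((StarAlgHom.snd ℂ A B).comp C.subtype).comp (e.symm : A →⋆ₐ[ℂ] C), fun i => ?_⟩
  have : e.symm (x i) = genEl (fun i => (x i, y i)) i := by
    rw [StarAlgEquiv.symm_apply_eq]; rfl
  change (e.symm (x i)).1.2 = y i
  rw [this]
  rfl

theorem graph_ext' {B : Type} [CStarAlgebra B] (x : ι → A) (y : ι → B)
    (h : ∀ p ∈ StarAlgebra.adjoin ℂ (Set.range fun i => (x i, y i)), ‖p.2‖ ≤ ‖p.1‖) :
    ∃ φ : genAlg x →⋆ₐ[ℂ] B, ∀ i, φ (genEl x i) = y i := by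
  refine graph_ext (genEl x) y (genAlg_top x) fun p hp => ?_
  let Φ : genAlg x × B →⋆ₐ[ℂ] A × B :=
    ((genAlg x).subtype.comp (StarAlgHom.fst ℂ _ B)).prod (StarAlgHom.snd ℂ _ B)
  have h1 : Φ p ∈ (StarAlgebra.adjoin ℂ (Set.range fun i => (genEl x i, y i))).map Φ :=
    ⟨p, hp, rfl⟩
  rw [StarAlgHom.map_adjoin, ← Set.range_comp] at h1
  exact h (Φ p) h1

end gen

section group

variable (G : Type) [Group G]

/-- a unitary representation in a nonzero C⋆-algebra -/
structure URep where
  B : Type
  [inst : CStarAlgebra B]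
  [nt : Nontrivial B]
  w : G →* unitary B

attribute [instance] URep.inst URep.nt

/-- evaluation of a formal combination -/
noncomputable def evalRep {G : Type} [Group G] {B : Type} [CStarAlgebra B] (w : G →* unitary B)
    (c : G →₀ ℂ) : B := c.sum fun g a => a • (w g : B)

open Classical in
/-- a family of representations which is norming -/
noncomputable def chooseRep (j : (G →₀ ℂ) × ℝ) : URep G :=
  if h : ∃ R : URep G, j.2 < ‖evalRep R.w j.1‖ then h.choose else { B := ℂ, w := 1 }

theorem chooseRep_spec (j : (G →₀ ℂ) × ℝ) (R : URep G) (h : j.2 < ‖evalRep R.w j.1‖) :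
    j.2 < ‖evalRep (chooseRep G j).w j.1‖ := by
  have h' : ∃ R : URep G, j.2 < ‖evalRep R.w j.1‖ := ⟨R, h⟩
  have : chooseRep G j = h'.choose := dif_pos h'
  rw [this]
  exact h'.choose_spec

/-- the big product algebra -/
abbrev BigAlg : Type := lp (fun j => (chooseRep G j).B) ∞

noncomputable instance : CStarAlgebra (BigAlg G) where

/-- the diagonal unitaries -/
noncomputable def bigU (g : G) : BigAlg G :=
  ⟨fun j => ((chooseRep G j).w g : (chooseRep G j).B), memℓp_infty ⟨1, by
    rintro _ ⟨j, rfl⟩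
    exact (CStarRing.norm_coe_unitary _).le⟩⟩

theorem bigU_apply (g : G) (j : (G →₀ ℂ) × ℝ) :
    bigU G g j = ((chooseRep G j).w g : (chooseRep G j).B) := rfl

theorem bigU_mul (g g' : G) : bigU G (g * g') = bigU G g * bigU G g' := by
  ext j
  rw [lp.infty_coeFn_mul, Pi.mul_apply, bigU_apply, bigU_apply, bigU_apply, map_mul]
  rfl

theorem bigU_one : bigU G 1 = 1 := by
  ext j
  rw [bigU_apply, map_one]
  rfl

theorem bigU_star (g : G) : star (bigU G g) = bigU G g⁻¹ := by
  ext j
  rw [lp.star_apply, bigU_apply, bigU_apply, map_inv]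
  rfl

/-- the full group C⋆-algebra -/
abbrev FullC : Type := genAlg (bigU G)

/-- the canonical unitaries -/
noncomputable def fullU : G →* unitary (FullC G) where
  toFun g := ⟨genEl (bigU G) g, by
    constructor <;> apply Subtype.ext
    · change star (bigU G g) * bigU G g = 1
      rw [bigU_star, ← bigU_mul, inv_mul_cancel, bigU_one]
    · change bigU G g * star (bigU G g) = 1
      rw [bigU_star, ← bigU_mul, mul_inv_cancel, bigU_one]⟩
  map_one' := Subtype.ext (Subtype.ext (bigU_one G))
  map_mul' g g' := Subtype.ext (Subtype.ext (bigU_mul G g g'))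

theorem adjoin_subset_span {A : Type} [Ring A] [Algebra ℂ A] [StarRing A] [StarModule ℂ A]
    (U : G → A) (h1 : U 1 = 1) (hm : ∀ g g', U (g * g') = U g * U g')
    (hs : ∀ g, star (U g) = U g⁻¹) {p : A} (hp : p ∈ StarAlgebra.adjoin ℂ (Set.range U)) :
    p ∈ Submodule.span ℂ (Set.range U) := by
  induction hp using StarAlgebra.adjoin_induction with
  | mem x hx => exact Submodule.subset_span hx
  | algebraMap r =>
    rw [Algebra.algebraMap_eq_smul_one]
    exact Submodule.smul_mem _ _ (Submodule.subset_span ⟨1, h1⟩)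
  | add x y _ _ hx hy => exact add_mem hx hy
  | mul x y _ _ hx hy =>
    refine Submodule.span_induction₂ (p := fun x y _ _ => x * y ∈ Submodule.span ℂ (Set.range U))
      ?_ ?_ ?_ ?_ ?_ ?_ ?_ hx hy
    · rintro _ _ ⟨g, rfl⟩ ⟨g', rfl⟩
      exact Submodule.subset_span ⟨g * g', hm g g'⟩
    · intro y _; simp
    · intro x _; simp
    · intro x y z _ _ _ h h'; rw [add_mul]; exact add_mem h h'
    · intro x y z _ _ _ h h'; rw [mul_add]; exact add_mem h h'
    · intro r x y _ _ h; rw [smul_mul_assoc]; exact Submodule.smul_mem _ _ h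
    · intro r x y _ _ h; rw [mul_smul_comm]; exact Submodule.smul_mem _ _ h
  | star x _ hx =>
    refine Submodule.span_induction (p := fun x _ => star x ∈ Submodule.span ℂ (Set.range U))
      ?_ ?_ ?_ ?_ hx
    · rintro _ ⟨g, rfl⟩
      exact Submodule.subset_span ⟨g⁻¹, (hs g).symm⟩
    · simp
    · intro x y _ _ h h'; rw [star_add]; exact add_mem h h'
    · intro r x _ h; rw [star_smul]; exact Submodule.smul_mem _ _ h

theorem fullC_isFull :
    Crest.AnalysisR.CStarEmbedding.IsFullGroupCStar (FullC G) (fullU G) := by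
  refine ⟨genAlg_top (bigU G), fun B _ w => ?_⟩
  refine graph_ext' (bigU G) (fun g => (w g : B)) fun p hp => ?_
  have h := adjoin_subset_span G (fun g => (bigU G g, (w g : B)))
    (Prod.ext (bigU_one G) (by simp)) (fun g g' => Prod.ext (bigU_mul G g g') (by simp))
    (fun g => Prod.ext (bigU_star G g) (by rw [map_inv]; rfl)) hp
  obtain ⟨c, rfl⟩ := Finsupp.mem_span_range_iff_exists_finsupp.1 h
  have e2 : (c.sum fun g a => a • (bigU G g, (w g : B))).2 = evalRep w c := by
    simp only [Finsupp.sum, evalRep, Prod.snd_sum, Prod.smul_snd]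
  have e1 : ∀ j, (c.sum fun g a => a • (bigU G g, (w g : B))).1 j = evalRep (chooseRep G j).w c := by
    intro j
    simp only [Finsupp.sum, evalRep, Prod.fst_sum, Prod.smul_fst, lp.coeFn_sum, Finset.sum_apply,
      lp.coeFn_smul, Pi.smul_apply, bigU_apply]
  rw [e2]
  cases subsingleton_or_nontrivial B with
  | inl hB => rw [Subsingleton.elim (evalRep w c) 0, norm_zero]; exact norm_nonneg _
  | inr hB =>
    refine le_of_forall_lt fun r hr => ?_
    have := chooseRep_spec G (c, r) { B := B, w := w } hr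
    rw [← e1] at this
    exact this.trans_le (lp.norm_apply_le_norm ENNReal.top_ne_zero _ _)

end group

end Crest.Agent.R73
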